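import Vale.Agent.P063.Defs

/-!
# P063, module K : averages over the colorings
-/

namespace P063

open Finset Real

namespace ColorAux

variable {E : Type} [Fintype E] [DecidableEq E] {R : ℕ}

lemma avg_prod (W : E → Fin R → ℝ) :
    avg (fun χ : E → Fin R => ∏ e, W e (χ e)) = ∏ e, ((∑ v, W e v) / R) := by
  unfold avg
  rw [Finset.prod_div_distrib, Finset.prod_const, Finset.card_univ, Finset.prod_univ_sum]
  congr 1

lemma avg_prod_on (hR : 0 < R) (S : Finset E) (g : Fin R → ℝ) :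
    avg (fun χ : E → Fin R => ∏ e ∈ S, g (χ e)) = ((∑ v, g v) / R) ^ S.card := by
  have hR' : (R : ℝ) ≠ 0 := by positivity
  have h := avg_prod (E := E) (R := R) (fun e v => if e ∈ S then g v else 1)
  have h2 : ∀ χ : E → Fin R, ∏ e, (if e ∈ S then g (χ e) else 1) = ∏ e ∈ S, g (χ e) := by
    intro χ
    rw [Finset.prod_ite_mem, Finset.univ_inter]
  simp only [h2] at h
  rw [h]
  have h3 : ∀ e : E, (∑ v : Fin R, if e ∈ S then g v else 1) / (R : ℝ) =
      if e ∈ S then (∑ v, g v) / R else 1 := by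
    intro e
    by_cases he : e ∈ S
    · simp only [if_pos he]
    · simp only [if_neg he, Finset.sum_const, Finset.card_univ, Fintype.card_fin, nsmul_eq_mul,
        mul_one]
      exact div_self hR'
  simp only [h3]
  rw [Finset.prod_ite_mem, Finset.univ_inter, Finset.prod_const]

lemma avg_sum {ι : Type*} (s : Finset ι) (F : ι → (E → Fin R) → ℝ) :
    avg (fun χ => ∑ i ∈ s, F i χ) = ∑ i ∈ s, avg (F i) := by
  unfold avg
  rw [Finset.sum_comm, Finset.sum_div]

lemma avg_sub (F H : (E → Fin R) → ℝ) : avg (fun χ => F χ - H χ) = avg F - avg H := by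
  unfold avg
  rw [Finset.sum_sub_distrib, sub_div]

lemma avg_one (hR : 0 < R) : avg (fun _ : E → Fin R => (1 : ℝ)) = 1 := by
  have := avg_prod_on (E := E) hR ∅ (fun _ => 1)
  simpa using this

lemma sum_low {M : ℕ} (hM : M ≤ R) : ∑ v : Fin R, (if (v : ℕ) < M then (1 : ℝ) else 0) = M := by
  rw [Fin.sum_univ_eq_sum_range (fun v => if v < M then (1 : ℝ) else 0) R, ← Finset.sum_filter,
    Finset.sum_const, nsmul_eq_mul, mul_one]
  congr 1
  have : (Finset.range R).filter (fun v => v < M) = Finset.range M := by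
    ext v
    simp only [Finset.mem_filter, Finset.mem_range]
    omega
  rw [this, Finset.card_range]

lemma sum_cls {v : ℕ} (hv : v < R) : ∑ u : Fin R, (if (u : ℕ) = v then (1 : ℝ) else 0) = 1 := by
  rw [Finset.sum_eq_single (⟨v, hv⟩ : Fin R)]
  · simp
  · intro u _ hu
    rw [if_neg]
    intro h
    exact hu (Fin.ext h)
  · intro h
    exact absurd (Finset.mem_univ _) h

lemma card_low (M : ℕ) (χ : E → Fin R) (S : Finset E) :
    ((S ∩ low M χ).card : ℝ) = ∑ e ∈ S, ∏ k ∈ {e}, (if (χ k : ℕ) < M then (1 : ℝ) else 0) := by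
  simp only [Finset.prod_singleton]
  rw [← Finset.sum_filter, Finset.sum_const, nsmul_eq_mul, mul_one]
  congr 2
  ext e
  simp [low]

lemma card_cls (v : ℕ) (χ : E → Fin R) (S : Finset E) :
    ((S ∩ cls v χ).card : ℝ) = ∑ e ∈ S, ∏ k ∈ {e}, (if (χ k : ℕ) = v then (1 : ℝ) else 0) := by
  simp only [Finset.prod_singleton]
  rw [← Finset.sum_filter, Finset.sum_const, nsmul_eq_mul, mul_one]
  congr 2
  ext e
  simp [cls]

lemma card_cls_two (v : ℕ) (χ : E → Fin R) (S : Finset E) :
    ((S ∩ cls v χ).card : ℝ) * (((S ∩ cls v χ).card : ℝ) - 1) =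
      ∑ x ∈ S.offDiag, ∏ k ∈ {x.1, x.2}, (if (χ k : ℕ) = v then (1 : ℝ) else 0) := by
  have h1 : ((S ∩ cls v χ).card : ℝ) * (((S ∩ cls v χ).card : ℝ) - 1) =
      ((S ∩ cls v χ).offDiag.card : ℝ) := by
    rw [Finset.offDiag_card, Nat.cast_sub (Nat.le_mul_self _), Nat.cast_mul]
    ring
  rw [h1]
  have h2 : ∑ x ∈ S.offDiag, ∏ k ∈ {x.1, x.2}, (if (χ k : ℕ) = v then (1 : ℝ) else 0) =
      ∑ x ∈ S.offDiag, if ((χ x.1 : ℕ) = v ∧ (χ x.2 : ℕ) = v) then (1 : ℝ) else 0 := by
    refine Finset.sum_congr rfl fun x hx => ?_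
    rw [Finset.mem_offDiag] at hx
    rw [Finset.prod_pair hx.2.2]
    by_cases ha : (χ x.1 : ℕ) = v <;> by_cases hb : (χ x.2 : ℕ) = v <;> simp [ha, hb]
  rw [h2, ← Finset.sum_filter, Finset.sum_const, nsmul_eq_mul, mul_one]
  congr 2
  ext x
  simp only [Finset.mem_offDiag, Finset.mem_inter, cls, Finset.mem_filter, Finset.mem_univ,
    true_and]
  tauto

end ColorAux

open ColorAux

variable {E : Type} [Fintype E] [DecidableEq E]

theorem avg_low {R M : ℕ} (hM : M ≤ R) (hR : 0 < R) (S : Finset E) :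
    avg (fun χ : E → Fin R => ((S ∩ low M χ).card : ℝ)) = S.card * (M / R) := by
  simp only [card_low]
  rw [avg_sum S (fun e χ => ∏ k ∈ {e}, (if (χ k : ℕ) < M then (1 : ℝ) else 0))]
  have h : ∀ e ∈ S, avg (fun χ : E → Fin R => ∏ k ∈ {e}, (if (χ k : ℕ) < M then (1 : ℝ) else 0)) =
      (M / R : ℝ) := by
    intro e _
    rw [avg_prod_on hR {e} (fun v : Fin R => if (v : ℕ) < M then (1 : ℝ) else 0), sum_low hM]
    simp
  rw [Finset.sum_congr rfl h, Finset.sum_const, nsmul_eq_mul]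

theorem avg_cls {R v : ℕ} (hv : v < R) (S : Finset E) :
    avg (fun χ : E → Fin R => ((S ∩ cls v χ).card : ℝ)) = S.card / R := by
  have hR : 0 < R := lt_of_le_of_lt (Nat.zero_le v) hv
  simp only [card_cls]
  rw [avg_sum S (fun e χ => ∏ k ∈ {e}, (if (χ k : ℕ) = v then (1 : ℝ) else 0))]
  have h : ∀ e ∈ S, avg (fun χ : E → Fin R => ∏ k ∈ {e}, (if (χ k : ℕ) = v then (1 : ℝ) else 0)) =
      (1 / R : ℝ) := by
    intro e _
    rw [avg_prod_on hR {e} (fun u : Fin R => if (u : ℕ) = v then (1 : ℝ) else 0), sum_cls hv]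
    simp
  rw [Finset.sum_congr rfl h, Finset.sum_const, nsmul_eq_mul]
  ring

theorem avg_cls_two {R v : ℕ} (hv : v < R) (S : Finset E) :
    avg (fun χ : E → Fin R => ((S ∩ cls v χ).card : ℝ) * (((S ∩ cls v χ).card : ℝ) - 1)) =
      S.card * (S.card - 1) / (R : ℝ) ^ 2 := by
  have hR : 0 < R := lt_of_le_of_lt (Nat.zero_le v) hv
  simp only [card_cls_two]
  rw [avg_sum S.offDiag
    (fun x χ => ∏ k ∈ {x.1, x.2}, (if (χ k : ℕ) = v then (1 : ℝ) else 0))]
  have h : ∀ x ∈ S.offDiag, avg (fun χ : E → Fin R =>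
      ∏ k ∈ {x.1, x.2}, (if (χ k : ℕ) = v then (1 : ℝ) else 0)) = (1 / R : ℝ) ^ 2 := by
    intro x hx
    rw [Finset.mem_offDiag] at hx
    rw [avg_prod_on hR {x.1, x.2} (fun u : Fin R => if (u : ℕ) = v then (1 : ℝ) else 0),
      sum_cls hv, Finset.card_pair hx.2.2]
  rw [Finset.sum_congr rfl h, Finset.sum_const, nsmul_eq_mul, Finset.offDiag_card,
    Nat.cast_sub (Nat.le_mul_self _), Nat.cast_mul]
  ring

/-- the probability that a set of size `D` contains an element of color less than `M` -/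
theorem avg_touch {R M : ℕ} (hM : M ≤ R) (hR : 0 < R) (D : Finset E) :
    min 1 (D.card * (M / R : ℝ)) / 2 ≤
      avg (fun χ : E → Fin R => if (D ∩ low M χ).Nonempty then (1 : ℝ) else 0) := by
  have hR' : (0 : ℝ) < R := by exact_mod_cast hR
  have hq0 : (0 : ℝ) ≤ M / R := by positivity
  have hq1 : (M / R : ℝ) ≤ 1 := by
    rw [div_le_one hR']
    exact_mod_cast hM
  have h1 : ∀ χ : E → Fin R, (if (D ∩ low M χ).Nonempty then (1 : ℝ) else 0) =
      1 - ∏ e ∈ D, (1 - if (χ e : ℕ) < M then (1 : ℝ) else 0) := by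
    intro χ
    by_cases h : (D ∩ low M χ).Nonempty
    · rw [if_pos h]
      obtain ⟨e, he⟩ := h
      rw [Finset.mem_inter] at he
      have he2 : (χ e : ℕ) < M := by
        have := he.2
        simpa [low] using this
      rw [Finset.prod_eq_zero he.1 (by rw [if_pos he2]; ring)]
      ring
    · rw [if_neg h]
      rw [Finset.prod_eq_one, sub_self]
      intro e he
      rw [if_neg, sub_zero]
      intro h2
      exact h ⟨e, Finset.mem_inter.mpr ⟨he, by simpa [low] using h2⟩⟩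
  simp only [h1]
  rw [avg_sub, avg_one hR,
    avg_prod_on hR D (fun u : Fin R => 1 - if (u : ℕ) < M then (1 : ℝ) else 0),
    Finset.sum_sub_distrib, sum_low hM]
  have h2 : ((∑ _u : Fin R, (1 : ℝ)) - M) / R = 1 - M / R := by
    rw [Finset.sum_const, Finset.card_univ, Fintype.card_fin, nsmul_eq_mul, mul_one, sub_div,
      div_self hR'.ne']
  rw [h2]
  set q : ℝ := M / R with hq
  set t : ℝ := D.card * q with ht
  have ht0 : 0 ≤ t := by positivity
  have h3 : (1 - q) ^ D.card ≤ 1 / (1 + t) := by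
    have h4 : 1 - q ≤ exp (-q) := by
      have := Real.add_one_le_exp (-q)
      linarith
    have h5 : (1 - q) ^ D.card ≤ exp (-q) ^ D.card :=
      pow_le_pow_left₀ (by linarith) h4 _
    have h6 : exp (-q) ^ D.card = (exp t)⁻¹ := by
      rw [← Real.exp_nat_mul, ← Real.exp_neg]
      congr 1
      rw [ht]
      ring
    rw [h6] at h5
    refine h5.trans ?_
    rw [one_div]
    have h7 : 1 + t ≤ exp t := by
      have := Real.add_one_le_exp t
      linarith
    exact inv_anti₀ (by linarith) h7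
  have h8 : min 1 t / 2 ≤ 1 - 1 / (1 + t) := by
    have h9 : 1 - 1 / (1 + t) = t / (1 + t) := by
      field_simp
      ring
    rw [h9, le_div_iff₀ (by linarith)]
    rcases le_total 1 t with h10 | h10
    · rw [min_eq_left h10]
      linarith
    · rw [min_eq_right h10]
      nlinarith
  linarith

end P063
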