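import Vale.Agent.P063.Ph

/-!
# P063, module B : the biased cube
-/

namespace P063

open Finset

section

variable {E : Type} [Fintype E] [DecidableEq E] {p : ℝ}

namespace CubeAux

theorem sum_prod (g : E → Bool → ℝ) :
    ∑ x : E → Bool, ∏ e, g e (x e) = ∏ e, (g e true + g e false) := by
  have h := Finset.prod_univ_sum (fun _ : E => (univ : Finset Bool)) g
  rw [Fintype.piFinset_univ] at h
  rw [← h]
  exact Finset.prod_congr rfl fun e _ => Fintype.sum_bool _

/-- expectation of a product -/
theorem Ex_prod (g : E → Bool → ℝ) :
    Ex p (fun x => ∏ e, g e (x e)) = ∏ e, (p * g e true + (1 - p) * g e false) := by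
  unfold Ex wt
  have h := sum_prod (fun (e : E) b => (if b then p else 1 - p) * g e b)
  simp only [Finset.prod_mul_distrib, if_true, Bool.false_eq_true, if_false] at h
  exact h

theorem Ex_add (f g : (E → Bool) → ℝ) : Ex p (fun x => f x + g x) = Ex p f + Ex p g := by
  unfold Ex
  rw [← Finset.sum_add_distrib]
  exact Finset.sum_congr rfl fun x _ => mul_add _ _ _

theorem Ex_mul (c : ℝ) (f : (E → Bool) → ℝ) : Ex p (fun x => c * f x) = c * Ex p f := by
  unfold Ex
  rw [Finset.mul_sum]
  exact Finset.sum_congr rfl fun x _ => by ring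

theorem Ex_sum {κ : Type} (s : Finset κ) (f : κ → (E → Bool) → ℝ) :
    Ex p (fun x => ∑ k ∈ s, f k x) = ∑ k ∈ s, Ex p (f k) := by
  unfold Ex
  rw [Finset.sum_comm]
  exact Finset.sum_congr rfl fun x _ => Finset.mul_sum _ _ _

theorem phS_eq (S : Finset E) (x : E → Bool) :
    phS p S x = ∏ e, if e ∈ S then ph p (x e) else 1 := by
  unfold phS
  rw [Finset.prod_ite_mem, Finset.univ_inter]

omit [Fintype E] in
theorem phS_ne {S : Finset E} {e : E} (he : e ∉ S) (x : E → Bool) (b : Bool) :
    phS p S (Function.update x e b) = phS p S x := by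
  unfold phS
  refine Finset.prod_congr rfl fun a ha => ?_
  rw [Function.update_of_ne (fun h => he (by rw [← h]; exact ha))]

omit [Fintype E] in
theorem phS_mem {S : Finset E} {e : E} (he : e ∈ S) (x : E → Bool) (b : Bool) :
    phS p S (Function.update x e b) = ph p b * phS p (S.erase e) x := by
  have h : phS p S (Function.update x e b) =
      ph p (Function.update x e b e) * phS p (S.erase e) (Function.update x e b) := by
    unfold phS
    exact (Finset.mul_prod_erase S _ he).symm
  rw [h, Function.update_self, phS_ne (Finset.notMem_erase e S)]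

/-- orthogonality -/
theorem Ex_phS_mul (h0 : 0 < p) (h1 : p < 1) (S T : Finset E) :
    Ex p (fun x => phS p S x * phS p T x) = if S = T then 1 else 0 := by
  have h : (fun x : E → Bool => phS p S x * phS p T x) = fun x => ∏ e,
      ((if e ∈ S then ph p (x e) else 1) * if e ∈ T then ph p (x e) else 1) := by
    funext x
    rw [phS_eq, phS_eq, Finset.prod_mul_distrib]
  rw [h, Ex_prod (fun (e : E) b => (if e ∈ S then ph p b else 1) * if e ∈ T then ph p b else 1)]
  have hm := ph_mean h0 h1
  have hv := ph_var h0 h1
  by_cases hST : S = T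
  · rw [if_pos hST, ← hST]
    refine Finset.prod_eq_one fun e _ => ?_
    by_cases he : e ∈ S
    · simp only [if_pos he]
      linear_combination hv
    · simp only [if_neg he]
      ring
  · rw [if_neg hST]
    have hex : ∃ e, (e ∈ S ∧ e ∉ T) ∨ (e ∉ S ∧ e ∈ T) := by
      by_contra hne
      push Not at hne
      exact hST (Finset.ext fun e => ⟨(hne e).1, fun h => by
        by_contra h'
        exact (hne e).2 h' h⟩)
    obtain ⟨e, he⟩ := hex
    refine Finset.prod_eq_zero (Finset.mem_univ e) ?_
    rcases he with ⟨h2, h3⟩ | ⟨h2, h3⟩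
    · simp only [if_pos h2, if_neg h3, mul_one]
      exact hm
    · simp only [if_neg h2, if_pos h3, one_mul]
      exact hm

omit [DecidableEq E] in
/-- completeness -/
theorem sum_phS_mul (h0 : 0 < p) (h1 : p < 1) (x y : E → Bool) :
    wt p y * ∑ S, phS p S y * phS p S x = if y = x then 1 else 0 := by
  have h2 : 0 < 1 - p := by linarith
  have hs : ∑ S : Finset E, phS p S y * phS p S x = ∏ e, (1 + ph p (y e) * ph p (x e)) := by
    rw [Finset.prod_one_add, Finset.powerset_univ]
    refine Finset.sum_congr rfl fun S _ => ?_
    unfold phS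
    rw [Finset.prod_mul_distrib]
  rw [hs]
  unfold wt
  rw [← Finset.prod_mul_distrib]
  have hc : ∀ e, (if y e then p else 1 - p) * (1 + ph p (y e) * ph p (x e)) =
      if y e = x e then 1 else 0 := by
    intro e
    have ht := ph_true_sq h0 h1
    have hf := ph_false_sq h0 h1
    have hm := ph_mul h0 h1
    cases hy : y e <;> cases hx : x e
    · simp only [Bool.false_eq_true, if_false, if_true]
      rw [← pow_two, hf]
      field_simp
      ring
    · simp only [Bool.false_eq_true, if_false]
      rw [mul_comm (ph p false), hm]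
      ring
    · simp only [if_true, Bool.true_eq_false, if_false]
      rw [hm]
      ring
    · simp only [if_true]
      rw [← pow_two, ht]
      field_simp
      ring
  rw [Finset.prod_congr rfl fun e _ => hc e]
  by_cases hyx : y = x
  · rw [if_pos hyx]
    exact Finset.prod_eq_one fun e _ => if_pos (by rw [hyx])
  · rw [if_neg hyx]
    have hex : ∃ e, y e ≠ x e := by
      by_contra hne
      push Not at hne
      exact hyx (funext hne)
    obtain ⟨e, he⟩ := hex
    exact Finset.prod_eq_zero (Finset.mem_univ e) (if_neg he)

theorem sum_pair (e : E) (F : (E → Bool) → ℝ) :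
    ∑ x, F x = (1 / 2) * ∑ x, (F (Function.update x e true) + F (Function.update x e false)) := by
  let φ : (E → Bool) → (E → Bool) := fun x => Function.update x e (!(x e))
  have hφ : Function.Involutive φ := by
    intro x
    change Function.update (Function.update x e (!(x e))) e
      (!(Function.update x e (!(x e)) e)) = x
    rw [Function.update_self, Function.update_idem, Bool.not_not, Function.update_eq_self]
  have h1 : ∑ x, F (φ x) = ∑ x, F x := Equiv.sum_comp hφ.toPerm F
  have h2 : ∀ x, F (Function.update x e true) + F (Function.update x e false) =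
      F x + F (φ x) := by
    intro x
    cases hx : x e
    · have e1 : Function.update x e false = x := by rw [← hx]; exact Function.update_eq_self e x
      have e2 : φ x = Function.update x e true := by
        change Function.update x e (!(x e)) = _
        rw [hx]
        rfl
      rw [e1, e2, add_comm]
    · have e1 : Function.update x e true = x := by rw [← hx]; exact Function.update_eq_self e x
      have e2 : φ x = Function.update x e false := by
        change Function.update x e (!(x e)) = _
        rw [hx]
        rfl
      rw [e1, e2]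
  rw [Finset.sum_congr rfl fun x _ => h2 x, Finset.sum_add_distrib, h1]
  ring

theorem wt_update (e : E) (x : E → Bool) (b : Bool) :
    wt p (Function.update x e b) =
      (if b then p else 1 - p) * ∏ a ∈ univ.erase e, (if x a then p else 1 - p) := by
  unfold wt
  rw [← Finset.mul_prod_erase univ _ (Finset.mem_univ e), Function.update_self]
  congr 1
  refine Finset.prod_congr rfl fun a ha => ?_
  rw [Function.update_of_ne (Finset.ne_of_mem_erase ha)]

end CubeAux

open CubeAux

theorem Ex_one : Ex p (fun _ : E → Bool => 1) = 1 := by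
  have h := Ex_prod (E := E) (p := p) (fun _ _ => 1)
  simp only [Finset.prod_const_one] at h
  rw [h]
  exact Finset.prod_eq_one fun e _ => by ring

theorem Ex_avg (e : E) (h : (E → Bool) → ℝ) :
    Ex p h = Ex p fun x => p * h (Function.update x e true) +
      (1 - p) * h (Function.update x e false) := by
  unfold Ex
  rw [sum_pair e (fun x => wt p x * h x), sum_pair e (fun x => wt p x *
    (p * h (Function.update x e true) + (1 - p) * h (Function.update x e false)))]
  congr 1
  refine Finset.sum_congr rfl fun x _ => ?_
  simp only [Function.update_idem, wt_update, if_true, Bool.false_eq_true, if_false]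
  ring

theorem inversion (h0 : 0 < p) (h1 : p < 1) (f : (E → Bool) → ℝ) (x : E → Bool) :
    f x = ∑ S, co p f S * phS p S x := by
  have h : ∀ S, co p f S * phS p S x = ∑ y, f y * (wt p y * (phS p S y * phS p S x)) := by
    intro S
    unfold co Ex
    rw [Finset.sum_mul]
    exact Finset.sum_congr rfl fun y _ => by ring
  rw [Finset.sum_congr rfl fun S _ => h S, Finset.sum_comm]
  have h2 : ∀ y, ∑ S : Finset E, f y * (wt p y * (phS p S y * phS p S x)) =
      if y = x then f y else 0 := by
    intro y
    rw [← Finset.mul_sum, ← Finset.mul_sum, sum_phS_mul h0 h1]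
    by_cases hy : y = x
    · rw [if_pos hy, if_pos hy, mul_one]
    · rw [if_neg hy, if_neg hy, mul_zero]
  rw [Finset.sum_congr rfl fun y _ => h2 y]
  simp

theorem parseval (h0 : 0 < p) (h1 : p < 1) (f : (E → Bool) → ℝ) :
    ∑ S, co p f S ^ 2 = Ex p fun x => f x ^ 2 := by
  have h : ∀ S, co p f S ^ 2 = Ex p (fun x => co p f S * (f x * phS p S x)) := by
    intro S
    rw [Ex_mul, pow_two]
    rfl
  rw [Finset.sum_congr rfl fun S _ => h S, ← Ex_sum]
  congr 1
  funext x
  have h2 := inversion h0 h1 f x
  calc ∑ S, co p f S * (f x * phS p S x) = f x * ∑ S, co p f S * phS p S x := by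
        rw [Finset.mul_sum]
        exact Finset.sum_congr rfl fun S _ => by ring
    _ = f x ^ 2 := by rw [← h2, pow_two]

theorem Ex_G_sq (h0 : 0 < p) (h1 : p < 1) (c : Finset E → ℝ) (J T : Finset E) :
    Ex p (fun x => G p c J T x ^ 2) = ∑ S with S ∩ J = T, c S ^ 2 := by
  have h : (fun x : E → Bool => G p c J T x ^ 2) = fun x =>
      ∑ S ∈ univ.filter (fun S => S ∩ J = T), ∑ S' ∈ univ.filter (fun S => S ∩ J = T),
        (c S * c S') * (phS p (S \ J) x * phS p (S' \ J) x) := by
    funext x
    unfold G
    rw [pow_two, Finset.sum_mul_sum]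
    exact Finset.sum_congr rfl fun S _ => Finset.sum_congr rfl fun S' _ => by ring
  rw [h, Ex_sum]
  refine Finset.sum_congr rfl fun S hS => ?_
  rw [Ex_sum]
  have h2 : ∀ S' ∈ univ.filter (fun S => S ∩ J = T),
      Ex p (fun x => (c S * c S') * (phS p (S \ J) x * phS p (S' \ J) x)) =
        if S' = S then c S ^ 2 else 0 := by
    intro S' hS'
    rw [Ex_mul, Ex_phS_mul h0 h1]
    by_cases hSS : S' = S
    · rw [if_pos hSS, hSS, if_pos rfl]
      ring
    · rw [if_neg hSS, if_neg, mul_zero]
      intro hd
      apply hSS
      have h3 : S' ∩ J = S ∩ J := by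
        rw [(Finset.mem_filter.mp hS').2, (Finset.mem_filter.mp hS).2]
      rw [← Finset.sdiff_union_inter S' J, ← Finset.sdiff_union_inter S J, hd, h3]
  rw [Finset.sum_congr rfl h2, Finset.sum_ite_eq' _ S (fun _ => c S ^ 2), if_pos hS]

namespace CubeAux

theorem G_single (h0 : 0 < p) (h1 : p < 1) (f : (E → Bool) → ℝ) (e : E) (x : E → Bool) :
    G p (co p f) {e} {e} x =
      √(p * (1 - p)) * (f (Function.update x e true) - f (Function.update x e false)) := by
  have h2 : f (Function.update x e true) - f (Function.update x e false) =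
      (ph p true - ph p false) * G p (co p f) {e} {e} x := by
    rw [inversion h0 h1 f (Function.update x e true), inversion h0 h1 f (Function.update x e false),
      ← Finset.sum_sub_distrib]
    unfold G
    rw [Finset.mul_sum, Finset.sum_filter]
    refine Finset.sum_congr rfl fun S _ => ?_
    by_cases he : e ∈ S
    · have h3 : S ∩ {e} = {e} := Finset.inter_eq_right.mpr (Finset.singleton_subset_iff.mpr he)
      rw [if_pos h3, phS_mem he, phS_mem he, Finset.sdiff_singleton_eq_erase]
      ring
    · have h3 : ¬ S ∩ {e} = {e} := fun h => he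
        (Finset.singleton_subset_iff.mp (Finset.inter_eq_right.mp h))
      rw [if_neg h3, phS_ne he, phS_ne he, sub_self]
  rw [h2]
  linear_combination (-(G p (co p f) {e} {e} x)) * ph_diff h0 h1

end CubeAux

/-- the total influence -/
theorem infl_co (h0 : 0 < p) (h1 : p < 1) {f : (E → Bool) → ℝ} (hf : ∀ x, f x = 0 ∨ f x = 1) :
    infl (co p f) univ = p * (1 - p) * ∑ e, piv p f e := by
  have h2 : 0 ≤ p * (1 - p) := mul_nonneg h0.le (by linarith)
  have h3 : ∀ e, p * (1 - p) * piv p f e = ∑ S with S ∩ {e} = {e}, co p f S ^ 2 := by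
    intro e
    rw [← Ex_G_sq h0 h1]
    unfold piv
    rw [← Ex_mul]
    congr 1
    funext x
    rw [G_single h0 h1, mul_pow, Real.sq_sqrt h2]
    congr 1
    rcases hf (Function.update x e true) with h4 | h4 <;>
      rcases hf (Function.update x e false) with h5 | h5 <;> rw [h4, h5] <;> norm_num
  rw [Finset.mul_sum, Finset.sum_congr rfl fun e _ => h3 e]
  unfold infl
  have h4 : ∀ e, (∑ S with S ∩ {e} = {e}, co p f S ^ 2) =
      ∑ S, if e ∈ S then co p f S ^ 2 else 0 := by
    intro e
    rw [Finset.sum_filter]
    refine Finset.sum_congr rfl fun S _ => ?_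
    have h5 : S ∩ {e} = {e} ↔ e ∈ S := by
      rw [Finset.inter_eq_right, Finset.singleton_subset_iff]
    simp only [h5]
  rw [Finset.sum_congr rfl fun e _ => h4 e, Finset.sum_comm]
  refine Finset.sum_congr rfl fun S _ => ?_
  rw [← Finset.sum_filter, Finset.sum_const, nsmul_eq_mul, Finset.inter_univ]
  congr 2
  rw [Finset.filter_mem_eq_inter, Finset.univ_inter]

end

end P063
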