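import Mathlib

/-!
# P063 : definitions for the proof (biased cube, entropies of the spectral law)
-/

namespace P063

open Finset

section Cube

variable {E : Type} [Fintype E] [DecidableEq E]

/-- the product weight of parameter `p` -/
def wt (p : ℝ) (x : E → Bool) : ℝ := ∏ e, if x e then p else 1 - p

/-- the expectation under the product measure of parameter `p` -/
def Ex (p : ℝ) (h : (E → Bool) → ℝ) : ℝ := ∑ x, wt p x * h x

/-- the normalized coordinate -/
noncomputable def ph (p : ℝ) (b : Bool) : ℝ := if b then √((1 - p) / p) else -√(p / (1 - p))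

/-- the character -/
noncomputable def phS (p : ℝ) (S : Finset E) (x : E → Bool) : ℝ := ∏ e ∈ S, ph p (x e)

/-- the Fourier coefficient -/
noncomputable def co (p : ℝ) (f : (E → Bool) → ℝ) (S : Finset E) : ℝ :=
  Ex p fun x => f x * phS p S x

/-- the coefficient of `T ⊆ J` of the restriction (to the coordinates in `J`) of the function with
Fourier coefficients `c`; it is a function of the coordinates outside of `J` -/
noncomputable def G (p : ℝ) (c : Finset E → ℝ) (J T : Finset E) (x : E → Bool) : ℝ :=
  ∑ S with S ∩ J = T, c S * phS p (S \ J) x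

/-- the law of the trace on `K ⊆ J` of the spectral law of the restriction to `J` -/
noncomputable def Q (p : ℝ) (c : Finset E → ℝ) (J K T : Finset E) (x : E → Bool) : ℝ :=
  ∑ T' ∈ (J \ K).powerset, G p c J (T ∪ T') x ^ 2

/-- its mean entropy -/
noncomputable def Phi (p : ℝ) (c : Finset E → ℝ) (J K : Finset E) : ℝ :=
  Ex p fun x => ∑ T ∈ K.powerset, Real.negMulLog (Q p c J K T x)

/-- the normalized mean entropy of the spectral law of the restriction to `J` -/
noncomputable def psi (p : ℝ) (c : Finset E → ℝ) (J : Finset E) : ℝ := Phi p c J J - Phi p c J ∅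

/-- the constant in the logarithmic Sobolev inequality -/
noncomputable def cp (p : ℝ) : ℝ := 2 * Real.log (2 + 2 / min p (1 - p)) + 8

/-- the influence of the coordinates in `J` -/
noncomputable def infl (c : Finset E → ℝ) (J : Finset E) : ℝ := ∑ S, ((S ∩ J).card : ℝ) * c S ^ 2

/-- the probability that the coordinate `e` is pivotal (for a function with values in `{0, 1}`) -/
noncomputable def piv (p : ℝ) (f : (E → Bool) → ℝ) (e : E) : ℝ :=
  Ex p fun x => |f (Function.update x e true) - f (Function.update x e false)|

/-- the average over all the colorings with `R` colors -/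
noncomputable def avg {R : ℕ} (F : (E → Fin R) → ℝ) : ℝ := (∑ χ, F χ) / (R : ℝ) ^ Fintype.card E

/-- the elements with color less than `M` -/
def low {R : ℕ} (M : ℕ) (χ : E → Fin R) : Finset E := univ.filter fun e => (χ e : ℕ) < M

/-- the elements with color `v` -/
def cls {R : ℕ} (v : ℕ) (χ : E → Fin R) : Finset E := univ.filter fun e => (χ e : ℕ) = v

end Cube

/-- the `r`-element subsets of the vertex set -/
abbrev Edge (n r : ℕ) := {e : Finset (Fin n) // e.card = r}

/-- the action of a permutation of the vertices on the edges -/
def act {n r : ℕ} (π : Equiv.Perm (Fin n)) : Edge n r ≃ Edge n r where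
  toFun e := ⟨e.1.map π.toEmbedding, by rw [card_map]; exact e.2⟩
  invFun e := ⟨e.1.map π.symm.toEmbedding, by rw [card_map]; exact e.2⟩
  left_inv e := by
    apply Subtype.ext
    ext a
    simp
  right_inv e := by
    apply Subtype.ext
    ext a
    simp

/-- the vertices of a set of edges -/
def VS {n r : ℕ} (S : Finset (Edge n r)) : Finset (Fin n) := S.biUnion fun e => e.1

end P063
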