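import Vale.Agent.P063.Color

/-!
# P063 : module N, the number of vertices touched by a random colour class
-/

namespace P063

open Finset Real

namespace Verts

/-- the degree of a vertex -/
noncomputable def star {n r : ℕ} (S : Finset (Edge n r)) (v : Fin n) : Finset (Edge n r) :=
  S.filter fun e => v ∈ e.1

theorem mem_VS {n r : ℕ} {S : Finset (Edge n r)} {v : Fin n} :
    v ∈ VS S ↔ ∃ e ∈ S, v ∈ e.1 := by
  simp [VS]

theorem card_VS_eq {n r R M : ℕ} (S : Finset (Edge n r)) (χ : Edge n r → Fin R) :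
    ((VS (S ∩ low M χ)).card : ℝ) =
      ∑ v : Fin n, if (star S v ∩ low M χ).Nonempty then (1 : ℝ) else 0 := by
  rw [sum_boole]
  congr 2
  ext v
  rw [mem_VS, mem_filter]
  constructor
  · rintro ⟨e, he, hv⟩
    rw [mem_inter] at he
    refine ⟨mem_univ _, e, ?_⟩
    rw [mem_inter, star, mem_filter]
    exact ⟨⟨he.1, hv⟩, he.2⟩
  · rintro ⟨-, e, he⟩
    rw [mem_inter, star, mem_filter] at he
    exact ⟨e, mem_inter.2 ⟨he.1.1, he.2⟩, he.1.2⟩

theorem avg_sum {E : Type} [Fintype E] [DecidableEq E] {R : ℕ} {ι : Type} (s : Finset ι)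
    (F : ι → (E → Fin R) → ℝ) :
    avg (fun χ => ∑ i ∈ s, F i χ) = ∑ i ∈ s, avg (F i) := by
  unfold avg
  rw [sum_comm, sum_div]

theorem sum_min {n r : ℕ} (hr : 1 ≤ r) (S : Finset (Edge n r)) {A : ℕ} (hA : 0 < A) :
    (1 / 2 : ℝ) * min ((S.card : ℝ) ^ (1 / r : ℝ)) (S.card / A) ≤
      ∑ v : Fin n, min 1 ((star S v).card / A : ℝ) := by
  classical
  have hA' : (0 : ℝ) < A := by exact_mod_cast hA
  have hr' : (1 : ℝ) ≤ r := by exact_mod_cast hr
  have hr0 : (0 : ℝ) < r := by linarith
  set H : Finset (Fin n) := univ.filter fun v => A ≤ (star S v).card with hH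
  have hsplit : (∑ v : Fin n, min 1 ((star S v).card / A : ℝ)) =
      ∑ v ∈ H, min 1 ((star S v).card / A : ℝ) +
        ∑ v ∈ univ.filter (fun v => ¬ A ≤ (star S v).card), min 1 ((star S v).card / A : ℝ) := by
    rw [hH, sum_filter_add_sum_filter_not]
  have h1 : (H.card : ℝ) ≤ ∑ v ∈ H, min 1 ((star S v).card / A : ℝ) := by
    rw [card_eq_sum_ones, Nat.cast_sum]
    refine sum_le_sum fun v hv => ?_
    rw [hH, mem_filter] at hv
    have h2 : (A : ℝ) ≤ (star S v).card := by exact_mod_cast hv.2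
    rw [Nat.cast_one, min_eq_left]
    rw [le_div_iff₀ hA', one_mul]
    exact h2
  have h0 : 0 ≤ ∑ v ∈ H, min 1 ((star S v).card / A : ℝ) :=
    sum_nonneg fun v _ => le_min zero_le_one (by positivity)
  have h0' : 0 ≤ ∑ v ∈ univ.filter (fun v => ¬ A ≤ (star S v).card),
      min 1 ((star S v).card / A : ℝ) :=
    sum_nonneg fun v _ => le_min zero_le_one (by positivity)
  rw [hsplit]
  rcases le_or_gt (S.card : ℝ) (2 * (H.card : ℝ) ^ r) with hc | hc
  · -- many heavy vertices
    have h3 : (S.card : ℝ) ^ (1 / r : ℝ) ≤ 2 * H.card := by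
      have h4 : (S.card : ℝ) ≤ (2 * (H.card : ℝ)) ^ r := by
        refine hc.trans ?_
        rw [mul_pow]
        have h5 : (2 : ℝ) ≤ 2 ^ r := by
          calc (2 : ℝ) = 2 ^ 1 := by norm_num
            _ ≤ 2 ^ r := pow_le_pow_right₀ (by norm_num) hr
        exact mul_le_mul_of_nonneg_right h5 (by positivity)
      calc (S.card : ℝ) ^ (1 / r : ℝ) ≤ ((2 * (H.card : ℝ)) ^ r) ^ (1 / r : ℝ) :=
            rpow_le_rpow (by positivity) h4 (by positivity)
        _ = 2 * H.card := by
            rw [one_div]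
            exact pow_rpow_inv_natCast (by positivity) (by omega)
    have h6 : min ((S.card : ℝ) ^ (1 / r : ℝ)) (S.card / A) ≤ 2 * H.card :=
      (min_le_left _ _).trans h3
    linarith
  · -- few heavy vertices
    have h7 : (S.filter fun e => e.1 ⊆ H).card ≤ H.card ^ r := by
      calc (S.filter fun e => e.1 ⊆ H).card
          = ((S.filter fun e => e.1 ⊆ H).image fun e => e.1).card := by
            rw [card_image_of_injective _ Subtype.val_injective]
        _ ≤ (H.powersetCard r).card := by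
            refine card_le_card fun a ha => ?_
            rw [mem_image] at ha
            obtain ⟨e, he, rfl⟩ := ha
            rw [mem_powersetCard]
            exact ⟨(mem_filter.1 he).2, e.2⟩
        _ = H.card.choose r := card_powersetCard _ _
        _ ≤ H.card ^ r := Nat.choose_le_pow _ _
    have h7' : ((S.filter fun e => e.1 ⊆ H).card : ℝ) ≤ (H.card : ℝ) ^ r := by exact_mod_cast h7
    have h8 : ((S.filter fun e => e.1 ⊆ H).card : ℝ) + (S.filter fun e => ¬ e.1 ⊆ H).card =
        S.card := by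
      exact_mod_cast card_filter_add_card_filter_not (s := S) (fun e => e.1 ⊆ H)
    have h9 : (S.filter fun e => ¬ e.1 ⊆ H).card ≤
        ∑ v ∈ univ.filter (fun v => ¬ A ≤ (star S v).card), (star S v).card := by
      refine le_trans (card_le_card ?_) card_biUnion_le
      intro e he
      rw [mem_filter] at he
      obtain ⟨heS, he2⟩ := he
      rw [Finset.not_subset] at he2
      obtain ⟨v, hv, hvH⟩ := he2
      rw [mem_biUnion]
      refine ⟨v, ?_, ?_⟩
      · rw [mem_filter]
        refine ⟨mem_univ _, fun h => hvH ?_⟩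
        rw [hH, mem_filter]
        exact ⟨mem_univ _, h⟩
      · rw [star, mem_filter]
        exact ⟨heS, hv⟩
    have h9' : ((S.filter fun e => ¬ e.1 ⊆ H).card : ℝ) ≤
        ∑ v ∈ univ.filter (fun v => ¬ A ≤ (star S v).card), ((star S v).card : ℝ) := by
      exact_mod_cast h9
    have h10 : ∑ v ∈ univ.filter (fun v => ¬ A ≤ (star S v).card),
        min 1 ((star S v).card / A : ℝ) =
        (∑ v ∈ univ.filter (fun v => ¬ A ≤ (star S v).card), ((star S v).card : ℝ)) / A := by
      rw [sum_div]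
      refine sum_congr rfl fun v hv => ?_
      rw [mem_filter] at hv
      rw [min_eq_right]
      rw [div_le_one hA']
      have := hv.2
      have h11 : (star S v).card ≤ A := by omega
      exact_mod_cast h11
    have h12 : (S.card : ℝ) / 2 / A ≤ ∑ v ∈ univ.filter (fun v => ¬ A ≤ (star S v).card),
        min 1 ((star S v).card / A : ℝ) := by
      rw [h10]
      refine div_le_div_of_nonneg_right ?_ hA'.le
      linarith
    have h13 : min ((S.card : ℝ) ^ (1 / r : ℝ)) (S.card / A) ≤ (S.card : ℝ) / A := min_le_right _ _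
    have h14 : (S.card : ℝ) / 2 / A = (1 / 2) * ((S.card : ℝ) / A) := by ring
    rw [h14] at h12
    linarith

end Verts

theorem verts {n r : ℕ} (hr : 1 ≤ r) (S : Finset (Edge n r)) {A M : ℕ} (hA : 0 < A)
    (hM : 0 < M) :
    (1 / 4 : ℝ) * min ((S.card : ℝ) ^ (1 / r : ℝ)) (S.card / A) ≤
      avg (fun χ : Edge n r → Fin (A * M) => ((VS (S ∩ low M χ)).card : ℝ)) := by
  have h1 : avg (fun χ : Edge n r → Fin (A * M) => ((VS (S ∩ low M χ)).card : ℝ)) =
      ∑ v : Fin n, avg (fun χ : Edge n r → Fin (A * M) =>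
        if (Verts.star S v ∩ low M χ).Nonempty then (1 : ℝ) else 0) := by
    rw [← Verts.avg_sum]
    congr 1
    funext χ
    exact Verts.card_VS_eq S χ
  rw [h1]
  have h2 : ∀ v : Fin n, min 1 ((Verts.star S v).card / A : ℝ) / 2 ≤
      avg (fun χ : Edge n r → Fin (A * M) =>
        if (Verts.star S v ∩ low M χ).Nonempty then (1 : ℝ) else 0) := by
    intro v
    have h3 := avg_touch (E := Edge n r) (R := A * M) (M := M)
      (Nat.le_mul_of_pos_left M hA) (Nat.mul_pos hA hM) (Verts.star S v)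
    have hA' : (A : ℝ) ≠ 0 := by positivity
    have hM' : (M : ℝ) ≠ 0 := by positivity
    have h4 : ((Verts.star S v).card : ℝ) * ((M : ℝ) / ((A * M : ℕ) : ℝ)) =
        (Verts.star S v).card / A := by
      push_cast
      field_simp
    rw [h4] at h3
    exact h3
  have h5 := Verts.sum_min hr S hA
  calc (1 / 4 : ℝ) * min ((S.card : ℝ) ^ (1 / r : ℝ)) (S.card / A)
      ≤ (∑ v : Fin n, min 1 ((Verts.star S v).card / A : ℝ)) / 2 := by linarith
    _ = ∑ v : Fin n, min 1 ((Verts.star S v).card / A : ℝ) / 2 := by rw [sum_div]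
    _ ≤ _ := sum_le_sum fun v _ => h2 v

end P063
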