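import Vale.Agent.P063.Sym
import Vale.Agent.P063.Cube
import Vale.Agent.P063.Verts

/-!
# P063 : module P, the lower bound for the entropy of the spectral law
-/

namespace P063

open Finset Real

namespace LowerAux

variable {n r : ℕ}

/-- `x ^ k exp (-x) ≤ k!` -/
lemma pow_mul_exp_le {x : ℝ} (hx : 0 ≤ x) (k : ℕ) : x ^ k * exp (-x) ≤ (k.factorial : ℝ) := by
  have h1 : x ^ k / k.factorial ≤ exp x := Real.pow_div_factorial_le_exp x hx k
  have hk : (0 : ℝ) < k.factorial := by exact_mod_cast Nat.factorial_pos k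
  rw [div_le_iff₀ hk] at h1
  calc x ^ k * exp (-x) ≤ exp x * k.factorial * exp (-x) :=
        mul_le_mul_of_nonneg_right h1 (exp_pos _).le
    _ = (exp x * exp (-x)) * k.factorial := by ring
    _ = k.factorial := by rw [← Real.exp_add]; simp

lemma factorial_le_pow (k : ℕ) : (k.factorial : ℝ) ≤ (k : ℝ) ^ k := by
  exact_mod_cast Nat.factorial_le_pow k

/-- `s ^ k exp (-2 s / d) ≤ (d k) ^ k` -/
lemma pow_exp_le {d : ℝ} (hd : 0 < d) (s k : ℕ) :
    (s : ℝ) ^ k * exp (-1 / d) ^ (2 * s) ≤ (d * k) ^ k := by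
  have hx : (0 : ℝ) ≤ 2 * s / d := by positivity
  have h1 := pow_mul_exp_le hx k
  have e1 : exp (-1 / d) ^ (2 * s) = exp (-(2 * s / d)) := by
    rw [← Real.exp_nat_mul]
    congr 1
    push_cast
    ring
  have e2 : (s : ℝ) ^ k = (d / 2) ^ k * (2 * s / d) ^ k := by
    rw [← mul_pow]
    congr 1
    field_simp
  rw [e1, e2]
  calc (d / 2) ^ k * (2 * s / d) ^ k * exp (-(2 * s / d)) =
      (d / 2) ^ k * ((2 * s / d) ^ k * exp (-(2 * s / d))) := by ring
    _ ≤ (d / 2) ^ k * (k : ℝ) ^ k :=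
        mul_le_mul_of_nonneg_left (h1.trans (factorial_le_pow k)) (by positivity)
    _ = (d / 2 * k) ^ k := by rw [mul_pow]
    _ ≤ (d * k) ^ k := by
        apply pow_le_pow_left₀ (by positivity)
        have : (0 : ℝ) ≤ k := by positivity
        nlinarith

/-- number of vertices of a set of edges -/
lemma card_VS_le (S : Finset (Edge n r)) : (VS S).card ≤ r * S.card := by
  unfold VS
  refine Finset.card_biUnion_le.trans ?_
  rw [Finset.sum_congr rfl fun e _ => e.2, Finset.sum_const, smul_eq_mul, mul_comm]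

lemma sum_co_le_one {p : ℝ} (h0 : 0 < p) (h1 : p < 1)
    {f : (Edge n r → Bool) → ℝ} (hf : ∀ x, f x = 0 ∨ f x = 1) :
    ∑ S, co p f S ^ 2 ≤ 1 := by
  rw [parseval h0 h1, ← Ex_one (E := Edge n r) (p := p)]
  unfold Ex
  apply Finset.sum_le_sum
  intro x _
  apply mul_le_mul_of_nonneg_left
  · show f x ^ 2 ≤ 1
    rcases hf x with h | h <;> rw [h] <;> norm_num
  · unfold wt
    apply Finset.prod_nonneg
    intro e _
    split_ifs
    · exact h0.le
    · linarith

lemma mass_aux {d : ℝ} (hdpos : 0 < d) (S : Finset (Edge n r)) (k : ℕ) (c : ℝ) (hc : 0 ≤ c) :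
    c * exp (-1 / d) ^ (2 * S.card) * ((k * (VS S).card : ℝ) / n) ^ k ≤
      c * (r * d * k ^ 2 / n) ^ k := by
  have h5 : ((k * (VS S).card : ℝ) / n) ^ k ≤ (k * r / n : ℝ) ^ k * (S.card : ℝ) ^ k := by
    rw [← mul_pow]
    apply pow_le_pow_left₀ (by positivity)
    have h6 : ((VS S).card : ℝ) ≤ r * S.card := by exact_mod_cast card_VS_le S
    calc (k * (VS S).card : ℝ) / n ≤ (k * (r * S.card)) / n := by
          apply div_le_div_of_nonneg_right _ (Nat.cast_nonneg n)
          exact mul_le_mul_of_nonneg_left h6 (Nat.cast_nonneg k)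
      _ = _ := by ring
  have h8 : 0 ≤ (k * r / n : ℝ) ^ k := by positivity
  have h9 : 0 ≤ exp (-1 / d) ^ (2 * S.card) := by positivity
  calc c * exp (-1 / d) ^ (2 * S.card) * ((k * (VS S).card : ℝ) / n) ^ k ≤
      c * exp (-1 / d) ^ (2 * S.card) * ((k * r / n : ℝ) ^ k * (S.card : ℝ) ^ k) :=
        mul_le_mul_of_nonneg_left h5 (mul_nonneg hc h9)
    _ = c * (k * r / n : ℝ) ^ k * ((S.card : ℝ) ^ k * exp (-1 / d) ^ (2 * S.card)) := by ring
    _ ≤ c * (k * r / n : ℝ) ^ k * (d * k) ^ k :=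
        mul_le_mul_of_nonneg_left (pow_exp_le hdpos _ _) (mul_nonneg hc h8)
    _ = c * (r * d * k ^ 2 / n) ^ k := by
        rw [mul_assoc, ← mul_pow]
        congr 2
        ring

/-- the masses of the spectral law are small -/
lemma mass_le {p : ℝ} (h0 : 0 < p) (h1 : p < 1)
    {f : (Edge n r → Bool) → ℝ} (hf : ∀ x, f x = 0 ∨ f x = 1)
    (hs : ∀ (τ : Equiv.Perm (Fin n)) (x : Edge n r → Bool), f (x ∘ act τ) = f x)
    {d : ℝ} (hd : 1 ≤ d) (J T : Finset (Edge n r)) :
    ∑ S with S ∩ J = T, (exp (-1 / d) ^ S.card * co p f S) ^ 2 ≤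
      (r * d * (VS T).card ^ 2 / n) ^ (VS T).card := by
  set k := (VS T).card with hk
  set w : Finset (Edge n r) → ℝ := fun S => (exp (-1 / d) ^ S.card * co p f S) ^ 2 with hw
  have hw0 : ∀ S, 0 ≤ w S := fun S => sq_nonneg _
  have hinv : ∀ (τ : Equiv.Perm (Fin n)) (S : Finset (Edge n r)),
      w (S.map (act τ).toEmbedding) = w S := by
    intro τ S
    simp only [hw]
    rw [card_map, co_sym hs]
  have hdpos : 0 < d := by linarith
  have h2 : ∑ S with S ∩ J = T, w S ≤ ∑ S with T ⊆ S, w S := by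
    apply Finset.sum_le_sum_of_subset_of_nonneg
    · intro S hS
      rw [Finset.mem_filter] at hS ⊢
      refine ⟨hS.1, ?_⟩
      rw [← hS.2]
      exact inter_subset_left
    · exact fun S _ _ => hw0 S
  have h3 := sym_bound w hw0 hinv T
  rw [← hk] at h3
  have h4 : ∀ S : Finset (Edge n r), w S * ((k * (VS S).card : ℝ) / n) ^ k ≤
      co p f S ^ 2 * (r * d * k ^ 2 / n) ^ k := by
    intro S
    have e1 : w S = co p f S ^ 2 * exp (-1 / d) ^ (2 * S.card) := by
      simp only [hw]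
      rw [mul_pow, ← pow_mul, mul_comm S.card 2, mul_comm]
    rw [e1]
    exact mass_aux hdpos S k _ (sq_nonneg _)
  have h7 := sum_co_le_one h0 h1 hf
  calc ∑ S with S ∩ J = T, w S ≤ ∑ S, w S * ((k * (VS S).card : ℝ) / n) ^ k := h2.trans h3
    _ ≤ ∑ S, co p f S ^ 2 * (r * d * k ^ 2 / n) ^ k := Finset.sum_le_sum fun S _ => h4 S
    _ = (∑ S, co p f S ^ 2) * (r * d * k ^ 2 / n) ^ k := by rw [Finset.sum_mul]
    _ ≤ 1 * (r * d * k ^ 2 / n) ^ k := by
        apply mul_le_mul_of_nonneg_right h7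
        positivity
    _ = _ := one_mul _

/-- the total mass is at most one -/
lemma mass_le_one {p : ℝ} (h0 : 0 < p) (h1 : p < 1)
    {f : (Edge n r → Bool) → ℝ} (hf : ∀ x, f x = 0 ∨ f x = 1)
    {d : ℝ} (hd : 1 ≤ d) (J T : Finset (Edge n r)) :
    ∑ S with S ∩ J = T, (exp (-1 / d) ^ S.card * co p f S) ^ 2 ≤ 1 := by
  have h7 := sum_co_le_one h0 h1 hf
  refine le_trans ?_ h7
  refine (Finset.sum_le_sum_of_subset_of_nonneg (Finset.filter_subset _ _)
    fun S _ _ => sq_nonneg _).trans ?_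
  apply Finset.sum_le_sum
  intro S _
  rw [mul_pow]
  have h2 : exp (-1 / d) ≤ 1 := by
    rw [Real.exp_le_one_iff]
    rw [div_nonpos_iff]
    right
    constructor <;> linarith
  have h3 : (exp (-1 / d) ^ S.card) ^ 2 ≤ 1 :=
    pow_le_one₀ (by positivity) (pow_le_one₀ (exp_pos _).le h2)
  nlinarith [sq_nonneg (co p f S)]

/-- entropy of one atom -/
lemma atom {q : ℝ} {k n : ℕ} (hq0 : 0 ≤ q) {b : ℝ} (hn : 0 < n)
    (hb : b ^ 2 * n ≤ 1) (hq : q ≤ b ^ k) :
    q * (k / 2 * log n) ≤ negMulLog q := by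
  rcases hq0.eq_or_lt with h | h
  · rw [← h]
    simp
  · have hn' : (0 : ℝ) < n := by exact_mod_cast hn
    have h1 : q ^ 2 * (n : ℝ) ^ k ≤ 1 := by
      calc q ^ 2 * (n : ℝ) ^ k ≤ (b ^ k) ^ 2 * (n : ℝ) ^ k := by
            apply mul_le_mul_of_nonneg_right _ (by positivity)
            exact pow_le_pow_left₀ hq0 hq 2
        _ = (b ^ 2 * n) ^ k := by
            rw [mul_pow]
            ring
        _ ≤ 1 := pow_le_one₀ (by positivity) hb
    have h2 : log (q ^ 2 * (n : ℝ) ^ k) ≤ 0 := Real.log_nonpos (by positivity) h1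
    rw [Real.log_mul (by positivity) (by positivity), Real.log_pow, Real.log_pow] at h2
    push_cast at h2
    have h3 : k / 2 * log n ≤ - log q := by linarith
    unfold negMulLog
    calc q * (k / 2 * log n) ≤ q * (- log q) := mul_le_mul_of_nonneg_left h3 hq0
      _ = _ := by ring

/-- the bound for a fixed set `J` -/
lemma fixed {p : ℝ} (h0 : 0 < p) (h1 : p < 1)
    {f : (Edge n r → Bool) → ℝ} (hf : ∀ x, f x = 0 ∨ f x = 1)
    (hs : ∀ (τ : Equiv.Perm (Fin n)) (x : Edge n r → Bool), f (x ∘ act τ) = f x)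
    (hr : 2 ≤ r)
    {d : ℝ} (hd : 1 ≤ d) (hdn : (r * d) ^ 6 ≤ n) (J : Finset (Edge n r)) :
    log n / 16 * ∑ S with ((S.card : ℝ) ≤ d), co p f S ^ 2 * ((VS (S ∩ J)).card : ℝ) ≤
      ∑ T ∈ J.powerset, negMulLog
        (∑ S with S ∩ J = T, (exp (-1 / d) ^ S.card * co p f S) ^ 2) := by
  have hdpos : 0 < d := by linarith
  have hrd : 1 ≤ (r : ℝ) * d := by
    have : (2 : ℝ) ≤ r := by exact_mod_cast hr
    nlinarith
  have hn1 : (1 : ℝ) ≤ n := (one_le_pow₀ hrd).trans hdn
  have hn : 0 < n := by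
    have : (0 : ℝ) < n := by linarith
    exact_mod_cast this
  have hlog : 0 ≤ log (n : ℝ) := Real.log_nonneg hn1
  set w : Finset (Edge n r) → ℝ := fun S => (exp (-1 / d) ^ S.card * co p f S) ^ 2 with hw
  have hw0 : ∀ S, 0 ≤ w S := fun S => sq_nonneg _
  -- every atom
  have h2 : ∀ T ∈ J.powerset, log n / 2 * ∑ S with (S ∩ J = T ∧ (S.card : ℝ) ≤ d),
      w S * ((VS (S ∩ J)).card : ℝ) ≤ negMulLog (∑ S with S ∩ J = T, w S) := by
    intro T _
    have hq0 : 0 ≤ ∑ S with S ∩ J = T, w S := Finset.sum_nonneg fun S _ => hw0 S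
    by_cases hT : ((VS T).card : ℝ) ≤ r * d
    · have h3 := mass_le h0 h1 hf hs hd J T
      have h4 : (∑ S with S ∩ J = T, w S) * ((VS T).card / 2 * log n) ≤
          negMulLog (∑ S with S ∩ J = T, w S) := by
        refine atom hq0 hn (b := r * d * (VS T).card ^ 2 / n) ?_ h3
        have h5 : ((VS T).card : ℝ) ^ 2 ≤ (r * d) ^ 2 := pow_le_pow_left₀ (by positivity) hT 2
        have h6 : (r * d * ((VS T).card : ℝ) ^ 2) ≤ (r * d) ^ 3 := by
          calc r * d * ((VS T).card : ℝ) ^ 2 ≤ r * d * (r * d) ^ 2 :=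
                mul_le_mul_of_nonneg_left h5 (by positivity)
            _ = _ := by ring
        have hn' : (0 : ℝ) < n := by exact_mod_cast hn
        rw [div_pow, div_mul_eq_mul_div, div_le_one (by positivity)]
        calc (r * d * ((VS T).card : ℝ) ^ 2) ^ 2 * n ≤ ((r * d) ^ 3) ^ 2 * n := by
              apply mul_le_mul_of_nonneg_right _ (by positivity)
              exact pow_le_pow_left₀ (by positivity) h6 2
          _ = (r * d) ^ 6 * n := by ring
          _ ≤ n * n := mul_le_mul_of_nonneg_right hdn (by positivity)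
          _ = (n : ℝ) ^ 2 := by ring
      refine le_trans ?_ h4
      have h7 : ∑ S with (S ∩ J = T ∧ (S.card : ℝ) ≤ d), w S * ((VS (S ∩ J)).card : ℝ) ≤
          ∑ S with S ∩ J = T, w S * ((VS T).card : ℝ) := by
        calc ∑ S with (S ∩ J = T ∧ (S.card : ℝ) ≤ d), w S * ((VS (S ∩ J)).card : ℝ) =
            ∑ S with (S ∩ J = T ∧ (S.card : ℝ) ≤ d), w S * ((VS T).card : ℝ) := by
              apply Finset.sum_congr rfl
              intro S hS
              rw [Finset.mem_filter] at hS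
              rw [hS.2.1]
          _ ≤ _ := by
              apply Finset.sum_le_sum_of_subset_of_nonneg
              · intro S hS
                rw [Finset.mem_filter] at hS ⊢
                exact ⟨hS.1, hS.2.1⟩
              · exact fun S _ _ => mul_nonneg (hw0 S) (by positivity)
      calc log n / 2 * ∑ S with (S ∩ J = T ∧ (S.card : ℝ) ≤ d),
            w S * ((VS (S ∩ J)).card : ℝ) ≤
          log n / 2 * ∑ S with S ∩ J = T, w S * ((VS T).card : ℝ) :=
            mul_le_mul_of_nonneg_left h7 (by positivity)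
        _ = _ := by
            rw [← Finset.sum_mul]
            ring
    · -- no small set has this trace
      have h3 : ∀ S : Finset (Edge n r), ¬ (S ∩ J = T ∧ (S.card : ℝ) ≤ d) := by
        rintro S ⟨rfl, hS⟩
        apply hT
        have h4 : ((VS (S ∩ J)).card : ℝ) ≤ r * (S ∩ J).card := by
          exact_mod_cast card_VS_le (S ∩ J)
        have h5 : ((S ∩ J).card : ℝ) ≤ S.card := by
          exact_mod_cast Finset.card_le_card inter_subset_left
        calc ((VS (S ∩ J)).card : ℝ) ≤ r * (S ∩ J).card := h4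
          _ ≤ r * S.card := mul_le_mul_of_nonneg_left h5 (by positivity)
          _ ≤ r * d := mul_le_mul_of_nonneg_left hS (by positivity)
      rw [Finset.filter_false_of_mem fun S _ => h3 S, Finset.sum_empty, mul_zero]
      exact Real.negMulLog_nonneg hq0 (mass_le_one h0 h1 hf hd J T)
  refine le_trans ?_ (Finset.sum_le_sum h2)
  rw [← Finset.mul_sum]
  have h3 : ∑ T ∈ J.powerset, ∑ S with (S ∩ J = T ∧ (S.card : ℝ) ≤ d),
      w S * ((VS (S ∩ J)).card : ℝ) =
      ∑ S with ((S.card : ℝ) ≤ d), w S * ((VS (S ∩ J)).card : ℝ) := by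
    rw [← Finset.sum_fiberwise_of_maps_to (s := univ.filter fun S => (S.card : ℝ) ≤ d)
      (t := J.powerset) (g := fun S => S ∩ J)
      (fun S _ => Finset.mem_powerset.2 inter_subset_right)]
    apply Finset.sum_congr rfl
    intro T _
    apply Finset.sum_congr _ fun _ _ => rfl
    ext S
    simp only [Finset.mem_filter, Finset.mem_univ, true_and]
    exact and_comm
  rw [h3]
  have h4 : ∑ S with ((S.card : ℝ) ≤ d), co p f S ^ 2 * ((VS (S ∩ J)).card : ℝ) ≤
      8 * ∑ S with ((S.card : ℝ) ≤ d), w S * ((VS (S ∩ J)).card : ℝ) := by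
    rw [Finset.mul_sum]
    apply Finset.sum_le_sum
    intro S hS
    rw [Finset.mem_filter] at hS
    have h5 : (1 : ℝ) ≤ 8 * (exp (-1 / d) ^ S.card) ^ 2 := by
      have e1 : (exp (-1 / d) ^ S.card) ^ 2 = exp (-(2 * S.card / d)) := by
        rw [← pow_mul, ← Real.exp_nat_mul]
        congr 1
        push_cast
        ring
      rw [e1]
      have h6 : (2 * S.card / d : ℝ) ≤ 2 := by
        rw [div_le_iff₀ hdpos]
        linarith [hS.2]
      have h7 : exp (-2 : ℝ) ≤ exp (-(2 * S.card / d)) := by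
        apply Real.exp_le_exp.2
        linarith
      have h8 : exp (2 : ℝ) ≤ 8 := by
        have e2 : exp (2 : ℝ) = exp 1 * exp 1 := by rw [← Real.exp_add]; norm_num
        rw [e2]
        have := Real.exp_one_lt_d9
        nlinarith [Real.exp_pos 1]
      have h9 : 1 = exp (2 : ℝ) * exp (-2 : ℝ) := by rw [← Real.exp_add]; simp
      have h10 : (0 : ℝ) < exp (-2) := exp_pos _
      nlinarith
    have h6 : co p f S ^ 2 ≤ 8 * w S := by
      simp only [hw]
      rw [mul_pow]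
      nlinarith [sq_nonneg (co p f S)]
    calc co p f S ^ 2 * ((VS (S ∩ J)).card : ℝ) ≤ 8 * w S * ((VS (S ∩ J)).card : ℝ) :=
          mul_le_mul_of_nonneg_right h6 (by positivity)
      _ = _ := by ring
  calc log n / 16 * ∑ S with ((S.card : ℝ) ≤ d), co p f S ^ 2 * ((VS (S ∩ J)).card : ℝ) ≤
      log n / 16 * (8 * ∑ S with ((S.card : ℝ) ≤ d), w S * ((VS (S ∩ J)).card : ℝ)) :=
        mul_le_mul_of_nonneg_left h4 (by positivity)
    _ = _ := by ring

lemma avg_mono {E : Type} [Fintype E] [DecidableEq E] {R : ℕ} {F H : (E → Fin R) → ℝ}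
    (h : ∀ χ, F χ ≤ H χ) : avg F ≤ avg H := by
  unfold avg
  exact div_le_div_of_nonneg_right (Finset.sum_le_sum fun χ _ => h χ) (by positivity)

end LowerAux

open LowerAux

/-- the spectral law has a large entropy -/
theorem lower {n r : ℕ} (hr : 2 ≤ r) {p : ℝ} (h0 : 0 < p) (h1 : p < 1)
    {f : (Edge n r → Bool) → ℝ} (hf : ∀ x, f x = 0 ∨ f x = 1)
    (hs : ∀ (τ : Equiv.Perm (Fin n)) (x : Edge n r → Bool), f (x ∘ act τ) = f x)
    {d : ℝ} (hd : 1 ≤ d) (hdn : (r * d) ^ 6 ≤ n) {A M : ℕ} (hA : 0 < A) (hM : 0 < M) :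
    log n / 64 * ∑ S with ((S.card : ℝ) ≤ d), co p f S ^ 2 *
        min ((S.card : ℝ) ^ (1 / r : ℝ)) (S.card / A) ≤
      avg (fun χ : Edge n r → Fin (A * M) => ∑ T ∈ (low M χ).powerset, negMulLog
        (∑ S with S ∩ low M χ = T, (exp (-1 / d) ^ S.card * co p f S) ^ 2)) := by
  have hrd : 1 ≤ (r : ℝ) * d := by
    have : (2 : ℝ) ≤ r := by exact_mod_cast hr
    nlinarith
  have hn1 : (1 : ℝ) ≤ n := (one_le_pow₀ hrd).trans hdn
  have hlog : 0 ≤ log (n : ℝ) := Real.log_nonneg hn1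
  refine le_trans ?_ (avg_mono fun χ => fixed h0 h1 hf hs hr hd hdn (low M χ))
  have e1 : avg (fun χ : Edge n r → Fin (A * M) => log n / 16 *
      ∑ S with ((S.card : ℝ) ≤ d), co p f S ^ 2 * ((VS (S ∩ low M χ)).card : ℝ)) =
      log n / 16 * ∑ S with ((S.card : ℝ) ≤ d), co p f S ^ 2 *
        avg (fun χ : Edge n r → Fin (A * M) => ((VS (S ∩ low M χ)).card : ℝ)) := by
    unfold avg
    rw [← Finset.mul_sum, Finset.sum_comm, mul_div_assoc, Finset.sum_div]
    congr 1
    apply Finset.sum_congr rfl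
    intro S _
    rw [← Finset.mul_sum, mul_div_assoc]
  rw [e1]
  have h2 : ∑ S with ((S.card : ℝ) ≤ d), co p f S ^ 2 *
      ((1 / 4 : ℝ) * min ((S.card : ℝ) ^ (1 / r : ℝ)) (S.card / A)) ≤
      ∑ S with ((S.card : ℝ) ≤ d), co p f S ^ 2 *
        avg (fun χ : Edge n r → Fin (A * M) => ((VS (S ∩ low M χ)).card : ℝ)) := by
    apply Finset.sum_le_sum
    intro S _
    exact mul_le_mul_of_nonneg_left (verts (by omega) S hA hM) (sq_nonneg _)
  calc log n / 64 * ∑ S with ((S.card : ℝ) ≤ d), co p f S ^ 2 *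
        min ((S.card : ℝ) ^ (1 / r : ℝ)) (S.card / A) =
      log n / 16 * ∑ S with ((S.card : ℝ) ≤ d), co p f S ^ 2 *
      ((1 / 4 : ℝ) * min ((S.card : ℝ) ^ (1 / r : ℝ)) (S.card / A)) := by
        rw [Finset.mul_sum, Finset.mul_sum]
        apply Finset.sum_congr rfl
        intro S _
        ring
    _ ≤ _ := mul_le_mul_of_nonneg_left h2 (by positivity)

end P063
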