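import Mathlib

/-!
# P063 : module S, a scale analysis
-/

namespace P063

open Finset Real

namespace ScaleAux

/-- the minimum -/
noncomputable def mm (r A : ℕ) (X : ℕ) : ℝ := min ((X : ℝ) ^ (1 / r : ℝ)) (X / A)

lemma mm_nonneg (r A X : ℕ) : 0 ≤ mm r A X := by
  unfold mm
  apply le_min <;> positivity

lemma q_t {r : ℕ} :
    (2 : ℝ) ^ (1 - 1 / r : ℝ) * (2 : ℝ) ^ (1 / r : ℝ) = 2 := by
  rw [← Real.rpow_add (by norm_num)]
  have : (1 - 1 / r : ℝ) + 1 / r = 1 := by ring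
  rw [this, Real.rpow_one]

lemma t_ge {r : ℕ} : 1 ≤ (2 : ℝ) ^ (1 / r : ℝ) :=
  Real.one_le_rpow (by norm_num) (by positivity)

lemma q_ge {r : ℕ} (hr : 2 ≤ r) : (7 / 5 : ℝ) ≤ (2 : ℝ) ^ (1 - 1 / r : ℝ) := by
  have hr' : (2 : ℝ) ≤ r := by exact_mod_cast hr
  have h1 : (1 / 2 : ℝ) ≤ 1 - 1 / r := by
    have : (1 / r : ℝ) ≤ 1 / 2 := by
      apply one_div_le_one_div_of_le (by norm_num) hr'
    linarith
  have h2 : (2 : ℝ) ^ (1 / 2 : ℝ) ≤ (2 : ℝ) ^ (1 - 1 / r : ℝ) :=
    Real.rpow_le_rpow_of_exponent_le (by norm_num) h1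
  have h3 : (7 / 5 : ℝ) ≤ (2 : ℝ) ^ (1 / 2 : ℝ) := by
    rw [← Real.sqrt_eq_rpow]
    apply Real.le_sqrt_of_sq_le
    norm_num
  exact h3.trans h2

lemma pow_rpow (J : ℕ) (a : ℝ) : ((2 : ℝ) ^ J) ^ a = ((2 : ℝ) ^ a) ^ J := by
  rw [← Real.rpow_natCast, ← Real.rpow_natCast, ← Real.rpow_mul (by norm_num),
    ← Real.rpow_mul (by norm_num), mul_comm]

/-- geometric sum -/
lemma geom {q : ℝ} (hq : 7 / 5 ≤ q) (J : ℕ) :
    ∑ j ∈ range (J + 1), q ^ j ≤ 7 / 2 * q ^ J := by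
  induction J with
  | zero => simp; norm_num
  | succ J ih =>
    rw [Finset.sum_range_succ]
    have h : 0 < q ^ J := by positivity
    rw [pow_succ]
    nlinarith

lemma geom_half (J : ℕ) : ∑ j ∈ range (J + 1), (1 : ℝ) / 2 ^ j ≤ 2 := by
  have h : ∑ j ∈ range (J + 1), (1 : ℝ) / 2 ^ j = 2 - 1 / 2 ^ J := by
    induction J with
    | zero => simp; norm_num
    | succ J ih =>
      rw [Finset.sum_range_succ, ih]
      field_simp
      ring
  rw [h]
  have : (0 : ℝ) < 1 / 2 ^ J := by positivity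
  linarith

/-- cover by the dyadic classes -/
lemma cover {ι : Type} [Fintype ι] (X : ι → ℕ) (w : ι → ℝ) (hw : ∀ i, 0 ≤ w i) (J : ℕ) :
    ∑ i with (1 ≤ X i ∧ X i ≤ 2 ^ J), w i ≤
      ∑ j ∈ range (J + 1), ∑ i with (2 ^ j < 2 * X i ∧ X i ≤ 2 ^ j), w i := by
  classical
  induction J with
  | zero =>
    rw [Finset.sum_range_one]
    apply Finset.sum_le_sum_of_subset_of_nonneg
    · intro i hi
      rw [Finset.mem_filter] at hi ⊢
      refine ⟨hi.1, ?_, hi.2.2⟩
      have := hi.2.1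
      simp only [pow_zero]
      omega
    · exact fun i _ _ => hw i
  | succ J ih =>
    rw [Finset.sum_range_succ]
    have h1 : ∑ i with (1 ≤ X i ∧ X i ≤ 2 ^ (J + 1)), w i ≤
        ∑ i with (1 ≤ X i ∧ X i ≤ 2 ^ J), w i +
          ∑ i with (2 ^ (J + 1) < 2 * X i ∧ X i ≤ 2 ^ (J + 1)), w i := by
      rw [Finset.sum_filter, Finset.sum_filter, Finset.sum_filter, ← Finset.sum_add_distrib]
      apply Finset.sum_le_sum
      intro i _
      have h := hw i
      have e : 2 ^ (J + 1) = 2 * 2 ^ J := by ring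
      by_cases h2 : X i ≤ 2 ^ J
      · by_cases h3 : 1 ≤ X i
        · rw [if_pos (⟨h3, h2⟩ : 1 ≤ X i ∧ X i ≤ 2 ^ J)]
          split_ifs <;> linarith
        · rw [if_neg (fun h4 : 1 ≤ X i ∧ X i ≤ 2 ^ (J + 1) => h3 h4.1)]
          split_ifs <;> linarith
      · have h3 : 2 ^ (J + 1) < 2 * X i := by
          rw [e]
          omega
        by_cases h4 : X i ≤ 2 ^ (J + 1)
        · rw [if_pos (⟨h3, h4⟩ : 2 ^ (J + 1) < 2 * X i ∧ X i ≤ 2 ^ (J + 1))]
          split_ifs <;> linarith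
        · rw [if_neg (fun h5 : 1 ≤ X i ∧ X i ≤ 2 ^ (J + 1) => h4 h5.2)]
          split_ifs <;> linarith
    linarith

end ScaleAux

open ScaleAux

theorem scale {ι : Type} [Fintype ι] (X : ι → ℕ) (w : ι → ℝ) (hw : ∀ i, 0 ≤ w i) {r A : ℕ}
    (hr : 2 ≤ r) (hA : 0 < A) {v b b' : ℝ} (hv : ∑ i with 1 ≤ X i, w i = v) (hb : 0 < b)
    (hb' : 0 ≤ b') (J : ℕ)
    (key : ∀ j ≤ J, ∑ i with (X i ≤ 2 ^ j), w i * min ((X i : ℝ) ^ (1 / r : ℝ)) (X i / A) ≤
      b * (∑ i with (X i ≤ 2 ^ j), X i * w i + 2 ^ j * v) + b')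
    (h1 : b * ((2 : ℝ) ^ J) ^ (1 - 1 / r : ℝ) ≤ 1 / 100) (h2 : b * A * (J + 1) ≤ 1 / 100)
    (h3 : b' * (A + J + 1) ≤ v / 100) :
    ∑ i with (1 ≤ X i ∧ X i ≤ 2 ^ J), w i ≤ v / 2 := by
  classical
  have hv0 : 0 ≤ v := by
    rw [← hv]
    exact Finset.sum_nonneg fun i _ => hw i
  have hA' : (1 : ℝ) ≤ A := by exact_mod_cast hA
  set q : ℝ := (2 : ℝ) ^ (1 - 1 / r : ℝ) with hq
  set t : ℝ := (2 : ℝ) ^ (1 / r : ℝ) with ht
  have hqt : q * t = 2 := q_t
  have ht1 : 1 ≤ t := t_ge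
  have hq1 : 7 / 5 ≤ q := q_ge hr
  have ht2 : t ≤ 2 := by nlinarith
  have hJ0 : (0 : ℝ) ≤ J := Nat.cast_nonneg J
  have h1' : b * q ^ J ≤ 1 / 100 := by
    rw [hq, ← pow_rpow]
    exact h1
  have h2' : b * A ≤ 1 / 100 := by
    have : 0 ≤ b * A * J := by positivity
    nlinarith
  have hrexp : (0 : ℝ) ≤ 1 - 1 / r := by
    have hr' : (2 : ℝ) ≤ r := by exact_mod_cast hr
    have : (1 / r : ℝ) ≤ 1 / 2 := one_div_le_one_div_of_le (by norm_num) hr'
    linarith
  -- the mass of the linear term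
  have hlin : ∀ X0 : ℕ, X0 ≤ 2 ^ J → b * X0 ≤ 1 / 100 * mm r A X0 := by
    intro X0 hX0
    rcases Nat.eq_zero_or_pos X0 with h0 | h0
    · rw [h0]
      have := mm_nonneg r A 0
      simp only [Nat.cast_zero, mul_zero]
      positivity
    have hX : (0 : ℝ) < X0 := by exact_mod_cast h0
    rcases min_choice ((X0 : ℝ) ^ (1 / r : ℝ)) (X0 / A) with h | h
    · unfold mm
      rw [h]
      have e1 : (X0 : ℝ) = (X0 : ℝ) ^ (1 - 1 / r : ℝ) * (X0 : ℝ) ^ (1 / r : ℝ) := by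
        rw [← Real.rpow_add hX]
        have : (1 - 1 / r : ℝ) + 1 / r = 1 := by ring
        rw [this, Real.rpow_one]
      have h4 : (X0 : ℝ) ^ (1 - 1 / r : ℝ) ≤ q ^ J := by
        rw [hq, ← pow_rpow]
        apply Real.rpow_le_rpow hX.le _ hrexp
        exact_mod_cast hX0
      calc b * X0 = b * (X0 : ℝ) ^ (1 - 1 / r : ℝ) * (X0 : ℝ) ^ (1 / r : ℝ) := by
            rw [mul_assoc, ← e1]
        _ ≤ b * q ^ J * (X0 : ℝ) ^ (1 / r : ℝ) := by
            apply mul_le_mul_of_nonneg_right _ (by positivity)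
            exact mul_le_mul_of_nonneg_left h4 hb.le
        _ ≤ 1 / 100 * (X0 : ℝ) ^ (1 / r : ℝ) :=
            mul_le_mul_of_nonneg_right h1' (by positivity)
    · unfold mm
      rw [h]
      calc b * X0 = b * A * (X0 / A) := by
            field_simp
        _ ≤ 1 / 100 * (X0 / A) := mul_le_mul_of_nonneg_right h2' (by positivity)
  -- the bound for a_j
  have ha : ∀ j ≤ J, ∑ i with (X i ≤ 2 ^ j), w i * mm r A (X i) ≤
      100 / 99 * (b * 2 ^ j * v + b') := by
    intro j hj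
    have h4 := key j hj
    have h5 : b * ∑ i with (X i ≤ 2 ^ j), X i * w i ≤
        1 / 100 * ∑ i with (X i ≤ 2 ^ j), w i * mm r A (X i) := by
      rw [Finset.mul_sum, Finset.mul_sum]
      apply Finset.sum_le_sum
      intro i hi
      rw [Finset.mem_filter] at hi
      have h6 := hlin (X i) (hi.2.trans (Nat.pow_le_pow_right (by norm_num) hj))
      calc b * (X i * w i) = b * X i * w i := by ring
        _ ≤ 1 / 100 * mm r A (X i) * w i := mul_le_mul_of_nonneg_right h6 (hw i)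
        _ = _ := by ring
    have h6 : ∑ i with (X i ≤ 2 ^ j), w i * mm r A (X i) ≤
        b * (∑ i with (X i ≤ 2 ^ j), X i * w i + 2 ^ j * v) + b' := h4
    rw [mul_add] at h6
    linarith
  -- the lower bound for mm on a dyadic class
  have hmm : ∀ (j X0 : ℕ), 2 ^ j < 2 * X0 →
      1 ≤ mm r A X0 * (2 / t ^ j + 2 * A / 2 ^ j) := by
    intro j X0 hX0
    have hX : (2 : ℝ) ^ j < 2 * X0 := by exact_mod_cast hX0
    have h2j : (0 : ℝ) < 2 ^ j := by positivity
    have htj : (0 : ℝ) < t ^ j := by positivity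
    rcases min_choice ((X0 : ℝ) ^ (1 / r : ℝ)) (X0 / A) with h | h
    · have h4 : t ^ j / 2 ≤ (X0 : ℝ) ^ (1 / r : ℝ) := by
        have h5 : ((2 : ℝ) ^ j / 2) ^ (1 / r : ℝ) ≤ (X0 : ℝ) ^ (1 / r : ℝ) := by
          apply Real.rpow_le_rpow (by positivity) (by linarith) (by positivity)
        refine le_trans ?_ h5
        rw [Real.div_rpow (by positivity) (by norm_num), pow_rpow, ← ht]
        exact div_le_div_of_nonneg_left (by positivity) (by positivity) ht2
      have h5 : t ^ j / 2 ≤ mm r A X0 := by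
        unfold mm
        rw [h]
        exact h4
      have h6 : 1 = t ^ j / 2 * (2 / t ^ j) := by
        field_simp
      calc 1 = t ^ j / 2 * (2 / t ^ j) := h6
        _ ≤ mm r A X0 * (2 / t ^ j) := mul_le_mul_of_nonneg_right h5 (by positivity)
        _ ≤ _ := by
            apply mul_le_mul_of_nonneg_left _ (mm_nonneg r A X0)
            have : (0 : ℝ) ≤ 2 * A / 2 ^ j := by positivity
            linarith
    · have h5 : 2 ^ j / (2 * A) ≤ mm r A X0 := by
        unfold mm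
        rw [h, div_le_div_iff₀ (by positivity) (by positivity)]
        nlinarith
      have h6 : (1 : ℝ) = 2 ^ j / (2 * A) * (2 * A / 2 ^ j) := by
        field_simp
      calc (1 : ℝ) = 2 ^ j / (2 * A) * (2 * A / 2 ^ j) := h6
        _ ≤ mm r A X0 * (2 * A / 2 ^ j) := mul_le_mul_of_nonneg_right h5 (by positivity)
        _ ≤ _ := by
            apply mul_le_mul_of_nonneg_left _ (mm_nonneg r A X0)
            have : (0 : ℝ) ≤ 2 / t ^ j := by positivity
            linarith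
  -- the mass of a dyadic class
  have hm : ∀ j ∈ range (J + 1), ∑ i with (2 ^ j < 2 * X i ∧ X i ≤ 2 ^ j), w i ≤
      100 / 99 * (b * v * (2 * q ^ j + 2 * A) + b' * (2 + 2 * A * (1 / 2 ^ j))) := by
    intro j hj
    have hj' : j ≤ J := by
      rw [Finset.mem_range] at hj
      omega
    have htj : (1 : ℝ) ≤ t ^ j := one_le_pow₀ ht1
    have h2j : (0 : ℝ) < 2 ^ j := by positivity
    have e1 : (2 : ℝ) ^ j = q ^ j * t ^ j := by rw [← mul_pow, hqt]
    have h4 : ∑ i with (2 ^ j < 2 * X i ∧ X i ≤ 2 ^ j), w i ≤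
        (∑ i with (X i ≤ 2 ^ j), w i * mm r A (X i)) * (2 / t ^ j + 2 * A / 2 ^ j) := by
      rw [Finset.sum_mul]
      calc ∑ i with (2 ^ j < 2 * X i ∧ X i ≤ 2 ^ j), w i ≤
          ∑ i with (2 ^ j < 2 * X i ∧ X i ≤ 2 ^ j),
            w i * mm r A (X i) * (2 / t ^ j + 2 * A / 2 ^ j) := by
            apply Finset.sum_le_sum
            intro i hi
            rw [Finset.mem_filter] at hi
            have h5 := hmm j (X i) hi.2.1
            rw [mul_assoc]
            exact le_mul_of_one_le_right (hw i) h5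
        _ ≤ _ := by
            apply Finset.sum_le_sum_of_subset_of_nonneg
            · intro i hi
              rw [Finset.mem_filter] at hi ⊢
              exact ⟨hi.1, hi.2.2⟩
            · intro i _ _
              exact mul_nonneg (mul_nonneg (hw i) (mm_nonneg _ _ _)) (by positivity)
    have h5 : (∑ i with (X i ≤ 2 ^ j), w i * mm r A (X i)) * (2 / t ^ j + 2 * A / 2 ^ j) ≤
        100 / 99 * (b * 2 ^ j * v + b') * (2 / t ^ j + 2 * A / 2 ^ j) :=
      mul_le_mul_of_nonneg_right (ha j hj') (by positivity)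
    have h6 : (2 : ℝ) ^ j * (2 / t ^ j + 2 * A / 2 ^ j) = 2 * q ^ j + 2 * A := by
      rw [mul_add, mul_div_cancel₀ _ h2j.ne']
      congr 1
      rw [e1]
      field_simp
    have h7 : 2 / t ^ j + 2 * A / 2 ^ j ≤ 2 + 2 * A * (1 / 2 ^ j) := by
      have : 2 / t ^ j ≤ 2 := div_le_self (by norm_num) htj
      have e2 : 2 * (A : ℝ) / 2 ^ j = 2 * A * (1 / 2 ^ j) := by ring
      rw [e2]
      linarith
    calc ∑ i with (2 ^ j < 2 * X i ∧ X i ≤ 2 ^ j), w i ≤
        100 / 99 * (b * 2 ^ j * v + b') * (2 / t ^ j + 2 * A / 2 ^ j) := h4.trans h5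
      _ = 100 / 99 * (b * v * ((2 : ℝ) ^ j * (2 / t ^ j + 2 * A / 2 ^ j)) +
            b' * (2 / t ^ j + 2 * A / 2 ^ j)) := by ring
      _ ≤ 100 / 99 * (b * v * (2 * q ^ j + 2 * A) + b' * (2 + 2 * A * (1 / 2 ^ j))) := by
          rw [h6]
          have := mul_le_mul_of_nonneg_left h7 hb'
          linarith
  have hsum := (cover X w hw J).trans (Finset.sum_le_sum hm)
  have e2 : ∑ j ∈ range (J + 1), 100 / 99 * (b * v * (2 * q ^ j + 2 * A) +
      b' * (2 + 2 * A * (1 / 2 ^ j))) =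
      100 / 99 * (b * v * (2 * ∑ j ∈ range (J + 1), q ^ j + 2 * A * (J + 1)) +
        b' * (2 * (J + 1) + 2 * A * ∑ j ∈ range (J + 1), (1 : ℝ) / 2 ^ j)) := by
    have e3 : ∀ j ∈ range (J + 1), 100 / 99 * (b * v * (2 * q ^ j + 2 * A) +
        b' * (2 + 2 * A * (1 / 2 ^ j))) =
        (100 / 99 * b * v * 2) * q ^ j + (100 / 99 * (b * v * (2 * A) + b' * 2)) +
          (100 / 99 * b' * (2 * A)) * (1 / 2 ^ j) := by
      intro j _
      ring
    rw [Finset.sum_congr rfl e3, Finset.sum_add_distrib, Finset.sum_add_distrib,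
      Finset.sum_const, Finset.card_range, nsmul_eq_mul,
      ← Finset.mul_sum (f := fun j => q ^ j), ← Finset.mul_sum (f := fun j => (1 : ℝ) / 2 ^ j)]
    push_cast
    ring
  rw [e2] at hsum
  have h8 := geom hq1 J
  have h9 := geom_half J
  have h10 : b * v * (2 * ∑ j ∈ range (J + 1), q ^ j + 2 * A * (J + 1)) ≤ 9 / 100 * v := by
    calc b * v * (2 * ∑ j ∈ range (J + 1), q ^ j + 2 * A * (J + 1)) ≤
        b * v * (2 * (7 / 2 * q ^ J) + 2 * A * (J + 1)) := by
          apply mul_le_mul_of_nonneg_left _ (by positivity)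
          linarith
      _ = v * (7 * (b * q ^ J) + 2 * (b * A * (J + 1))) := by ring
      _ ≤ v * (7 * (1 / 100) + 2 * (1 / 100)) := by
          apply mul_le_mul_of_nonneg_left _ hv0
          linarith
      _ = _ := by ring
  have h11 : b' * (2 * (J + 1) + 2 * A * ∑ j ∈ range (J + 1), (1 : ℝ) / 2 ^ j) ≤
      4 / 100 * v := by
    calc b' * (2 * (J + 1) + 2 * A * ∑ j ∈ range (J + 1), (1 : ℝ) / 2 ^ j) ≤
        b' * (2 * (J + 1) + 2 * A * 2) := by
          apply mul_le_mul_of_nonneg_left _ hb'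
          have := mul_le_mul_of_nonneg_left h9 (by positivity : (0 : ℝ) ≤ 2 * A)
          linarith
      _ ≤ b' * (4 * (A + J + 1)) := by
          apply mul_le_mul_of_nonneg_left _ hb'
          linarith
      _ = 4 * (b' * (A + J + 1)) := by ring
      _ ≤ _ := by linarith
  linarith

end P063
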