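import Vale.Agent.P063.ExLin
import Vale.Agent.P063.Cube

/-!
# P063, module H : the entropy at the finest scale
-/

namespace P063

open Finset Real

namespace FineAux

lemma step_zero {a M : ℝ} (ha : 0 ≤ a) (haM : a ≤ M) (hM : M ≤ 1) :
    negMulLog a - negMulLog M ≤ M - a := by
  rcases ha.eq_or_lt with h | h
  · rw [← h, negMulLog_zero]
    have : 0 ≤ negMulLog M := negMulLog_nonneg (ha.trans haM) hM
    linarith
  · have hM0 : 0 < M := lt_of_lt_of_le h haM
    have h2 : log M ≤ 0 := log_nonpos hM0.le hM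
    have h3 : log (M / a) ≤ M / a - 1 := log_le_sub_one_of_pos (by positivity)
    rw [log_div hM0.ne' h.ne'] at h3
    have h4 := mul_le_mul_of_nonneg_left h3 ha
    have h5 : a * (M / a - 1) = M - a := by
      field_simp
    have h6 : (M - a) * log M ≤ 0 := mul_nonpos_of_nonneg_of_nonpos (by linarith) h2
    unfold negMulLog
    nlinarith

lemma mul_log_mono {t η : ℝ} (ht : 0 < t) (htη : t ≤ η) (hη' : η ≤ 1 / 3) :
    t * log (1 / t) ≤ η * log (1 / η) := by
  have hη : 0 < η := lt_of_lt_of_le ht htη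
  have h1 : 1 < log (1 / η) := by
    rw [lt_log_iff_exp_lt (by positivity)]
    have h2 : exp 1 < 3 := lt_trans exp_one_lt_d9 (by norm_num)
    have h3 : 3 ≤ 1 / η := by
      rw [le_div_iff₀ hη]
      linarith
    linarith
  have h2 : log (η / t) ≤ η / t - 1 := log_le_sub_one_of_pos (by positivity)
  rw [log_div hη.ne' ht.ne'] at h2
  have h3 := mul_le_mul_of_nonneg_left h2 ht.le
  have h4 : t * (η / t - 1) = η - t := by
    field_simp
  have h5 : log (1 / η) = - log η := by rw [one_div, log_inv]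
  have h6 : log (1 / t) = - log t := by rw [one_div, log_inv]
  rw [h5] at h1 ⊢
  rw [h6]
  nlinarith

lemma step_one {y η : ℝ} (hy : |y| ≤ 1) (hη : 0 < η) (hη' : η ≤ 1 / 3) :
    negMulLog (y ^ 2) ≤ 2 * log (1 / η) * y ^ 2 + 2 * η * log (1 / η) * |y| := by
  have hl : 0 ≤ log (1 / η) := log_nonneg (by
    rw [le_div_iff₀ hη]
    linarith)
  by_cases h0 : y = 0
  · subst h0
    simp
  · have hy0 : 0 < |y| := abs_pos.mpr h0
    have h1 : negMulLog (y ^ 2) = 2 * (y ^ 2 * log (1 / |y|)) := by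
      unfold negMulLog
      rw [one_div, log_inv, ← sq_abs y, log_pow]
      push_cast
      ring
    rw [h1]
    rcases le_total η |y| with h | h
    · have h2 : log (1 / |y|) ≤ log (1 / η) :=
        log_le_log (by positivity) (one_div_le_one_div_of_le hη h)
      have h3 := mul_le_mul_of_nonneg_left h2 (sq_nonneg y)
      have h4 : 0 ≤ η * log (1 / η) * |y| := by positivity
      nlinarith
    · have h2 := mul_log_mono hy0 h hη'
      have h3 : y ^ 2 * log (1 / |y|) = |y| * (|y| * log (1 / |y|)) := by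
        rw [← sq_abs y]
        ring
      rw [h3]
      have h4 := mul_le_mul_of_nonneg_left h2 hy0.le
      have h5 : 0 ≤ log (1 / η) * y ^ 2 := by positivity
      nlinarith

lemma step_two {y r : ℝ} (hy : 0 ≤ y) (hr : 0 < r) : negMulLog y ≤ y * log (1 / r) + r := by
  rcases hy.eq_or_lt with h | h
  · rw [← h, negMulLog_zero]
    linarith
  · have h2 : log (r / y) ≤ r / y - 1 := log_le_sub_one_of_pos (by positivity)
    rw [log_div hr.ne' h.ne'] at h2
    have h3 := mul_le_mul_of_nonneg_left h2 hy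
    have h4 : y * (r / y - 1) = r - y := by
      field_simp
    unfold negMulLog
    rw [one_div, log_inv]
    nlinarith

/-- the bound for one nonempty set -/
lemma step_T {k : ℕ} (hk : 1 ≤ k) {y η R : ℝ} (hy : |y| ≤ 1) (hη : 0 < η) (hη' : η ≤ 1 / 3)
    (hR : 2 ≤ R) :
    negMulLog (y ^ 2) ≤ 2 * log (1 / η) * (k * y ^ 2) +
      2 * η * log (1 / η) * (if k = 1 then |y| else 0) +
      2 * log R * (k * (k - 1) * y ^ 2) + 1 / R ^ 2 * (1 / R) ^ k := by
  have hl : 0 ≤ log (1 / η) := log_nonneg (by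
    rw [le_div_iff₀ hη]
    linarith)
  have hR0 : 0 < R := by linarith
  have hlR : 0 ≤ log R := log_nonneg (by linarith)
  have hpos : 0 ≤ 1 / R ^ 2 * (1 / R) ^ k := by positivity
  by_cases h1 : k = 1
  · subst h1
    have h2 := step_one hy hη hη'
    simp only [if_true, Nat.cast_one, one_mul, sub_self, zero_mul, mul_zero, add_zero]
    linarith
  · rw [if_neg h1, mul_zero, add_zero]
    have hk2 : 2 ≤ k := by omega
    have hk2' : (2 : ℝ) ≤ k := by exact_mod_cast hk2
    have h2 := step_two (sq_nonneg y) (r := (1 / R) ^ (2 * k)) (by positivity)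
    have h3 : log (1 / (1 / R) ^ (2 * k)) = 2 * k * log R := by
      rw [one_div, ← inv_pow, one_div, inv_inv, log_pow]
      push_cast
      ring
    rw [h3] at h2
    have h4 : (1 / R) ^ (2 * k) ≤ 1 / R ^ 2 * (1 / R) ^ k := by
      have h5 : 1 / R ^ 2 * (1 / R) ^ k = (1 / R) ^ (2 + k) := by
        rw [pow_add]
        congr 1
        rw [one_div, one_div, inv_pow]
      rw [h5]
      refine pow_le_pow_of_le_one (by positivity) ?_ (by omega)
      rw [div_le_one hR0]
      linarith
    have h6 : y ^ 2 * (2 * k * log R) ≤ 2 * log R * (k * (k - 1) * y ^ 2) := by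
      have h7 : 0 ≤ log R * (k * (k - 2) * y ^ 2) := by
        have : (0 : ℝ) ≤ k - 2 := by linarith
        positivity
      nlinarith
    have h8 : 0 ≤ 2 * log (1 / η) * (k * y ^ 2) := by positivity
    linarith

variable {E : Type} [Fintype E] [DecidableEq E] {p : ℝ}

lemma Q_full (c : Finset E → ℝ) (J T : Finset E) (x : E → Bool) :
    Q p c J J T x = G p c J T x ^ 2 := by
  unfold Q
  simp

lemma Q_empty (c : Finset E → ℝ) (J : Finset E) (x : E → Bool) :
    Q p c J ∅ ∅ x = ∑ T ∈ J.powerset, G p c J T x ^ 2 := by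
  unfold Q
  simp

omit [Fintype E] [DecidableEq E] in
lemma sum_one (J : Finset E) (g : Finset E → ℝ) :
    ∑ T ∈ J.powerset, (if T.card = 1 then g T else 0) = ∑ e ∈ J, g {e} := by
  rw [← Finset.sum_filter, ← Finset.powersetCard_eq_filter, Finset.powersetCard_one,
    Finset.sum_map]
  rfl

omit [DecidableEq E] in
lemma sum_R {R : ℝ} (hR : 2 ≤ R) (hER : (Fintype.card E : ℝ) ≤ R) (J : Finset E) :
    ∑ T ∈ J.powerset, (1 / R) ^ T.card ≤ 3 := by
  have hR0 : 0 < R := by linarith
  have h1 : ∑ T ∈ J.powerset, (1 / R) ^ T.card = (1 / R + 1) ^ J.card := by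
    rw [← Finset.sum_pow_mul_eq_add_pow]
    refine Finset.sum_congr rfl fun T _ => ?_
    rw [one_pow, mul_one]
  rw [h1]
  have h2 : (1 / R + 1) ^ J.card ≤ exp (1 / R) ^ J.card :=
    pow_le_pow_left₀ (by positivity) (add_one_le_exp _) _
  rw [← exp_nat_mul] at h2
  have h3 : (J.card : ℝ) * (1 / R) ≤ 1 := by
    rw [mul_one_div, div_le_one hR0]
    refine le_trans ?_ hER
    exact_mod_cast Finset.card_le_univ J
  have h4 : exp (J.card * (1 / R)) ≤ exp 1 := exp_le_exp.mpr h3
  have h5 : exp 1 < 3 := lt_trans exp_one_lt_d9 (by norm_num)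
  linarith

lemma sum_fib (c : Finset E → ℝ) (J : Finset E) (w : Finset E → ℝ) :
    ∑ T ∈ J.powerset, w T * ∑ S with S ∩ J = T, c S ^ 2 = ∑ S, w (S ∩ J) * c S ^ 2 := by
  rw [← Finset.sum_fiberwise_of_maps_to (s := univ) (t := J.powerset) (g := fun S => S ∩ J)
    (fun S _ => Finset.mem_powerset.mpr Finset.inter_subset_right)]
  refine Finset.sum_congr rfl fun T _ => ?_
  rw [Finset.mul_sum]
  refine Finset.sum_congr rfl fun S hS => ?_
  rw [(Finset.mem_filter.mp hS).2]

end FineAux

open FineAux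

variable {E : Type} [Fintype E] [DecidableEq E] {p : ℝ}

theorem fine (h0 : 0 < p) (h1 : p < 1) {c : Finset E → ℝ} (J : Finset E)
    (hQ : ∀ x, Q p c J ∅ ∅ x ≤ 1) {η R : ℝ} (hη : 0 < η) (hη' : η ≤ 1 / 3) (hR : 2 ≤ R)
    (hER : (Fintype.card E : ℝ) ≤ R) :
    psi p c J ≤ (1 + 2 * log (1 / η)) * infl c J +
      2 * η * log (1 / η) * ∑ e ∈ J, Ex p (fun x => |G p c J {e} x|) +
      2 * log R * ∑ S, ((S ∩ J).card : ℝ) * (((S ∩ J).card : ℝ) - 1) * c S ^ 2 + 3 / R ^ 2 := by
  have hR0 : 0 < R := by linarith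
  have hl : 0 ≤ log (1 / η) := log_nonneg (by
    rw [le_div_iff₀ hη]
    linarith)
  have hlR : 0 ≤ log R := log_nonneg (by linarith)
  -- the pointwise bound
  have hpt : ∀ x, ∑ T ∈ J.powerset, negMulLog (G p c J T x ^ 2) -
      negMulLog (∑ T ∈ J.powerset, G p c J T x ^ 2) ≤
      (1 + 2 * log (1 / η)) * (∑ T ∈ J.powerset, (T.card : ℝ) * G p c J T x ^ 2) +
      2 * η * log (1 / η) * (∑ e ∈ J, |G p c J {e} x|) +
      2 * log R * (∑ T ∈ J.powerset, (T.card : ℝ) * ((T.card : ℝ) - 1) * G p c J T x ^ 2) +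
      3 / R ^ 2 * 1 := by
    intro x
    have hM := hQ x
    rw [Q_empty] at hM
    set y : Finset E → ℝ := fun T => G p c J T x with hy
    have hy1 : ∀ T ∈ J.powerset, y T ^ 2 ≤ 1 := by
      intro T hT
      refine le_trans ?_ hM
      exact Finset.single_le_sum (f := fun T => y T ^ 2) (fun T _ => sq_nonneg (y T)) hT
    have hne : ∀ T : Finset E, T ∈ J.powerset.erase ∅ → 1 ≤ T.card := by
      intro T hT
      exact Finset.card_pos.mpr (Finset.nonempty_iff_ne_empty.mpr (Finset.ne_of_mem_erase hT))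
    have hemp : (∅ : Finset E) ∈ J.powerset := Finset.empty_mem_powerset J
    have s0 : negMulLog (y ∅ ^ 2) - negMulLog (∑ T ∈ J.powerset, y T ^ 2) ≤
        ∑ T ∈ J.powerset.erase ∅, y T ^ 2 := by
      have := step_zero (sq_nonneg (y ∅))
        (Finset.single_le_sum (f := fun T => y T ^ 2) (fun T _ => sq_nonneg (y T)) hemp) hM
      rw [← Finset.add_sum_erase _ _ hemp] at this ⊢
      linarith
    have s1 : ∑ T ∈ J.powerset.erase ∅, y T ^ 2 ≤
        ∑ T ∈ J.powerset, (T.card : ℝ) * y T ^ 2 := by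
      refine le_trans (Finset.sum_le_sum (g := fun T => (T.card : ℝ) * y T ^ 2) fun T hT => ?_)
        (Finset.sum_le_sum_of_subset_of_nonneg (Finset.erase_subset _ _)
          fun T _ _ => by positivity)
      have h2 : (1 : ℝ) ≤ T.card := by exact_mod_cast hne T hT
      nlinarith [sq_nonneg (y T)]
    have s2 : ∑ T ∈ J.powerset.erase ∅, negMulLog (y T ^ 2) ≤
        ∑ T ∈ J.powerset, (2 * log (1 / η) * (T.card * y T ^ 2) +
          2 * η * log (1 / η) * (if T.card = 1 then |y T| else 0) +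
          2 * log R * (T.card * (T.card - 1) * y T ^ 2) + 1 / R ^ 2 * (1 / R) ^ T.card) := by
      refine le_trans (Finset.sum_le_sum (g := fun T => (2 * log (1 / η) * (T.card * y T ^ 2) +
          2 * η * log (1 / η) * (if T.card = 1 then |y T| else 0) +
          2 * log R * (T.card * (T.card - 1) * y T ^ 2) + 1 / R ^ 2 * (1 / R) ^ T.card))
          fun T hT => ?_)
        (Finset.sum_le_sum_of_subset_of_nonneg (Finset.erase_subset _ _) fun T _ _ => ?_)
      · exact step_T (hne T hT)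
          ((sq_le_one_iff_abs_le_one _).mp (hy1 T (Finset.mem_of_mem_erase hT))) hη hη' hR
      · have h2 : 0 ≤ (T.card : ℝ) * (T.card - 1) := by
          rcases Nat.eq_zero_or_pos T.card with h | h
          · rw [h]; simp
          · have : (1 : ℝ) ≤ T.card := by exact_mod_cast h
            have h3 : (0 : ℝ) ≤ T.card - 1 := by linarith
            positivity
        have h3 : 0 ≤ (if T.card = 1 then |y T| else 0) := by
          split_ifs
          · exact abs_nonneg _
          · exact le_rfl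
        positivity
    rw [Finset.sum_add_distrib, Finset.sum_add_distrib, Finset.sum_add_distrib,
      ← Finset.mul_sum, ← Finset.mul_sum, ← Finset.mul_sum, ← Finset.mul_sum,
      sum_one J (fun T => |y T|)] at s2
    have s3 : 1 / R ^ 2 * ∑ T ∈ J.powerset, (1 / R) ^ T.card ≤ 3 / R ^ 2 * 1 := by
      have := mul_le_mul_of_nonneg_left (sum_R hR hER J) (show 0 ≤ 1 / R ^ 2 by positivity)
      have h4 : 1 / R ^ 2 * 3 = 3 / R ^ 2 * 1 := by ring
      linarith
    have s4 := Finset.add_sum_erase J.powerset (fun T => negMulLog (y T ^ 2)) hemp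
    rw [← s4]
    linarith
  have e1 : Ex p (fun x => ∑ T ∈ J.powerset, (T.card : ℝ) * G p c J T x ^ 2) = infl c J := by
    rw [Ex_sum]
    unfold infl
    rw [← sum_fib c J (fun T => (T.card : ℝ))]
    refine Finset.sum_congr rfl fun T _ => ?_
    rw [Ex_const_mul, Ex_G_sq h0 h1]
  have e2 : Ex p (fun x => ∑ T ∈ J.powerset, (T.card : ℝ) * ((T.card : ℝ) - 1) *
      G p c J T x ^ 2) = ∑ S, ((S ∩ J).card : ℝ) * (((S ∩ J).card : ℝ) - 1) * c S ^ 2 := by
    rw [Ex_sum, ← sum_fib c J (fun T => (T.card : ℝ) * ((T.card : ℝ) - 1))]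
    refine Finset.sum_congr rfl fun T _ => ?_
    rw [Ex_const_mul, Ex_G_sq h0 h1]
  have e3 : Ex p (fun x => ∑ e ∈ J, |G p c J {e} x|) =
      ∑ e ∈ J, Ex p (fun x => |G p c J {e} x|) := Ex_sum _ _
  have e4 : psi p c J = Ex p (fun x => ∑ T ∈ J.powerset, negMulLog (G p c J T x ^ 2) -
      negMulLog (∑ T ∈ J.powerset, G p c J T x ^ 2)) := by
    unfold psi Phi
    rw [← Ex_sub]
    refine Ex_congr fun x => ?_
    simp only [Q_full, Finset.powerset_empty, Finset.sum_singleton, Q_empty]
  rw [e4]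
  refine (Ex_mono h0 h1 hpt).trans ?_
  rw [Ex_add, Ex_add, Ex_add, Ex_const_mul, Ex_const_mul, Ex_const_mul, Ex_const_mul, e1, e2, e3,
    Ex_one, mul_one]

end P063
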