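import Vale.Agent.P063.Cube

/-!
# P063, module C : one coordinate at a time
-/

namespace P063

open Finset P063.CubeAux

section

variable {E : Type} [Fintype E] [DecidableEq E] {p : ℝ}

theorem G_update {c : Finset E → ℝ} {J T : Finset E} {e : E} (he : e ∈ J) (x : E → Bool)
    (b : Bool) : G p c J T (Function.update x e b) = G p c J T x := by
  unfold G
  refine Finset.sum_congr rfl fun S _ => ?_
  rw [phS_ne (fun h => (Finset.mem_sdiff.mp h).2 he)]

theorem G_split {c : Finset E → ℝ} {J T : Finset E} {e : E} (he : e ∈ J) (hT : T ⊆ J.erase e)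
    (x : E → Bool) :
    G p c (J.erase e) T x = G p c J T x + G p c J (insert e T) x * ph p (x e) := by
  have heT : e ∉ T := fun h => Finset.notMem_erase e J (hT h)
  unfold G
  rw [Finset.sum_mul, Finset.sum_filter, Finset.sum_filter, Finset.sum_filter,
    ← Finset.sum_add_distrib]
  refine Finset.sum_congr rfl fun S _ => ?_
  by_cases heS : e ∈ S
  · have h1 : ¬ S ∩ J = T := fun h => heT (by rw [← h]; exact Finset.mem_inter.mpr ⟨heS, he⟩)
    have h2 : S ∩ J.erase e = T ↔ S ∩ J = insert e T := by
      rw [Finset.inter_erase]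
      constructor
      · intro h
        rw [← h, Finset.insert_erase (Finset.mem_inter.mpr ⟨heS, he⟩)]
      · intro h
        rw [h, Finset.erase_insert heT]
    have h3 : phS p (S \ J.erase e) x = phS p (S \ J) x * ph p (x e) := by
      have h4 : S \ J.erase e = insert e (S \ J) := by
        ext a
        simp only [Finset.mem_sdiff, Finset.mem_erase, Finset.mem_insert]
        constructor
        · rintro ⟨h5, h6⟩
          by_cases hae : a = e
          · exact Or.inl hae
          · exact Or.inr ⟨h5, fun h7 => h6 ⟨hae, h7⟩⟩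
        · rintro (h5 | ⟨h5, h6⟩)
          · rw [h5]
            exact ⟨heS, fun h7 => h7.1 rfl⟩
          · exact ⟨h5, fun h7 => h6 h7.2⟩
      rw [h4]
      unfold phS
      rw [Finset.prod_insert (fun h => (Finset.mem_sdiff.mp h).2 he), mul_comm]
    rw [if_neg h1, zero_add]
    by_cases h5 : S ∩ J = insert e T
    · rw [if_pos (h2.mpr h5), if_pos h5, h3]
      ring
    · rw [if_neg (fun h => h5 (h2.mp h)), if_neg h5]
  · have h1 : ¬ S ∩ J = insert e T := fun h => heS
      (Finset.mem_inter.mp (by rw [h]; exact Finset.mem_insert_self e T)).1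
    have h2 : S ∩ J.erase e = S ∩ J := by
      rw [Finset.inter_erase, Finset.erase_eq_of_notMem (fun h => heS (Finset.mem_inter.mp h).1)]
    have h3 : S \ J.erase e = S \ J := by
      ext a
      simp only [Finset.mem_sdiff, Finset.mem_erase]
      constructor
      · rintro ⟨h5, h6⟩
        exact ⟨h5, fun h7 => h6 ⟨fun h8 => heS (h8 ▸ h5), h7⟩⟩
      · rintro ⟨h5, h6⟩
        exact ⟨h5, fun h7 => h6 h7.2⟩
    rw [if_neg h1, add_zero, h2, h3]

theorem Q_avg (h0 : 0 < p) (h1 : p < 1) {c : Finset E → ℝ} {J K T : Finset E} {e : E}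
    (he : e ∈ J) (heK : e ∉ K) (hK : K ⊆ J) (hT : T ⊆ K) (x : E → Bool) :
    p * Q p c (J.erase e) K T (Function.update x e true) +
      (1 - p) * Q p c (J.erase e) K T (Function.update x e false) = Q p c J K T x := by
  unfold Q
  have hJK : J \ K = insert e (J.erase e \ K) := by
    ext a
    simp only [Finset.mem_sdiff, Finset.mem_erase, Finset.mem_insert]
    constructor
    · rintro ⟨h5, h6⟩
      by_cases hae : a = e
      · exact Or.inl hae
      · exact Or.inr ⟨⟨hae, h5⟩, h6⟩
    · rintro (h5 | ⟨⟨_, h5⟩, h6⟩)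
      · rw [h5]
        exact ⟨he, heK⟩
      · exact ⟨h5, h6⟩
  have hne : e ∉ J.erase e \ K := fun h => Finset.notMem_erase e J (Finset.mem_sdiff.mp h).1
  rw [hJK, Finset.sum_powerset_insert hne, Finset.mul_sum, Finset.mul_sum,
    ← Finset.sum_add_distrib, ← Finset.sum_add_distrib]
  refine Finset.sum_congr rfl fun T' hT' => ?_
  rw [Finset.mem_powerset] at hT'
  have hTT : T ∪ T' ⊆ J.erase e := by
    refine Finset.union_subset (fun a ha => ?_) fun a ha => (Finset.mem_sdiff.mp (hT' ha)).1
    exact Finset.mem_erase.mpr ⟨fun h => heK (by rw [← h]; exact hT ha), hK (hT ha)⟩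
  rw [G_split he hTT, G_split he hTT, G_update he, G_update he, G_update he, G_update he,
    Function.update_self, Function.update_self, Finset.union_insert]
  exact ph_sq_mean h0 h1 _ _

end

end P063
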