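import Vale.Agent.P063.Cube
import Vale.Agent.P063.Split

/-!
# P063, module I : the noise operator is a contraction
-/

namespace P063

open Finset Real

namespace NoiseAux

variable {E : Type} [Fintype E] [DecidableEq E] {p : ℝ}

/-- the function with Fourier coefficients `c` -/
noncomputable def hh (p : ℝ) (c : Finset E → ℝ) (x : E → Bool) : ℝ := ∑ S, c S * phS p S x

omit [Fintype E] in
lemma phS_update_not {S : Finset E} {e : E} (he : e ∉ S) (x : E → Bool) (b : Bool) :
    phS p S (Function.update x e b) = phS p S x := by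
  unfold phS
  refine Finset.prod_congr rfl fun k hk => ?_
  have hk' : k ≠ e := fun h => he (h ▸ hk)
  rw [Function.update_of_ne hk']

omit [Fintype E] in
lemma phS_mem {S : Finset E} {e : E} (he : e ∈ S) (x : E → Bool) :
    phS p S x = ph p (x e) * phS p (S.erase e) x := by
  unfold phS
  exact (Finset.mul_prod_erase S (fun k => ph p (x k)) he).symm

omit [Fintype E] in
lemma phS_update_mem {S : Finset E} {e : E} (he : e ∈ S) (x : E → Bool) (b : Bool) :
    phS p S (Function.update x e b) = ph p b * phS p (S.erase e) x := by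
  rw [phS_mem he, phS_update_not (Finset.notMem_erase e S), Function.update_self]

lemma ph_true_mul (h0 : 0 < p) (h1 : p < 1) : p * √((1 - p) / p) = √(p * (1 - p)) := by
  have h2 : 0 < 1 - p := by linarith
  have h3 : p * (1 - p) = p ^ 2 * ((1 - p) / p) := by field_simp
  rw [h3, Real.sqrt_mul (by positivity), Real.sqrt_sq h0.le]

lemma ph_false_mul (h0 : 0 < p) (h1 : p < 1) : (1 - p) * √(p / (1 - p)) = √(p * (1 - p)) := by
  have h2 : 0 < 1 - p := by linarith
  have h3 : p * (1 - p) = (1 - p) ^ 2 * (p / (1 - p)) := by field_simp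
  rw [h3, Real.sqrt_mul (by positivity), Real.sqrt_sq h2.le]

lemma ph_mean (h0 : 0 < p) (h1 : p < 1) : p * ph p true + (1 - p) * ph p false = 0 := by
  unfold ph
  simp only [if_true, Bool.false_eq_true, if_false]
  rw [mul_neg, ph_true_mul h0 h1, ph_false_mul h0 h1]
  ring

lemma ph_diff (h0 : 0 < p) (h1 : p < 1) :
    (ph p true - ph p false) * √(p * (1 - p)) = 1 := by
  have h2 : 0 < 1 - p := by linarith
  have h5 : 0 < √(p * (1 - p)) := Real.sqrt_pos.mpr (by positivity)
  have h6 : √(p * (1 - p)) * √(p * (1 - p)) = p * (1 - p) := Real.mul_self_sqrt (by positivity)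
  have ha : ph p true = √(p * (1 - p)) / p := by
    unfold ph
    rw [if_pos rfl, eq_div_iff h0.ne', mul_comm]
    exact ph_true_mul h0 h1
  have hb : ph p false = -(√(p * (1 - p)) / (1 - p)) := by
    unfold ph
    rw [if_neg (by simp)]
    congr 1
    rw [eq_div_iff h2.ne', mul_comm]
    exact ph_false_mul h0 h1
  rw [ha, hb]
  have h7 : (√(p * (1 - p)) / p - -(√(p * (1 - p)) / (1 - p))) * √(p * (1 - p)) =
      (√(p * (1 - p)) * √(p * (1 - p))) * (1 / p + 1 / (1 - p)) := by ring
  rw [h7, h6]
  field_simp
  ring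

/-- averaging over one coordinate -/
lemma avg_coord (h0 : 0 < p) (h1 : p < 1) (c : Finset E → ℝ) (e : E) (x : E → Bool) :
    p * hh p c (Function.update x e true) + (1 - p) * hh p c (Function.update x e false) =
      hh p (fun S => if e ∈ S then 0 else c S) x := by
  unfold hh
  rw [Finset.mul_sum, Finset.mul_sum, ← Finset.sum_add_distrib]
  refine Finset.sum_congr rfl fun S _ => ?_
  by_cases he : e ∈ S
  · simp only [if_pos he]
    rw [phS_update_mem he, phS_update_mem he]
    have := ph_mean h0 h1
    linear_combination (c S * phS p (S.erase e) x) * this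
  · simp only [if_neg he]
    rw [phS_update_not he, phS_update_not he]
    ring

/-- one step of noise -/
lemma noise_step (h0 : 0 < p) (h1 : p < 1) (c : Finset E → ℝ) (e : E) (a : ℝ) (x : E → Bool) :
    hh p (fun S => if e ∈ S then a * c S else c S) x =
      a * hh p c x + (1 - a) * (p * hh p c (Function.update x e true) +
        (1 - p) * hh p c (Function.update x e false)) := by
  rw [avg_coord h0 h1]
  unfold hh
  rw [Finset.mul_sum, Finset.mul_sum, ← Finset.sum_add_distrib]
  refine Finset.sum_congr rfl fun S _ => ?_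
  by_cases he : e ∈ S
  · simp only [if_pos he]; ring
  · simp only [if_neg he]; ring

omit [Fintype E] in
/-- the multiplier with rates `ρ` on the coordinates in `A` -/
lemma mult_insert (ρ : E → ℝ) (c : Finset E → ℝ) {e : E} {A : Finset E} (he : e ∉ A) :
    (fun S : Finset E => (∏ j ∈ S ∩ insert e A, ρ j) * c S) =
      fun S => if e ∈ S then ρ e * ((∏ j ∈ S ∩ A, ρ j) * c S) else (∏ j ∈ S ∩ A, ρ j) * c S := by
  funext S
  by_cases h : e ∈ S
  · have h2 : S ∩ insert e A = insert e (S ∩ A) := by
      ext k
      simp only [mem_inter, mem_insert]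
      constructor
      · rintro ⟨h3, h4 | h4⟩
        · exact Or.inl h4
        · exact Or.inr ⟨h3, h4⟩
      · rintro (h3 | ⟨h3, h4⟩)
        · exact ⟨h3 ▸ h, Or.inl h3⟩
        · exact ⟨h3, Or.inr h4⟩
    rw [if_pos h, h2, Finset.prod_insert (fun h3 => he (mem_inter.mp h3).2)]
    ring
  · have h2 : S ∩ insert e A = S ∩ A := by
      ext k
      simp only [mem_inter, mem_insert]
      constructor
      · rintro ⟨h3, h4 | h4⟩
        · exact absurd (h4 ▸ h3) h
        · exact ⟨h3, h4⟩
      · rintro ⟨h3, h4⟩
        exact ⟨h3, Or.inr h4⟩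
    rw [if_neg h, h2]

lemma sup_contract (h0 : 0 < p) (h1 : p < 1) (ρ : E → ℝ) (hρ : ∀ j, 0 ≤ ρ j)
    (hρ' : ∀ j, ρ j ≤ 1) (c : Finset E → ℝ) {B : ℝ} (hB : ∀ x, |hh p c x| ≤ B) (A : Finset E) :
    ∀ x, |hh p (fun S => (∏ j ∈ S ∩ A, ρ j) * c S) x| ≤ B := by
  induction A using Finset.induction_on with
  | empty =>
    intro x
    simp only [Finset.inter_empty, Finset.prod_empty, one_mul]
    exact hB x
  | insert e A he ih =>
    intro x
    rw [mult_insert ρ c he, noise_step h0 h1]
    have ha := hρ e
    have ha' := hρ' e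
    have h2 : 0 ≤ 1 - ρ e := by linarith
    have h3 : 0 ≤ 1 - p := by linarith
    have i1 := abs_le.mp (ih x)
    have i2 := abs_le.mp (ih (Function.update x e true))
    have i3 := abs_le.mp (ih (Function.update x e false))
    rw [abs_le]
    constructor
    · have j1 := mul_le_mul_of_nonneg_left i1.1 ha
      have j2 := mul_le_mul_of_nonneg_left i2.1 h0.le
      have j3 := mul_le_mul_of_nonneg_left i3.1 h3
      have j4 := mul_le_mul_of_nonneg_left (add_le_add j2 j3) h2
      nlinarith
    · have j1 := mul_le_mul_of_nonneg_left i1.2 ha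
      have j2 := mul_le_mul_of_nonneg_left i2.2 h0.le
      have j3 := mul_le_mul_of_nonneg_left i3.2 h3
      have j4 := mul_le_mul_of_nonneg_left (add_le_add j2 j3) h2
      nlinarith

omit [DecidableEq E] in
lemma wt_nonneg (h0 : 0 < p) (h1 : p < 1) (x : E → Bool) : 0 ≤ wt p x := by
  unfold wt
  refine Finset.prod_nonneg fun e _ => ?_
  split_ifs <;> linarith

lemma Ex_mono (h0 : 0 < p) (h1 : p < 1) {F H : (E → Bool) → ℝ} (h : ∀ x, F x ≤ H x) :
    Ex p F ≤ Ex p H :=
  Finset.sum_le_sum fun x _ => mul_le_mul_of_nonneg_left (h x) (wt_nonneg h0 h1 x)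

lemma Ex_add (F H : (E → Bool) → ℝ) : Ex p (fun x => F x + H x) = Ex p F + Ex p H := by
  unfold Ex
  rw [← Finset.sum_add_distrib]
  exact Finset.sum_congr rfl fun x _ => by ring

lemma Ex_smul (a : ℝ) (F : (E → Bool) → ℝ) : Ex p (fun x => a * F x) = a * Ex p F := by
  unfold Ex
  rw [Finset.mul_sum]
  exact Finset.sum_congr rfl fun x _ => by ring

lemma L1_contract (h0 : 0 < p) (h1 : p < 1) (ρ : E → ℝ) (hρ : ∀ j, 0 ≤ ρ j)
    (hρ' : ∀ j, ρ j ≤ 1) (c : Finset E → ℝ) (A : Finset E) :
    Ex p (fun x => |hh p (fun S => (∏ j ∈ S ∩ A, ρ j) * c S) x|) ≤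
      Ex p (fun x => |hh p c x|) := by
  induction A using Finset.induction_on with
  | empty =>
    simp only [Finset.inter_empty, Finset.prod_empty, one_mul]
    exact le_rfl
  | insert e A he ih =>
    rw [mult_insert ρ c he]
    set g : (E → Bool) → ℝ := hh p (fun S => (∏ j ∈ S ∩ A, ρ j) * c S) with hg
    have ha := hρ e
    have ha' := hρ' e
    have h2 : 0 ≤ 1 - ρ e := by linarith
    have h3 : 0 ≤ 1 - p := by linarith
    refine le_trans ?_ ih
    calc Ex p (fun x => |hh p (fun S => if e ∈ S then ρ e * ((∏ j ∈ S ∩ A, ρ j) * c S)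
          else (∏ j ∈ S ∩ A, ρ j) * c S) x|)
        ≤ Ex p (fun x => ρ e * |g x| + (1 - ρ e) * (p * |g (Function.update x e true)| +
          (1 - p) * |g (Function.update x e false)|)) := by
          refine Ex_mono h0 h1 fun x => ?_
          rw [noise_step h0 h1 (fun S => (∏ j ∈ S ∩ A, ρ j) * c S)]
          refine (abs_add_le _ _).trans ?_
          rw [abs_mul, abs_mul, abs_of_nonneg ha, abs_of_nonneg h2]
          refine add_le_add le_rfl (mul_le_mul_of_nonneg_left ?_ h2)
          refine (abs_add_le _ _).trans ?_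
          rw [abs_mul, abs_mul, abs_of_nonneg h0.le, abs_of_nonneg h3]
      _ = ρ e * Ex p (fun x => |g x|) + (1 - ρ e) * Ex p (fun x => |g x|) := by
          rw [Ex_add, Ex_smul, Ex_smul, ← Ex_avg e (fun x => |g x|)]
      _ = Ex p (fun x => |g x|) := by ring

end NoiseAux

open NoiseAux

variable {E : Type} [Fintype E] [DecidableEq E] {p : ℝ}

theorem noise_Q (h0 : 0 < p) (h1 : p < 1) {f : (E → Bool) → ℝ} (hf : ∀ x, f x = 0 ∨ f x = 1)
    {ρ : ℝ} (hρ : 0 ≤ ρ) (hρ' : ρ ≤ 1) (J : Finset E) (x : E → Bool) :
    Q p (fun S => ρ ^ S.card * co p f S) J ∅ ∅ x ≤ 1 := by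
  induction J using Finset.induction_on generalizing x with
  | empty =>
    have h2 : Q p (fun S => ρ ^ S.card * co p f S) ∅ ∅ ∅ x =
        (hh p (fun S => (∏ j ∈ S ∩ univ, ρ) * co p f S) x) ^ 2 := by
      unfold Q G hh
      simp
    have h3 : ∀ y, |hh p (co p f) y| ≤ 1 := by
      intro y
      have h4 : hh p (co p f) y = f y := (inversion h0 h1 f y).symm
      rw [h4]
      rcases hf y with h5 | h5 <;> rw [h5] <;> norm_num
    have h5 := sup_contract h0 h1 (fun _ => ρ) (fun _ => hρ) (fun _ => hρ') (co p f) h3 univ x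
    rw [h2]
    exact (sq_le_one_iff_abs_le_one _).mpr h5
  | insert e J he ih =>
    have h2 := Q_avg (p := p) h0 h1 (c := fun S => ρ ^ S.card * co p f S)
      (J := insert e J) (K := ∅) (T := ∅) (e := e) (Finset.mem_insert_self e J)
      (Finset.notMem_empty e) (Finset.empty_subset _) (Finset.empty_subset _) x
    rw [Finset.erase_insert he] at h2
    rw [← h2]
    have i2 := ih (Function.update x e true)
    have i3 := ih (Function.update x e false)
    have h3 : 0 ≤ 1 - p := by linarith
    nlinarith [mul_le_mul_of_nonneg_left i2 h0.le, mul_le_mul_of_nonneg_left i3 h3]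

/-- the derivative in direction `e` as a Fourier series -/
lemma noise_deriv (h0 : 0 < p) (h1 : p < 1) (f : (E → Bool) → ℝ) (e : E) (x : E → Bool) :
    hh p (fun T => if e ∈ T then 0 else co p f (insert e T)) x =
      √(p * (1 - p)) * (f (Function.update x e true) - f (Function.update x e false)) := by
  have h2 : ∀ b, f (Function.update x e b) =
      (∑ S, if e ∈ S then 0 else co p f S * phS p S x) +
        ph p b * hh p (fun T => if e ∈ T then 0 else co p f (insert e T)) x := by
    intro b
    rw [inversion h0 h1 f (Function.update x e b)]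
    have h3 : ∑ S, co p f S * phS p S (Function.update x e b) =
        (∑ S, if e ∈ S then 0 else co p f S * phS p S x) +
        ∑ S, if e ∈ S then co p f S * (ph p b * phS p (S.erase e) x) else 0 := by
      rw [← Finset.sum_add_distrib]
      refine Finset.sum_congr rfl fun S _ => ?_
      by_cases he : e ∈ S
      · rw [if_pos he, if_pos he, phS_update_mem he, zero_add]
      · rw [if_neg he, if_neg he, phS_update_not he, add_zero]
    rw [h3]
    congr 1
    unfold hh
    rw [Finset.mul_sum, ← Finset.sum_filter]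
    have h4 : ∑ T, ph p b * ((if e ∈ T then 0 else co p f (insert e T)) * phS p T x) =
        ∑ T with e ∉ T, ph p b * (co p f (insert e T) * phS p T x) := by
      rw [Finset.sum_filter]
      refine Finset.sum_congr rfl fun T _ => ?_
      by_cases he : e ∈ T
      · simp [he]
      · simp [he]
    rw [h4]
    refine Finset.sum_nbij' (fun S => S.erase e) (fun T => insert e T) ?_ ?_ ?_ ?_ ?_
    · intro S _
      simp
    · intro T _
      simp
    · intro S hS
      exact Finset.insert_erase (Finset.mem_filter.mp hS).2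
    · intro T hT
      exact Finset.erase_insert (Finset.mem_filter.mp hT).2
    · intro S hS
      rw [Finset.insert_erase (Finset.mem_filter.mp hS).2]
      ring
  have h5 := ph_diff (p := p) h0 h1
  rw [h2 true, h2 false]
  linear_combination (-(hh p (fun T => if e ∈ T then 0 else co p f (insert e T)) x)) * h5

theorem noise_G (h0 : 0 < p) (h1 : p < 1) {f : (E → Bool) → ℝ} {ρ : ℝ} (hρ : 0 ≤ ρ)
    (hρ' : ρ ≤ 1) {J : Finset E} {e : E} (he : e ∈ J) :
    Ex p (fun x => |G p (fun S => ρ ^ S.card * co p f S) J {e} x|) ≤ piv p f e := by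
  set c : Finset E → ℝ := fun T => if e ∈ T then 0 else co p f (insert e T) with hc
  set rt : E → ℝ := fun j => if j ∈ J then 0 else ρ with hrt
  have hG : ∀ x, G p (fun S => ρ ^ S.card * co p f S) J {e} x =
      ρ * hh p (fun S => (∏ j ∈ S ∩ univ, rt j) * c S) x := by
    intro x
    unfold G hh
    rw [Finset.mul_sum]
    have h2 : ∑ T, ρ * ((∏ j ∈ T ∩ univ, rt j) * c T * phS p T x) =
        ∑ T with Disjoint T J, ρ * (ρ ^ T.card * co p f (insert e T) * phS p T x) := by
      rw [Finset.sum_filter]
      refine Finset.sum_congr rfl fun T _ => ?_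
      rw [Finset.inter_univ]
      by_cases hT : Disjoint T J
      · rw [if_pos hT]
        have h3 : e ∉ T := fun h => (Finset.disjoint_left.mp hT h) he
        have h4 : ∏ j ∈ T, rt j = ρ ^ T.card := by
          rw [Finset.prod_congr rfl (fun j hj => ?_), Finset.prod_const]
          show (if j ∈ J then 0 else ρ) = ρ
          rw [if_neg (Finset.disjoint_left.mp hT hj)]
        rw [h4, hc]
        simp only [if_neg h3]
      · rw [if_neg hT]
        rw [Finset.not_disjoint_iff] at hT
        obtain ⟨j, hj, hjJ⟩ := hT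
        have h4 : ∏ j ∈ T, rt j = 0 := Finset.prod_eq_zero hj (if_pos hjJ)
        rw [h4]
        ring
    rw [h2]
    refine Finset.sum_nbij' (fun S => S.erase e) (fun T => insert e T) ?_ ?_ ?_ ?_ ?_
    · intro S hS
      have h3 := (Finset.mem_filter.mp hS).2
      rw [Finset.mem_filter]
      refine ⟨Finset.mem_univ _, Finset.disjoint_left.mpr fun k hk hkJ => ?_⟩
      rw [Finset.mem_erase] at hk
      have h4 : k ∈ S ∩ J := Finset.mem_inter.mpr ⟨hk.2, hkJ⟩
      rw [h3, Finset.mem_singleton] at h4
      exact hk.1 h4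
    · intro T hT
      have h3 := (Finset.mem_filter.mp hT).2
      rw [Finset.mem_filter]
      refine ⟨Finset.mem_univ _, ?_⟩
      ext k
      rw [Finset.mem_inter, Finset.mem_insert, Finset.mem_singleton]
      constructor
      · rintro ⟨h4 | h4, h5⟩
        · exact h4
        · exact absurd h5 (Finset.disjoint_left.mp h3 h4)
      · intro h4
        exact ⟨Or.inl h4, h4 ▸ he⟩
    · intro S hS
      have h3 := (Finset.mem_filter.mp hS).2
      have h4 : e ∈ S := by
        have : e ∈ S ∩ J := by rw [h3]; exact Finset.mem_singleton_self e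
        exact (Finset.mem_inter.mp this).1
      exact Finset.insert_erase h4
    · intro T hT
      have h3 := (Finset.mem_filter.mp hT).2
      exact Finset.erase_insert (fun h => (Finset.disjoint_left.mp h3 h) he)
    · intro S hS
      have h3 := (Finset.mem_filter.mp hS).2
      have h4 : e ∈ S := by
        have : e ∈ S ∩ J := by rw [h3]; exact Finset.mem_singleton_self e
        exact (Finset.mem_inter.mp this).1
      have h5 : S \ J = S.erase e := by
        ext k
        rw [Finset.mem_sdiff, Finset.mem_erase]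
        constructor
        · rintro ⟨h6, h7⟩
          exact ⟨fun h => h7 (h ▸ he), h6⟩
        · rintro ⟨h6, h7⟩
          refine ⟨h7, fun h8 => h6 ?_⟩
          have : k ∈ S ∩ J := Finset.mem_inter.mpr ⟨h7, h8⟩
          rw [h3, Finset.mem_singleton] at this
          exact this
      have h6 : S.card = (S.erase e).card + 1 := (Finset.card_erase_add_one h4).symm
      show ρ ^ S.card * co p f S * phS p (S \ J) x =
        ρ * (ρ ^ (S.erase e).card * co p f (insert e (S.erase e)) * phS p (S.erase e) x)
      rw [h5, Finset.insert_erase h4, h6, pow_succ]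
      ring
  have hrt0 : ∀ j, 0 ≤ rt j := fun j => by
    show 0 ≤ (if j ∈ J then 0 else ρ)
    split_ifs
    · exact le_rfl
    · exact hρ
  have hrt1 : ∀ j, rt j ≤ 1 := fun j => by
    show (if j ∈ J then 0 else ρ) ≤ 1
    split_ifs
    · exact zero_le_one
    · exact hρ'
  have hcon := L1_contract h0 h1 rt hrt0 hrt1 c univ
  have hs : √(p * (1 - p)) ≤ 1 := by
    have h7 : √(p * (1 - p)) ≤ √1 := Real.sqrt_le_sqrt (by nlinarith)
    rwa [Real.sqrt_one] at h7
  have hs0 : 0 ≤ √(p * (1 - p)) := Real.sqrt_nonneg _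
  have hpiv0 : 0 ≤ piv p f e := by
    unfold piv Ex
    exact Finset.sum_nonneg fun x _ => mul_nonneg (wt_nonneg h0 h1 x) (abs_nonneg _)
  have hD : Ex p (fun x => |hh p c x|) = √(p * (1 - p)) * piv p f e := by
    unfold piv
    rw [← Ex_smul]
    congr 1
    funext x
    rw [noise_deriv h0 h1 f e x, abs_mul, abs_of_nonneg hs0]
  calc Ex p (fun x => |G p (fun S => ρ ^ S.card * co p f S) J {e} x|)
      = ρ * Ex p (fun x => |hh p (fun S => (∏ j ∈ S ∩ univ, rt j) * c S) x|) := by
        rw [← Ex_smul]
        congr 1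
        funext x
        rw [hG x, abs_mul, abs_of_nonneg hρ]
    _ ≤ ρ * (√(p * (1 - p)) * piv p f e) := by
        rw [← hD]
        exact mul_le_mul_of_nonneg_left hcon hρ
    _ ≤ 1 * (1 * piv p f e) := by
        refine mul_le_mul hρ' (mul_le_mul_of_nonneg_right hs hpiv0)
          (mul_nonneg hs0 hpiv0) zero_le_one
    _ = piv p f e := by ring

end P063
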