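import Vale.Agent.P063.Ent
import Vale.Agent.P063.Fine
import Vale.Agent.P063.Noise
import Vale.Agent.P063.Color
import Vale.Agent.P063.Cube

/-!
# P063 : module R, the upper bound for the entropy
-/

namespace P063

open Finset Real

namespace Upper

section Avg

variable {E : Type} [Fintype E] [DecidableEq E] {R : ℕ}

theorem avg_mono {F G : (E → Fin R) → ℝ} (h : ∀ χ, F χ ≤ G χ) : avg F ≤ avg G := by
  unfold avg
  exact div_le_div_of_nonneg_right (sum_le_sum fun χ _ => h χ) (by positivity)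

theorem avg_add (F G : (E → Fin R) → ℝ) : avg (fun χ => F χ + G χ) = avg F + avg G := by
  unfold avg
  rw [sum_add_distrib, add_div]

theorem avg_mul (a : ℝ) (F : (E → Fin R) → ℝ) : avg (fun χ => a * F χ) = a * avg F := by
  unfold avg
  rw [← mul_sum, mul_div_assoc]

theorem avg_const (hR : 0 < R) (a : ℝ) : avg (fun _ : E → Fin R => a) = a := by
  unfold avg
  rw [sum_const, card_univ, Fintype.card_fun, Fintype.card_fin, nsmul_eq_mul]
  push_cast
  have : (R : ℝ) ≠ 0 := by positivity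
  field_simp

theorem avg_sum {ι : Type} (s : Finset ι) (F : ι → (E → Fin R) → ℝ) :
    avg (fun χ => ∑ i ∈ s, F i χ) = ∑ i ∈ s, avg (F i) := by
  unfold avg
  rw [sum_comm, sum_div]

theorem infl_univ (c : Finset E → ℝ) : infl c univ = ∑ S, (S.card : ℝ) * c S ^ 2 := by
  unfold infl
  refine sum_congr rfl fun S _ => ?_
  rw [inter_univ]

theorem avg_infl_low {M : ℕ} (hM : M ≤ R) (hR : 0 < R) (c : Finset E → ℝ) :
    avg (fun χ : E → Fin R => infl c (low M χ)) = infl c univ * (M / R) := by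
  unfold infl
  rw [avg_sum, sum_mul]
  refine sum_congr rfl fun S _ => ?_
  have h : (fun χ : E → Fin R => ((S ∩ low M χ).card : ℝ) * c S ^ 2) =
      fun χ => c S ^ 2 * ((S ∩ low M χ).card : ℝ) := by
    funext χ
    ring
  rw [h, avg_mul, avg_low hM hR S, inter_univ]
  ring

theorem avg_infl_cls {v : ℕ} (hv : v < R) (c : Finset E → ℝ) :
    avg (fun χ : E → Fin R => infl c (cls v χ)) = infl c univ / R := by
  unfold infl
  rw [avg_sum, sum_div]
  refine sum_congr rfl fun S _ => ?_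
  have h : (fun χ : E → Fin R => ((S ∩ cls v χ).card : ℝ) * c S ^ 2) =
      fun χ => c S ^ 2 * ((S ∩ cls v χ).card : ℝ) := by
    funext χ
    ring
  rw [h, avg_mul, avg_cls hv S, inter_univ]
  ring

theorem avg_two_cls {v : ℕ} (hv : v < R) (c : Finset E → ℝ) :
    avg (fun χ : E → Fin R =>
      ∑ S, ((S ∩ cls v χ).card : ℝ) * (((S ∩ cls v χ).card : ℝ) - 1) * c S ^ 2) =
      (∑ S, (S.card : ℝ) * ((S.card : ℝ) - 1) * c S ^ 2) / (R : ℝ) ^ 2 := by
  rw [avg_sum, sum_div]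
  refine sum_congr rfl fun S _ => ?_
  have h : (fun χ : E → Fin R =>
      ((S ∩ cls v χ).card : ℝ) * (((S ∩ cls v χ).card : ℝ) - 1) * c S ^ 2) =
      fun χ => c S ^ 2 * (((S ∩ cls v χ).card : ℝ) * (((S ∩ cls v χ).card : ℝ) - 1)) := by
    funext χ
    ring
  rw [h, avg_mul, avg_cls_two hv S]
  ring

theorem piv_nonneg {p : ℝ} (h0 : 0 < p) (h1 : p < 1) (f : (E → Bool) → ℝ) (e : E) :
    0 ≤ piv p f e := by
  unfold piv Ex
  refine sum_nonneg fun x _ => mul_nonneg ?_ (abs_nonneg _)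
  unfold wt
  refine prod_nonneg fun e _ => ?_
  split_ifs <;> linarith

omit [DecidableEq E] in
theorem sum_cls_le {k : ℕ} (χ : E → Fin R) (g : E → ℝ) (hg : ∀ e, 0 ≤ g e) :
    ∑ v ∈ range k, ∑ e ∈ cls v χ, g e ≤ ∑ e, g e := by
  unfold cls
  have h : ∀ v ∈ range k, ∑ e ∈ univ.filter (fun e => (χ e : ℕ) = v), g e =
      ∑ e, if (χ e : ℕ) = v then g e else 0 := by
    intro v _
    rw [sum_filter]
  rw [sum_congr rfl h, sum_comm]
  refine sum_le_sum fun e _ => ?_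
  rw [sum_ite_eq]
  split_ifs
  · exact le_refl _
  · exact hg e

omit [DecidableEq E] in
theorem low_filter {M v : ℕ} (hv : v < M) (χ : E → Fin R) :
    (low M χ).filter (fun e => (χ e : ℕ) = v) = cls v χ := by
  unfold low cls
  ext e
  simp only [mem_filter, mem_univ, true_and]
  constructor
  · exact fun h => h.2
  · intro h
    exact ⟨by omega, h⟩

end Avg

/-- `x e^{-2x/d} ≤ d` -/
theorem exp_bound_one {d x : ℝ} (hd : 0 < d) : x * exp (-2 * x / d) ≤ d := by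
  have h1 : x / d ≤ exp (x / d) := by
    have := add_one_le_exp (x / d)
    linarith
  rcases le_or_gt x 0 with hx | hx
  · have : x * exp (-2 * x / d) ≤ 0 := mul_nonpos_of_nonpos_of_nonneg hx (exp_pos _).le
    linarith
  · have h2 : exp (-2 * x / d) = (exp (x / d))⁻¹ * (exp (x / d))⁻¹ := by
      rw [← exp_neg, ← exp_add]
      congr 1
      ring
    have h3 : 1 ≤ exp (x / d) := one_le_exp (by positivity)
    rw [h2, ← mul_assoc]
    have h4 : x ≤ d * exp (x / d) := by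
      rw [div_le_iff₀ hd] at h1
      linarith
    have h5 : x * (exp (x / d))⁻¹ ≤ d := by
      rw [← div_eq_mul_inv, div_le_iff₀ (exp_pos _)]
      exact h4
    calc x * (exp (x / d))⁻¹ * (exp (x / d))⁻¹ ≤ d * 1 :=
          mul_le_mul h5 (inv_le_one_of_one_le₀ h3) (by positivity) hd.le
      _ = d := mul_one d

/-- `x² e^{-2x/d} ≤ d²` -/
theorem exp_bound_two {d x : ℝ} (hd : 0 < d) (hx : 0 ≤ x) : x ^ 2 * exp (-2 * x / d) ≤ d ^ 2 := by
  have h1 : x / d ≤ exp (x / d) := by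
    have := add_one_le_exp (x / d)
    linarith
  have h2 : exp (-2 * x / d) = (exp (x / d))⁻¹ ^ 2 := by
    rw [← exp_neg, ← exp_nat_mul]
    congr 1
    push_cast
    ring
  have h4 : x ≤ d * exp (x / d) := by
    rw [div_le_iff₀ hd] at h1
    linarith
  have h5 : x * (exp (x / d))⁻¹ ≤ d := by
    rw [← div_eq_mul_inv, div_le_iff₀ (exp_pos _)]
    exact h4
  rw [h2, ← mul_pow]
  exact pow_le_pow_left₀ (by positivity) h5 2

/-- `log x ≤ x / 2` -/
theorem log_le_half {x : ℝ} (hx : 0 < x) : log x ≤ x / 2 := by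
  have h1 : log (x / 2) ≤ x / 2 - 1 := log_le_sub_one_of_pos (by positivity)
  rw [log_div hx.ne' (by norm_num)] at h1
  have h2 : log 2 < 1 := by
    have := log_two_lt_d9
    linarith
  linarith

theorem sq_exp {d : ℝ} (k : ℕ) (a : ℝ) :
    (exp (-1 / d) ^ k * a) ^ 2 = exp (-2 * k / d) * a ^ 2 := by
  rw [mul_pow, ← pow_mul, ← exp_nat_mul]
  congr 2
  push_cast
  ring

theorem infl_le {E : Type} [Fintype E] [DecidableEq E] {d : ℝ} (hd0 : 0 < d) (a : Finset E → ℝ) :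
    infl (fun S => exp (-1 / d) ^ S.card * a S) univ ≤
      ∑ S with ((S.card : ℝ) ≤ d), S.card * a S ^ 2 + d * ∑ S with S ≠ ∅, a S ^ 2 := by
  rw [infl_univ, sum_filter, sum_filter, mul_sum, ← sum_add_distrib]
  refine sum_le_sum fun S _ => ?_
  rw [sq_exp]
  have e2 : 0 ≤ a S ^ 2 := sq_nonneg _
  have e3 : exp (-2 * (S.card : ℝ) / d) ≤ 1 := by
    rw [exp_le_one_iff]
    refine div_nonpos_of_nonpos_of_nonneg ?_ hd0.le
    have : (0 : ℝ) ≤ S.card := by positivity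
    linarith
  have e4 := exp_bound_one (x := (S.card : ℝ)) hd0
  have e5 : (0 : ℝ) ≤ S.card := by positivity
  have e6 : (S.card : ℝ) * (exp (-2 * S.card / d) * a S ^ 2) ≤ S.card * a S ^ 2 := by
    refine mul_le_mul_of_nonneg_left ?_ e5
    exact mul_le_of_le_one_left e2 e3
  by_cases g1 : (S.card : ℝ) ≤ d
  · rw [if_pos g1]
    by_cases g2 : S ≠ ∅
    · rw [if_pos g2]
      have e7 : 0 ≤ d * a S ^ 2 := by positivity
      linarith
    · rw [if_neg g2]
      linarith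
  · rw [if_neg g1]
    have g2 : S ≠ ∅ := by
      intro h
      rw [h, card_empty, Nat.cast_zero] at g1
      exact g1 hd0.le
    rw [if_pos g2, zero_add, ← mul_assoc]
    exact mul_le_mul_of_nonneg_right e4 e2

theorem two_le {E : Type} [Fintype E] [DecidableEq E] {d : ℝ} (hd0 : 0 < d) (a : Finset E → ℝ)
    (ha : ∑ S, a S ^ 2 ≤ 1) :
    ∑ S : Finset E, (S.card : ℝ) * ((S.card : ℝ) - 1) * (exp (-1 / d) ^ S.card * a S) ^ 2 ≤
      d ^ 2 := by
  calc ∑ S : Finset E, (S.card : ℝ) * ((S.card : ℝ) - 1) * (exp (-1 / d) ^ S.card * a S) ^ 2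
      ≤ ∑ S, d ^ 2 * a S ^ 2 := by
        refine sum_le_sum fun S _ => ?_
        rw [sq_exp]
        have e2 : 0 ≤ a S ^ 2 := sq_nonneg _
        have e5 : (0 : ℝ) ≤ S.card := by positivity
        have e4 := exp_bound_two hd0 e5
        have e6 : (S.card : ℝ) * ((S.card : ℝ) - 1) ≤ (S.card : ℝ) ^ 2 := by nlinarith
        have e3' : 0 ≤ exp (-2 * (S.card : ℝ) / d) := (exp_pos _).le
        calc (S.card : ℝ) * ((S.card : ℝ) - 1) * (exp (-2 * S.card / d) * a S ^ 2)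
            ≤ (S.card : ℝ) ^ 2 * (exp (-2 * S.card / d) * a S ^ 2) :=
              mul_le_mul_of_nonneg_right e6 (by positivity)
          _ = ((S.card : ℝ) ^ 2 * exp (-2 * S.card / d)) * a S ^ 2 := by ring
          _ ≤ d ^ 2 * a S ^ 2 := mul_le_mul_of_nonneg_right e4 e2
    _ = d ^ 2 * ∑ S, a S ^ 2 := by rw [mul_sum]
    _ ≤ d ^ 2 * 1 := mul_le_mul_of_nonneg_left ha (by positivity)
    _ = d ^ 2 := mul_one _

theorem sum_co_le {E : Type} [Fintype E] [DecidableEq E] {p : ℝ} (h0 : 0 < p) (h1 : p < 1)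
    {f : (E → Bool) → ℝ} (hf : ∀ x, f x = 0 ∨ f x = 1) : ∑ S, co p f S ^ 2 ≤ 1 := by
  rw [parseval h0 h1]
  have e1 : Ex p (fun x => f x ^ 2) ≤ Ex p (fun _ : E → Bool => 1) := by
    unfold Ex
    refine sum_le_sum fun x _ => ?_
    refine mul_le_mul_of_nonneg_left ?_ ?_
    · show f x ^ 2 ≤ 1
      rcases hf x with h | h <;> rw [h] <;> norm_num
    · unfold wt
      refine prod_nonneg fun e _ => ?_
      split_ifs <;> linarith
  rw [Ex_one] at e1
  exact e1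


/-- the pointwise bound -/
theorem pointwise {E : Type} [Fintype E] [DecidableEq E] {p : ℝ} (h0 : 0 < p) (h1 : p < 1)
    {f : (E → Bool) → ℝ} (hf : ∀ x, f x = 0 ∨ f x = 1) {ρ : ℝ} (hρ0 : 0 ≤ ρ) (hρ1 : ρ ≤ 1)
    {L K R' : ℝ} (hpiv : ∑ e, piv p f e ≤ L ^ 2) (hL : 3 ≤ L) (hloglog : 1 ≤ log L)
    (hR'2 : 2 ≤ R') (hlogR : log R' = K) (hcard : (Fintype.card E : ℝ) ≤ R')
    {m N : ℕ} (c : Finset E → ℝ) (hc : c = fun S => ρ ^ S.card * co p f S) (χ : E → Fin N) :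
      ∑ T ∈ (low (2 ^ m) χ).powerset, negMulLog
        (∑ S with S ∩ low (2 ^ m) χ = T, c S ^ 2) ≤
      (1 + 6 * log L) * ∑ v ∈ range (2 ^ m), infl c (cls v χ) +
      (2 * K) * ∑ v ∈ range (2 ^ m),
        ∑ S, ((S ∩ cls v χ).card : ℝ) * (((S ∩ cls v χ).card : ℝ) - 1) * c S ^ 2 +
      (cp p * m) * infl c (low (2 ^ m) χ) +
      (3 + 2 ^ m * (3 / R' ^ 2) + 1 + cp p * infl c univ) := by
  have hL0 : 0 < L := by linarith
  set η : ℝ := 1 / L ^ 3 with hη
  have hL3 : (27 : ℝ) ≤ L ^ 3 := by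
    calc (27 : ℝ) = 3 ^ 3 := by norm_num
      _ ≤ L ^ 3 := pow_le_pow_left₀ (by norm_num) hL 3
  have hη0 : 0 < η := by positivity
  have hη1 : η ≤ 1 / 3 := by
    rw [hη]
    exact one_div_le_one_div_of_le (by norm_num) (by linarith)
  have hlogη : log (1 / η) = 3 * log L := by
    rw [hη, one_div_one_div, log_pow]
    norm_num
  have e1 := top h0 h1 (c := c) (low (2 ^ m) χ)
  have e2 := levels h0 h1 (c := c) m (fun e => (χ e : ℕ)) (low (2 ^ m) χ) (by
    intro e he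
    exact (mem_filter.1 he).2)
  have e3 : ∀ v ∈ range (2 ^ m),
      psi p c ((low (2 ^ m) χ).filter fun e => (χ e : ℕ) = v) ≤
      (1 + 6 * log L) * infl c (cls v χ) +
      2 * η * (3 * log L) * ∑ e ∈ cls v χ, piv p f e +
      (2 * K) *
        ∑ S, ((S ∩ cls v χ).card : ℝ) * (((S ∩ cls v χ).card : ℝ) - 1) * c S ^ 2 +
      3 / R' ^ 2 := by
    intro v hv
    rw [mem_range] at hv
    rw [low_filter hv χ]
    have e4 := fine h0 h1 (c := c) (cls v χ)
      (by rw [hc]; exact fun x => noise_Q h0 h1 hf hρ0 hρ1 (cls v χ) x) hη0 hη1 hR'2 hcard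
    rw [hlogη, hlogR] at e4
    have e5 : ∑ e ∈ cls v χ, Ex p (fun x => |G p c (cls v χ) {e} x|) ≤
        ∑ e ∈ cls v χ, piv p f e := by
      refine sum_le_sum fun e he => ?_
      rw [hc]
      exact noise_G h0 h1 hρ0 hρ1 he
    have e6 : 0 ≤ 2 * η * (3 * log L) := by positivity
    have e7 := mul_le_mul_of_nonneg_left e5 e6
    linarith
  have e8 := sum_le_sum e3
  rw [sum_add_distrib, sum_add_distrib, sum_add_distrib, ← mul_sum, ← mul_sum, ← mul_sum,
    sum_const, card_range, nsmul_eq_mul] at e8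
  have e9 : 2 * η * (3 * log L) * ∑ v ∈ range (2 ^ m), ∑ e ∈ cls v χ, piv p f e ≤ 3 := by
    have e10 : ∑ v ∈ range (2 ^ m), ∑ e ∈ cls v χ, piv p f e ≤ L ^ 2 :=
      (sum_cls_le χ _ (fun e => piv_nonneg h0 h1 f e)).trans hpiv
    have e6 : 0 ≤ 2 * η * (3 * log L) := by positivity
    calc 2 * η * (3 * log L) * ∑ v ∈ range (2 ^ m), ∑ e ∈ cls v χ, piv p f e
        ≤ 2 * η * (3 * log L) * L ^ 2 := mul_le_mul_of_nonneg_left e10 e6
      _ = 6 * log L / L := by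
          rw [hη]
          field_simp
          norm_num
      _ ≤ 3 := by
          rw [div_le_iff₀ hL0]
          have := log_le_half hL0
          linarith
  push_cast at e8
  linarith

theorem scal1 {m : ℕ} (hm : 0 < m) (X : ℝ) :
    ((2 ^ m : ℕ) : ℝ) * (X / ((m * 2 ^ m : ℕ) : ℝ)) = X / m := by
  push_cast
  field_simp

theorem scal2 {m : ℕ} (hm : 0 < m) (X : ℝ) :
    ((2 ^ m : ℕ) : ℝ) * (X / ((m * 2 ^ m : ℕ) : ℝ) ^ 2) = X / ((m : ℝ) ^ 2 * 2 ^ m) := by
  push_cast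
  field_simp

theorem scal3 {m : ℕ} (hm : 0 < m) (c X : ℝ) :
    c * m * (X * (((2 ^ m : ℕ) : ℝ) / ((m * 2 ^ m : ℕ) : ℝ))) = c * X := by
  push_cast
  field_simp

/-- the averaged bound -/
theorem averaged {E : Type} [Fintype E] [DecidableEq E] {p : ℝ} {L K R' : ℝ}
    {m : ℕ} (hm0 : 0 < m) (c : Finset E → ℝ) (F : (E → Fin (m * 2 ^ m)) → ℝ)
    (hpt : ∀ χ, F χ ≤
      (1 + 6 * log L) * ∑ v ∈ range (2 ^ m), infl c (cls v χ) +
      (2 * K) * ∑ v ∈ range (2 ^ m),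
        ∑ S, ((S ∩ cls v χ).card : ℝ) * (((S ∩ cls v χ).card : ℝ) - 1) * c S ^ 2 +
      (cp p * m) * infl c (low (2 ^ m) χ) +
      (3 + 2 ^ m * (3 / R' ^ 2) + 1 + cp p * infl c univ)) :
    avg F ≤ (1 + 6 * log L) * (infl c univ / m) + (2 * K) *
        ((∑ S : Finset E, (S.card : ℝ) * ((S.card : ℝ) - 1) * c S ^ 2) / ((m : ℝ) ^ 2 * 2 ^ m)) +
      cp p * infl c univ + (3 + 2 ^ m * (3 / R' ^ 2) + 1 + cp p * infl c univ) := by
  have hmR : (0 : ℝ) < m := by exact_mod_cast hm0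
  have hR0 : 0 < m * 2 ^ m := by positivity
  have hMR : 2 ^ m ≤ m * 2 ^ m := Nat.le_mul_of_pos_left _ hm0
  have havg := avg_mono hpt
  rw [avg_add, avg_add, avg_add, avg_mul, avg_mul, avg_mul, avg_const hR0, avg_sum, avg_sum,
    avg_infl_low hMR hR0] at havg
  have s1 : ∑ v ∈ range (2 ^ m), avg (fun χ : E → Fin (m * 2 ^ m) => infl c (cls v χ)) =
      infl c univ / m := by
    have : ∀ v ∈ range (2 ^ m),
        avg (fun χ : E → Fin (m * 2 ^ m) => infl c (cls v χ)) =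
          infl c univ / ((m * 2 ^ m : ℕ) : ℝ) := by
      intro v hv
      rw [mem_range] at hv
      exact avg_infl_cls (by omega) c
    rw [sum_congr rfl this, sum_const, card_range, nsmul_eq_mul]
    exact scal1 hm0 _
  have s2 : ∑ v ∈ range (2 ^ m), avg (fun χ : E → Fin (m * 2 ^ m) =>
        ∑ S, ((S ∩ cls v χ).card : ℝ) * (((S ∩ cls v χ).card : ℝ) - 1) * c S ^ 2) =
      (∑ S : Finset E, (S.card : ℝ) * ((S.card : ℝ) - 1) * c S ^ 2) /
        ((m : ℝ) ^ 2 * 2 ^ m) := by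
    have : ∀ v ∈ range (2 ^ m),
        avg (fun χ : E → Fin (m * 2 ^ m) =>
          ∑ S, ((S ∩ cls v χ).card : ℝ) * (((S ∩ cls v χ).card : ℝ) - 1) * c S ^ 2) =
        (∑ S : Finset E, (S.card : ℝ) * ((S.card : ℝ) - 1) * c S ^ 2) /
          ((m * 2 ^ m : ℕ) : ℝ) ^ 2 := by
      intro v hv
      rw [mem_range] at hv
      exact avg_two_cls (by omega) c
    rw [sum_congr rfl this, sum_const, card_range, nsmul_eq_mul]
    exact scal2 hm0 _
  have s3 : cp p * m * (infl c univ * (((2 ^ m : ℕ) : ℝ) / ((m * 2 ^ m : ℕ) : ℝ))) =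
      cp p * infl c univ := scal3 hm0 _ _
  rw [s1, s2, s3] at havg
  exact havg

/-- the numerical part -/
theorem final {r m : ℕ} {d L R' n c I T2 Z : ℝ} (hd0 : 0 < d) (hdL : d ≤ L ^ 2) (hL : 3 ≤ L)
    (hloglog : 1 ≤ log L) (hm : 10 * log L ≤ m) (hm' : 2 * r * L ^ 5 ≤ 2 ^ m)
    (hm2 : (2 : ℝ) ^ m * 3 ≤ n) (hR'n : n ≤ R') (hn : 2 ≤ n) (hcp : 0 ≤ c)
    (hIle : I ≤ Z) (hT2le : T2 ≤ d ^ 2) (hI0 : 0 ≤ I) :
    (1 + 6 * log L) * (I / m) + (2 * (r * L)) * (T2 / ((m : ℝ) ^ 2 * 2 ^ m)) +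
      c * I + (3 + 2 ^ m * (3 / R' ^ 2) + 1 + c * I) ≤ (2 * c + 2) * Z + 5 := by
  have hL0 : 0 < L := by linarith
  have hm10 : (10 : ℝ) ≤ m := by linarith
  have hmR : (0 : ℝ) < m := by linarith
  have hR0 : 0 < R' := by linarith
  have t1 : (1 + 6 * log L) * (I / m) ≤ I := by
    rw [← mul_div_assoc, div_le_iff₀ hmR]
    have h3 : 1 + 6 * log L ≤ m := by linarith
    have h4 := mul_le_mul_of_nonneg_left h3 hI0
    linarith
  have t2 : 2 * (r * L) * (T2 / ((m : ℝ) ^ 2 * 2 ^ m)) ≤ 1 / 100 := by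
    rw [← mul_div_assoc, div_le_iff₀ (by positivity)]
    have hrL : 0 ≤ 2 * ((r : ℝ) * L) := by positivity
    have u1 : T2 ≤ L ^ 4 := by
      calc T2 ≤ d ^ 2 := hT2le
        _ ≤ (L ^ 2) ^ 2 := pow_le_pow_left₀ hd0.le hdL 2
        _ = L ^ 4 := by ring
    have u2 : 2 * ((r : ℝ) * L) * T2 ≤ 2 ^ m := by
      calc 2 * ((r : ℝ) * L) * T2 ≤ 2 * ((r : ℝ) * L) * L ^ 4 :=
            mul_le_mul_of_nonneg_left u1 hrL
        _ = 2 * r * L ^ 5 := by ring
        _ ≤ 2 ^ m := hm'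
    have u3 : (100 : ℝ) ≤ (m : ℝ) ^ 2 := by
      calc (100 : ℝ) = 10 ^ 2 := by norm_num
        _ ≤ (m : ℝ) ^ 2 := pow_le_pow_left₀ (by norm_num) hm10 2
    have u4 : (0 : ℝ) < 2 ^ m := by positivity
    have u5 : (100 : ℝ) * 2 ^ m ≤ (m : ℝ) ^ 2 * 2 ^ m := mul_le_mul_of_nonneg_right u3 u4.le
    linarith
  have t3 : (2 : ℝ) ^ m * (3 / R' ^ 2) ≤ 1 / 2 := by
    rw [← mul_div_assoc, div_le_iff₀ (by positivity)]
    have u0 : (2 : ℝ) ≤ R' := by linarith
    have u1 : (2 : ℝ) * R' ≤ R' ^ 2 := by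
      rw [sq]
      exact mul_le_mul_of_nonneg_right u0 hR0.le
    linarith
  have t5 : (2 * c + 2) * I ≤ (2 * c + 2) * Z :=
    mul_le_mul_of_nonneg_left hIle (by linarith)
  linarith

end Upper

open Upper in
theorem upper {n r : ℕ} (hr : 2 ≤ r) (hn : 2 ≤ n) {p : ℝ} (h0 : 0 < p) (h1 : p < 1)
    {f : (Edge n r → Bool) → ℝ} (hf : ∀ x, f x = 0 ∨ f x = 1)
    {d : ℝ} (hd : 1 ≤ d) (hdL : d ≤ log n ^ 2) (hpiv : ∑ e, piv p f e ≤ log n ^ 2)
    (hL : 3 ≤ log n) {m : ℕ} (hm : 10 * log (log n) ≤ m) (hm' : 2 * r * log n ^ 5 ≤ 2 ^ m)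
    (hm2 : (2 : ℝ) ^ m * 3 ≤ n) :
    avg (fun χ : Edge n r → Fin (m * 2 ^ m) => ∑ T ∈ (low (2 ^ m) χ).powerset, negMulLog
        (∑ S with S ∩ low (2 ^ m) χ = T, (exp (-1 / d) ^ S.card * co p f S) ^ 2)) ≤
      (2 * cp p + 2) * (∑ S with ((S.card : ℝ) ≤ d), S.card * co p f S ^ 2 +
        d * ∑ S with S ≠ ∅, co p f S ^ 2) + 5 := by
  have hd0 : 0 < d := by linarith
  have hnR : (2 : ℝ) ≤ n := by exact_mod_cast hn
  have hloglog : 1 ≤ log (log n) := by
    have h3 : (1 : ℝ) ≤ log 3 := by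
      rw [le_log_iff_exp_le (by norm_num)]
      have := exp_one_lt_d9
      linarith
    exact h3.trans (log_le_log (by norm_num) hL)
  have hm10 : (10 : ℝ) ≤ m := by linarith
  have hm0 : 0 < m := by
    rcases Nat.eq_zero_or_pos m with h | h
    · rw [h] at hm10
      norm_num at hm10
    · exact h
  have hmR : (0 : ℝ) < m := by linarith
  have hρ1 : exp (-1 / d) ≤ 1 := by
    rw [exp_le_one_iff]
    exact div_nonpos_of_nonpos_of_nonneg (by norm_num) hd0.le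
  have hcp : 0 ≤ cp p := by
    unfold cp
    have h3 : 0 < min p (1 - p) := lt_min h0 (by linarith)
    have h4 : 0 ≤ log (2 + 2 / min p (1 - p)) := by
      refine log_nonneg ?_
      have : 0 ≤ 2 / min p (1 - p) := by positivity
      linarith
    linarith
  have hR'n : (n : ℝ) ≤ (n : ℝ) ^ r := le_self_pow₀ (by linarith) (by omega)
  have hR'2 : 2 ≤ (n : ℝ) ^ r := by linarith
  have hlogR : log ((n : ℝ) ^ r) = r * log n := by rw [log_pow]
  have hcard : (Fintype.card (Edge n r) : ℝ) ≤ (n : ℝ) ^ r := by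
    have h3 : Fintype.card (Edge n r) ≤ n ^ r := by
      have h4 : Fintype.card (Edge n r) = n.choose r := by
        rw [Fintype.card_finset_len, Fintype.card_fin]
      rw [h4]
      exact Nat.choose_le_pow n r
    exact_mod_cast h3
  have havg := averaged (p := p) (L := log n) (K := r * log n) (R' := (n : ℝ) ^ r) hm0
    (fun S => exp (-1 / d) ^ S.card * co p f S) _
    (fun χ => pointwise h0 h1 hf (exp_pos _).le hρ1 hpiv hL hloglog hR'2 hlogR hcard
      (fun S => exp (-1 / d) ^ S.card * co p f S) rfl χ)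
  have hIle := infl_le hd0 (co p f)
  have hT2le := two_le hd0 (co p f) (sum_co_le h0 h1 hf)
  have hI0 : 0 ≤ infl (fun S => exp (-1 / d) ^ S.card * co p f S) univ := by
    rw [infl_univ]
    exact sum_nonneg fun S _ => by positivity
  refine havg.trans ?_
  generalize infl (fun S => exp (-1 / d) ^ S.card * co p f S) univ = I at *
  generalize (∑ S : Finset (Edge n r), (S.card : ℝ) * ((S.card : ℝ) - 1) *
    (exp (-1 / d) ^ S.card * co p f S) ^ 2) = T2 at *
  generalize (∑ S with ((S.card : ℝ) ≤ d), S.card * co p f S ^ 2 +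
        d * ∑ S with S ≠ ∅, co p f S ^ 2) = Z at *
  exact final hd0 hdL hL hloglog hm hm' hm2 hR'n hnR hcp hIle hT2le hI0

end P063
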