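import Vale.Agent.P063.ExLin
import Vale.Agent.P063.Cube
import Vale.Agent.P063.Lower
import Vale.Agent.P063.Upper
import Vale.Agent.P063.Scale

/-!
# P063 : lower bound for the derivative of the measure of a property
-/

namespace P063

open Finset Real

section

variable {E : Type} [Fintype E] [DecidableEq E] {p : ℝ}

theorem var_eq (h0 : 0 < p) (h1 : p < 1) {f : (E → Bool) → ℝ} (hf : ∀ x, f x = 0 ∨ f x = 1) :
    ∑ S with S ≠ ∅, co p f S ^ 2 = Ex p f - Ex p f ^ 2 := by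
  have e1 := parseval h0 h1 f
  have e2 : Ex p (fun x => f x ^ 2) = Ex p f := Ex_congr fun x => by
    rcases hf x with h | h <;> rw [h] <;> norm_num
  have e3 : co p f ∅ = Ex p f := by
    unfold co phS
    simp
  rw [e2, ← sum_filter_add_sum_filter_not univ (fun S : Finset E => S ≠ ∅)] at e1
  have e4 : (univ.filter fun S : Finset E => ¬ S ≠ ∅) = {∅} := by
    ext S
    simp
  rw [e4, sum_singleton, e3] at e1
  linarith

end

variable {n r : ℕ} {p : ℝ} {f : (Edge n r → Bool) → ℝ}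

/-- the spectral law does not charge small sets -/
theorem mass (hr : 2 ≤ r) (h0 : 0 < p) (h1 : p < 1) (hf : ∀ x, f x = 0 ∨ f x = 1)
    (hs : ∀ (τ : Equiv.Perm (Fin n)) (x : Edge n r → Bool), f (x ∘ act τ) = f x)
    (hpiv : ∑ e, piv p f e ≤ log n ^ 2) (hL : 3 ≤ log n) {m J : ℕ}
    (hm : 10 * log (log n) ≤ m) (hm' : 2 * r * log n ^ 5 ≤ 2 ^ m) (hm2 : (2 : ℝ) ^ m * 3 ≤ n)
    (hJ : (2 : ℝ) ^ J ≤ log n ^ 2) (hn6 : (r * log n ^ 2) ^ 6 ≤ n) {v : ℝ}
    (hv : Ex p f - Ex p f ^ 2 = v)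
    (k1 : 64 * (2 * cp p + 2) / log n * ((2 : ℝ) ^ J) ^ (1 - 1 / r : ℝ) ≤ 1 / 100)
    (k2 : 64 * (2 * cp p + 2) / log n * m * (J + 1) ≤ 1 / 100)
    (k3 : 320 / log n * (m + J + 1) ≤ v / 100) :
    ∑ S : Finset (Edge n r) with (1 ≤ S.card ∧ S.card ≤ 2 ^ J), co p f S ^ 2 ≤ v / 2 := by
  have hL0 : 0 < log n := by linarith
  have hn : 2 ≤ n := by
    by_contra h
    push Not at h
    have : (n : ℝ) ≤ 1 := by exact_mod_cast (by omega : n ≤ 1)
    have h2 : log n ≤ log 1 := by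
      rcases Nat.eq_zero_or_pos n with h3 | h3
      · rw [h3]
        simp
      · exact log_le_log (by exact_mod_cast h3) this
    rw [log_one] at h2
    linarith
  have hll : 0 < log (log n) := log_pos (by linarith)
  have hm0 : 0 < m := by
    have : (0 : ℝ) < m := by linarith
    exact_mod_cast this
  have hcp := cp_pos h0 h1
  have hv1 : ∑ S : Finset (Edge n r) with S ≠ ∅, co p f S ^ 2 = v := by
    rw [var_eq h0 h1 hf, hv]
  have hv2 : ∑ S : Finset (Edge n r) with 1 ≤ S.card, co p f S ^ 2 = v := by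
    rw [← hv1]
    refine sum_congr ?_ fun _ _ => rfl
    ext S
    simp only [mem_filter, mem_univ, true_and]
    rw [Nat.one_le_iff_ne_zero, Ne, card_eq_zero]
  refine scale (fun S : Finset (Edge n r) => S.card) (fun S => co p f S ^ 2)
    (fun S => sq_nonneg _) hr hm0 hv2 (by positivity) (by positivity) J ?_ k1 k2 k3
  intro j hj
  have hd1 : (1 : ℝ) ≤ 2 ^ j := one_le_pow₀ (by norm_num)
  have hdJ : (2 : ℝ) ^ j ≤ 2 ^ J := pow_le_pow_right₀ (by norm_num) hj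
  have hdL : (2 : ℝ) ^ j ≤ log n ^ 2 := hdJ.trans hJ
  have hd6 : (r * (2 : ℝ) ^ j) ^ 6 ≤ n := by
    refine le_trans ?_ hn6
    exact pow_le_pow_left₀ (by positivity) (mul_le_mul_of_nonneg_left hdL (by positivity)) 6
  have hlow := lower hr h0 h1 hf hs hd1 hd6 hm0 (show 0 < 2 ^ m by positivity)
  have hup := upper hr hn h0 h1 hf hd1 hdL hpiv hL hm hm' hm2
  have key := hlow.trans hup
  have eS : (univ.filter fun S : Finset (Edge n r) => (S.card : ℝ) ≤ (2 : ℝ) ^ j) =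
      univ.filter fun S : Finset (Edge n r) => S.card ≤ 2 ^ j := by
    ext S
    simp only [mem_filter, mem_univ, true_and]
    exact ⟨fun h => by exact_mod_cast h, fun h => by exact_mod_cast h⟩
  rw [eS, hv1] at key
  have g1 : ∀ y : ℝ, y = 64 / log n * (log n / 64 * y) := fun y => by field_simp
  have g2 : ∀ y : ℝ, 64 / log n * ((2 * cp p + 2) * y + 5) =
      64 * (2 * cp p + 2) / log n * y + 320 / log n := fun y => by
    field_simp
    ring
  have g3 := mul_le_mul_of_nonneg_left key (show 0 ≤ 64 / log n by positivity)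
  rw [← g1, g2] at g3
  exact g3

theorem infl_lower (h0 : 0 < p) (h1 : p < 1) (hf : ∀ x, f x = 0 ∨ f x = 1)
    {J : ℕ} {v : ℝ} (hv : Ex p f - Ex p f ^ 2 = v)
    (h : ∑ S : Finset (Edge n r) with (1 ≤ S.card ∧ S.card ≤ 2 ^ J), co p f S ^ 2 ≤ v / 2) :
    2 ^ J * (v / 2) ≤ p * (1 - p) * ∑ e, piv p f e := by
  rw [← infl_co h0 h1 hf]
  have hv1 : ∑ S : Finset (Edge n r) with S ≠ ∅, co p f S ^ 2 = v := by
    rw [var_eq h0 h1 hf, hv]
  have h2 : v / 2 ≤ ∑ S : Finset (Edge n r) with ¬ S.card ≤ 2 ^ J, co p f S ^ 2 := by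
    have h3 : ∑ S : Finset (Edge n r) with S ≠ ∅, co p f S ^ 2 ≤
        ∑ S : Finset (Edge n r) with (1 ≤ S.card ∧ S.card ≤ 2 ^ J), co p f S ^ 2 +
          ∑ S : Finset (Edge n r) with ¬ S.card ≤ 2 ^ J, co p f S ^ 2 := by
      rw [sum_filter, sum_filter, sum_filter, ← sum_add_distrib]
      refine sum_le_sum fun S _ => ?_
      have h4 : 0 ≤ co p f S ^ 2 := sq_nonneg _
      by_cases h5 : S = ∅
      · rw [if_neg (by simpa using h5)]
        split_ifs <;> linarith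
      · have h6 : 1 ≤ S.card := by
          rw [Nat.one_le_iff_ne_zero, Ne, card_eq_zero]
          exact h5
        rw [if_pos h5]
        by_cases h7 : S.card ≤ 2 ^ J
        · rw [if_pos ⟨h6, h7⟩, if_neg (not_not.mpr h7)]
          linarith
        · rw [if_pos h7]
          split_ifs <;> linarith
    linarith
  have h3 : (2 : ℝ) ^ J * ∑ S : Finset (Edge n r) with ¬ S.card ≤ 2 ^ J, co p f S ^ 2 ≤
      infl (co p f) univ := by
    unfold infl
    rw [mul_sum, sum_filter]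
    refine sum_le_sum fun S _ => ?_
    have h4 : 0 ≤ co p f S ^ 2 := sq_nonneg _
    rw [inter_univ]
    by_cases h7 : S.card ≤ 2 ^ J
    · rw [if_neg (not_not.mpr h7)]
      positivity
    · rw [if_pos h7]
      refine mul_le_mul_of_nonneg_right ?_ h4
      push Not at h7
      exact_mod_cast h7.le
  have h4 : (0 : ℝ) < 2 ^ J := by positivity
  exact (mul_le_mul_of_nonneg_left h2 h4.le).trans h3

/-- the parameters are good for large `n` -/
theorem params (r : ℕ) (hr : 2 ≤ r) {v₀ : ℝ} (hv₀ : 0 < v₀) : ∃ n₀ : ℕ, ∀ n : ℕ, n₀ ≤ n →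
    3 ≤ log n ∧ 1 ≤ log (log n) ∧ 10 ^ 7 * log (log n) ^ 3 ≤ log n ∧
      480000 * log (log n) ≤ v₀ * log n ∧ 2 * r ≤ log n ∧ 6 * log n ^ 7 ≤ n ∧
        (r * log n ^ 2) ^ 6 ≤ n := by
  have hlog : Filter.Tendsto (fun n : ℕ => log (n : ℝ)) Filter.atTop Filter.atTop :=
    tendsto_log_atTop.comp tendsto_natCast_atTop_atTop
  have hloglog : Filter.Tendsto (fun n : ℕ => log (log (n : ℝ))) Filter.atTop Filter.atTop :=
    tendsto_log_atTop.comp hlog
  have t1 := hlog.eventually_ge_atTop 3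
  have t2 := hloglog.eventually_ge_atTop 1
  have t3 : ∀ᶠ n : ℕ in Filter.atTop, 10 ^ 7 * log (log (n : ℝ)) ^ 3 ≤ log n := by
    have h := (isLittleO_pow_log_id_atTop (n := 3)).def (show (0 : ℝ) < 1 / 10 ^ 7 by norm_num)
    have h2 := hlog.eventually h
    filter_upwards [h2, t1, t2] with n h3 h4 h5
    simp only [norm_eq_abs, id] at h3
    rw [abs_of_nonneg (by positivity), abs_of_nonneg (by linarith)] at h3
    linarith
  have t4 : ∀ᶠ n : ℕ in Filter.atTop, 480000 * log (log (n : ℝ)) ≤ v₀ * log n := by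
    have h := isLittleO_log_id_atTop.def (show (0 : ℝ) < v₀ / 480000 by positivity)
    have h2 := hlog.eventually h
    filter_upwards [h2, t1, t2] with n h3 h4 h5
    simp only [norm_eq_abs, id] at h3
    rw [abs_of_nonneg (by linarith), abs_of_nonneg (by linarith)] at h3
    linarith
  have t5 := hlog.eventually_ge_atTop (2 * r : ℝ)
  have t6 : ∀ᶠ n : ℕ in Filter.atTop, 6 * log (n : ℝ) ^ 7 ≤ n := by
    have h := (isLittleO_pow_log_id_atTop (n := 7)).def (show (0 : ℝ) < 1 / 6 by norm_num)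
    have h2 := tendsto_natCast_atTop_atTop.eventually h
    filter_upwards [h2, t1] with n h3 h4
    simp only [norm_eq_abs, id] at h3
    rw [abs_of_nonneg (by positivity), abs_of_nonneg (by positivity)] at h3
    linarith
  have t7 : ∀ᶠ n : ℕ in Filter.atTop, (r * log (n : ℝ) ^ 2) ^ 6 ≤ n := by
    have hr0 : (0 : ℝ) < r := by
      have : 0 < r := by omega
      exact_mod_cast this
    have h := (isLittleO_pow_log_id_atTop (n := 12)).def (show (0 : ℝ) < 1 / r ^ 6 by positivity)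
    have h2 := tendsto_natCast_atTop_atTop.eventually h
    filter_upwards [h2, t1] with n h3 h4
    simp only [norm_eq_abs, id] at h3
    rw [abs_of_nonneg (by positivity), abs_of_nonneg (by positivity)] at h3
    have e1 : (r * log (n : ℝ) ^ 2) ^ 6 = r ^ 6 * log (n : ℝ) ^ 12 := by ring
    rw [e1]
    calc (r : ℝ) ^ 6 * log (n : ℝ) ^ 12 ≤ r ^ 6 * (1 / r ^ 6 * n) :=
          mul_le_mul_of_nonneg_left h3 (by positivity)
      _ = n := by field_simp
  obtain ⟨n₀, h⟩ := Filter.eventually_atTop.mp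
    (t1.and (t2.and (t3.and (t4.and (t5.and (t6.and t7))))))
  exact ⟨n₀, fun n hn => h n hn⟩

/-- the constant of the logarithmic Sobolev inequality is not too large -/
theorem cp_le {p L : ℝ} (hL : 3 ≤ L) (h0 : 1 / L ^ 2 ≤ p) (h1 : p ≤ 1 - 1 / L ^ 2) :
    cp p ≤ 4 * log L + 11 := by
  have hL2 : 0 < 1 / L ^ 2 := by positivity
  have hq : 1 / L ^ 2 ≤ min p (1 - p) := le_min h0 (by linarith)
  have hq0 : 0 < min p (1 - p) := lt_of_lt_of_le hL2 hq
  have h2 : 2 + 2 / min p (1 - p) ≤ 4 * L ^ 2 := by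
    have h3 : 2 / min p (1 - p) ≤ 2 * L ^ 2 := by
      rw [div_le_iff₀ hq0]
      have h4 := mul_le_mul_of_nonneg_left hq (show 0 ≤ 2 * L ^ 2 by positivity)
      have h5 : 2 * L ^ 2 * (1 / L ^ 2) = 2 := by field_simp
      linarith
    nlinarith
  have h3 : log (2 + 2 / min p (1 - p)) ≤ log (4 * L ^ 2) :=
    log_le_log (by positivity) h2
  rw [log_mul (by norm_num) (by positivity), log_pow] at h3
  have h4 : log 4 ≤ 1.5 := by
    have h5 : (4 : ℝ) = 2 ^ 2 := by norm_num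
    rw [h5, log_pow]
    have := log_two_lt_d9
    push_cast
    linarith
  unfold cp
  push_cast at h3
  linarith

theorem cp_sq_le {p : ℝ} (h0 : 0 < p) (h1 : p < 1) : (cp p + 1) ^ 2 * (p * (1 - p)) ≤ 289 := by
  have h2 : 0 < 1 - p := by linarith
  set q := min p (1 - p) with hq
  have q0 : 0 < q := lt_min h0 h2
  have q1 : q ≤ 1 := (min_le_left _ _).trans h1.le
  have hpq : p * (1 - p) ≤ q := by
    rcases le_total p (1 - p) with h | h
    · have : q = p := min_eq_left h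
      rw [this]
      nlinarith
    · have : q = 1 - p := min_eq_right h
      rw [this]
      nlinarith
  have hs : 0 < √q := sqrt_pos.mpr q0
  have hs1 : √q ≤ 1 := sqrt_le_one.mpr q1
  have hss : √q * √q = q := mul_self_sqrt q0.le
  have h3 : log (2 + 2 / q) ≤ 4 / √q := by
    have h4 : 2 + 2 / q ≤ (2 / √q) ^ 2 := by
      rw [div_pow, sq_sqrt q0.le]
      have : 1 ≤ 1 / q := by
        rw [le_div_iff₀ q0]
        linarith
      have e1 : 2 / q = 2 * (1 / q) := by ring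
      have e2 : 2 ^ 2 / q = 4 * (1 / q) := by ring
      rw [e1, e2]
      linarith
    have h5 : log (2 + 2 / q) ≤ log ((2 / √q) ^ 2) := log_le_log (by positivity) h4
    rw [log_pow] at h5
    have h6 := log_le_sub_one_of_pos (show 0 < 2 / √q by positivity)
    have e3 : 4 / √q = 2 * (2 / √q) := by ring
    rw [e3]
    push_cast at h5
    linarith
  have h4 : cp p + 1 ≤ 17 / √q := by
    have h5 : 1 ≤ 1 / √q := by
      rw [le_div_iff₀ hs]
      linarith
    have e1 : 17 / √q = 2 * (4 / √q) + 9 * (1 / √q) := by ring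
    rw [e1]
    unfold cp
    linarith
  have h5 : 0 < cp p + 1 := by linarith [cp_pos h0 h1]
  calc (cp p + 1) ^ 2 * (p * (1 - p)) ≤ (17 / √q) ^ 2 * q :=
        mul_le_mul (pow_le_pow_left₀ h5.le h4 2) hpq (by positivity) (by positivity)
    _ = 289 := by
        rw [div_pow, sq_sqrt q0.le]
        field_simp
        norm_num

theorem k1_aux {L c : ℝ} (hL : 0 < L) (hc : 0 < c) :
    64 * (2 * c + 2) / L * (L / (12800 * (c + 1))) = 1 / 100 := by
  have : c + 1 ≠ 0 := by linarith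
  field_simp
  ring

theorem k2_aux {L c m J t : ℝ} (hL : 0 < L) (hc : 0 < c) (hct : c + 1 ≤ 16 * t) (hm0 : 0 ≤ m)
    (hm : m ≤ 11 * t) (hJ0 : 0 ≤ J) (hJ : J + 1 ≤ 4 * t) (ht : 1 ≤ t)
    (h : 10 ^ 7 * t ^ 3 ≤ L) : 64 * (2 * c + 2) / L * m * (J + 1) ≤ 1 / 100 := by
  have h2 : 64 * (2 * c + 2) * m * (J + 1) ≤ (64 * (2 * (16 * t))) * (11 * t) * (4 * t) := by
    have g1 : 64 * (2 * c + 2) ≤ 64 * (2 * (16 * t)) := by linarith
    have g4 : 64 * (2 * c + 2) * m ≤ (64 * (2 * (16 * t))) * (11 * t) :=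
      mul_le_mul g1 hm hm0 (by linarith)
    exact mul_le_mul g4 hJ (by linarith) (by positivity)
  have h3 : 64 * (2 * c + 2) / L * m * (J + 1) = 64 * (2 * c + 2) * m * (J + 1) / L := by ring
  rw [h3, div_le_iff₀ hL]
  have h4 : 0 ≤ t ^ 3 := by positivity
  nlinarith

theorem k3_aux {L m J t v v₀ : ℝ} (hL : 0 < L) (hm : m ≤ 11 * t) (hJ : J + 1 ≤ 4 * t)
    (h : 480000 * t ≤ v₀ * L) (hv : v₀ ≤ v) : 320 / L * (m + J + 1) ≤ v / 100 := by
  have h3 : 320 / L * (m + J + 1) = 320 * (m + J + 1) / L := by ring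
  rw [h3, div_le_iff₀ hL]
  nlinarith

theorem log_two_bounds : 0.69 ≤ log 2 ∧ log 2 ≤ 0.7 := by
  have h1 := log_two_gt_d9
  have h2 := log_two_lt_d9
  constructor <;> linarith

/-- choice of the number of colors -/
theorem choose_m {L : ℝ} (hL : 3 ≤ L) (ht : 1 ≤ log L) {r : ℕ} (p5 : 2 * r ≤ L) :
    ∃ m : ℕ, 10 * log L ≤ m ∧ (m : ℝ) ≤ 11 * log L ∧ 2 * r * L ^ 5 ≤ 2 ^ m ∧
      (2 : ℝ) ^ m * 3 ≤ 6 * L ^ 7 := by
  have hL0 : 0 < L := by linarith
  obtain ⟨hl2, hl2'⟩ := log_two_bounds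
  set t := log L with htdef
  have hm1 : 10 * t ≤ (⌈10 * t⌉₊ : ℝ) := Nat.le_ceil _
  have hm2 : (⌈10 * t⌉₊ : ℝ) ≤ 10 * t + 1 := (Nat.ceil_lt_add_one (by positivity)).le
  have hexpL : exp t = L := exp_log hL0
  have h2m : (2 : ℝ) ^ ⌈10 * t⌉₊ = exp (⌈10 * t⌉₊ * log 2) := by
    rw [← exp_log (show (0 : ℝ) < 2 ^ ⌈10 * t⌉₊ by positivity), log_pow]
  refine ⟨⌈10 * t⌉₊, hm1, by linarith, ?_, ?_⟩
  · have h2 : L ^ 6 ≤ 2 ^ ⌈10 * t⌉₊ := by
      rw [h2m, ← hexpL, ← exp_nat_mul]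
      refine exp_le_exp.mpr ?_
      push_cast
      nlinarith
    refine le_trans ?_ h2
    have h3 : 0 < L ^ 5 := by positivity
    have h4 := mul_le_mul_of_nonneg_right p5 h3.le
    calc 2 * (r : ℝ) * L ^ 5 ≤ L * L ^ 5 := h4
      _ = L ^ 6 := by ring
  · have h2 : (2 : ℝ) ^ ⌈10 * t⌉₊ ≤ 2 * L ^ 7 := by
      have h4 : 2 * L ^ 7 = exp (log 2 + 7 * t) := by
        rw [exp_add, exp_log (by norm_num), ← hexpL, ← exp_nat_mul]
        push_cast
        rfl
      rw [h2m, h4]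
      refine exp_le_exp.mpr ?_
      nlinarith
    linarith

/-- choice of the largest scale -/
theorem choose_J {L c : ℝ} (hL : 3 ≤ L) (ht : 1 ≤ log L) {r : ℕ} (hr : 2 ≤ r) (hc0 : 0 < c)
    (hc : c + 1 ≤ 16 * log L) (p3 : 10 ^ 7 * log L ^ 3 ≤ L) :
    ∃ J : ℕ, (2 : ℝ) ^ J ≤ L ^ 2 ∧ (J : ℝ) ≤ 3 * log L ∧
      64 * (2 * c + 2) / L * ((2 : ℝ) ^ J) ^ (1 - 1 / r : ℝ) ≤ 1 / 100 ∧
      L ^ (r / (r - 1) : ℝ) ≤ 2 * 2 ^ J * (12800 ^ 2 * (c + 1) ^ 2) := by
  have hL0 : 0 < L := by linarith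
  obtain ⟨hl2, hl2'⟩ := log_two_bounds
  set t := log L with htdef
  have hr0 : (1 : ℝ) < r := by
    have : 1 < r := by omega
    exact_mod_cast this
  have hr2 : (2 : ℝ) ≤ r := by exact_mod_cast hr
  set a : ℝ := r / (r - 1) with ha
  have ha1 : 1 ≤ a := by
    rw [ha, le_div_iff₀ (by linarith)]
    linarith
  have ha2 : a ≤ 2 := by
    rw [ha, div_le_iff₀ (by linarith)]
    linarith
  have har : a * (1 - 1 / r) = 1 := by
    have : (r : ℝ) - 1 ≠ 0 := by linarith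
    have : (r : ℝ) ≠ 0 := by linarith
    rw [ha]
    field_simp
  have t3 : t ≤ t ^ 3 := by
    have g0 : 0 ≤ t * ((t - 1) * (t + 1)) :=
      mul_nonneg (by linarith) (mul_nonneg (by linarith) (by linarith))
    nlinarith
  have hLa : L ^ a ≤ L ^ 2 := by
    have := rpow_le_rpow_of_exponent_le (by linarith : 1 ≤ L) ha2
    have e : L ^ (2 : ℝ) = L ^ 2 := by
      rw [← rpow_natCast]
      norm_num
    rwa [e] at this
  set z : ℝ := L / (12800 * (c + 1)) with hz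
  have hz1 : 1 ≤ z := by
    rw [hz, le_div_iff₀ (by positivity)]
    linarith
  have hzL : z ≤ L := by
    rw [hz]
    exact div_le_self hL0.le (by linarith)
  set y : ℝ := z ^ a with hy
  have hy1 : 1 ≤ y := one_le_rpow hz1 (by linarith)
  have hyL : y ≤ L ^ 2 := by
    refine le_trans ?_ hLa
    exact rpow_le_rpow (by linarith) hzL (by linarith)
  have hfl : ⌊y⌋₊ ≠ 0 := by
    have : 1 ≤ ⌊y⌋₊ := Nat.le_floor (by simpa using hy1)
    omega
  have hJy : (2 : ℝ) ^ Nat.log 2 ⌊y⌋₊ ≤ y := by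
    have h2 : 2 ^ Nat.log 2 ⌊y⌋₊ ≤ ⌊y⌋₊ := Nat.pow_log_le_self 2 hfl
    have h3 : ((2 ^ Nat.log 2 ⌊y⌋₊ : ℕ) : ℝ) ≤ (⌊y⌋₊ : ℝ) := by exact_mod_cast h2
    push_cast at h3
    exact h3.trans (Nat.floor_le (by linarith))
  have hyJ : y ≤ 2 * 2 ^ Nat.log 2 ⌊y⌋₊ := by
    have h2 : ⌊y⌋₊ < 2 ^ (Nat.log 2 ⌊y⌋₊ + 1) := Nat.lt_pow_succ_log_self (by norm_num) _
    have h3 : ((⌊y⌋₊ + 1 : ℕ) : ℝ) ≤ ((2 ^ (Nat.log 2 ⌊y⌋₊ + 1) : ℕ) : ℝ) := by
      exact_mod_cast h2
    push_cast at h3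
    have h4 := Nat.lt_floor_add_one y
    rw [pow_succ] at h3
    linarith
  have hJL : (2 : ℝ) ^ Nat.log 2 ⌊y⌋₊ ≤ L ^ 2 := hJy.trans hyL
  refine ⟨Nat.log 2 ⌊y⌋₊, hJL, ?_, ?_, ?_⟩
  · have h2 := log_le_log (by positivity) hJL
    rw [log_pow, log_pow, ← htdef] at h2
    push_cast at h2
    nlinarith
  · have h2 : ((2 : ℝ) ^ Nat.log 2 ⌊y⌋₊) ^ (1 - 1 / r : ℝ) ≤ z := by
      have h3 : ((2 : ℝ) ^ Nat.log 2 ⌊y⌋₊) ^ (1 - 1 / r : ℝ) ≤ y ^ (1 - 1 / r : ℝ) := by
        refine rpow_le_rpow (by positivity) hJy ?_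
        have : 1 / (r : ℝ) ≤ 1 := by
          rw [div_le_one (by linarith)]
          linarith
        linarith
      rw [hy, ← rpow_mul (by linarith), har, rpow_one] at h3
      exact h3
    refine (mul_le_mul_of_nonneg_left h2 (by positivity)).trans (le_of_eq ?_)
    exact k1_aux hL0 hc0
  · have h2 : (12800 * (c + 1)) ^ a ≤ 12800 ^ 2 * (c + 1) ^ 2 := by
      have h3 := rpow_le_rpow_of_exponent_le (show 1 ≤ 12800 * (c + 1) by linarith) ha2
      have e : (12800 * (c + 1)) ^ (2 : ℝ) = 12800 ^ 2 * (c + 1) ^ 2 := by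
        rw [← mul_pow, ← rpow_natCast]
        norm_num
      rwa [e] at h3
    have h3 : L ^ a = y * (12800 * (c + 1)) ^ a := by
      rw [hy, ← mul_rpow (by linarith) (by linarith), hz]
      congr 1
      have : 12800 * (c + 1) ≠ 0 := by positivity
      rw [div_mul_cancel₀ _ this]
    rw [h3]
    exact mul_le_mul hyJ h2 (by positivity) (by positivity)

/-- the derivative of the measure of a property is large -/
theorem deriv_lower (r : ℕ) (hr : 2 ≤ r) {ε : ℝ} (hε : 0 < ε) (hε' : ε < 1 / 2) :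
    ∃ κ : ℝ, 0 < κ ∧ ∃ n₀ : ℕ, ∀ n : ℕ, n₀ ≤ n → 3 ≤ log n ∧
      ∀ f : (Edge n r → Bool) → ℝ, (∀ x, f x = 0 ∨ f x = 1) →
      (∀ (τ : Equiv.Perm (Fin n)) (x : Edge n r → Bool), f (x ∘ act τ) = f x) →
      ∀ p : ℝ, 1 / log n ^ 2 ≤ p → p ≤ 1 - 1 / log n ^ 2 → ε ≤ Ex p f → Ex p f ≤ 1 - ε →
        κ * log n ^ (r / (r - 1) : ℝ) ≤ ∑ e, piv p f e := by
  obtain ⟨n₀, hn₀⟩ := params r hr (show 0 < ε / 2 by linarith)
  refine ⟨ε / 2 / (4 * 12800 ^ 2 * 289), by positivity, n₀, fun n hn => ?_⟩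
  obtain ⟨hL, ht, p3, p4, p5, p6, p7⟩ := hn₀ n hn
  refine ⟨hL, fun f hf hs p hp hp' hμ hμ' => ?_⟩
  have hL0 : 0 < log (n : ℝ) := by linarith
  have hL2 : 0 < 1 / log (n : ℝ) ^ 2 := by positivity
  have h0 : 0 < p := lt_of_lt_of_le hL2 hp
  have h1 : p < 1 := by linarith
  have hcp0 := cp_pos h0 h1
  have hcp := cp_le hL hp hp'
  have hct : cp p + 1 ≤ 16 * log (log n) := by linarith
  obtain ⟨v, hv⟩ : ∃ v, Ex p f - Ex p f ^ 2 = v := ⟨_, rfl⟩
  have hv0 : ε / 2 ≤ v := by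
    rw [← hv]
    nlinarith
  have hr2 : (2 : ℝ) ≤ r := by exact_mod_cast hr
  have hLa0 : 0 < log (n : ℝ) ^ (r / (r - 1) : ℝ) := rpow_pos_of_pos hL0 _
  have hS0 : 0 ≤ ∑ e, piv p f e := sum_nonneg fun e _ => Ex_nonneg h0 h1 fun x => abs_nonneg _
  by_cases hpiv : ∑ e, piv p f e ≤ log n ^ 2
  · obtain ⟨m, m1, m2, m3, m4⟩ := choose_m hL ht p5
    obtain ⟨J, j1, j2, j3, j4⟩ := choose_J hL ht hr hcp0 hct p3
    have k2 := k2_aux hL0 hcp0 hct (Nat.cast_nonneg m) m2 (Nat.cast_nonneg J)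
      (by linarith) ht p3
    have k3 := k3_aux hL0 m2 (show (J : ℝ) + 1 ≤ 4 * log (log n) by linarith) p4 hv0
    have main := infl_lower h0 h1 hf hv
      (mass hr h0 h1 hf hs hpiv hL m1 m3 (m4.trans p6) j1 p7 hv j3 k2 k3)
    generalize (∑ e, piv p f e) = I at *
    generalize log (n : ℝ) ^ (r / (r - 1) : ℝ) = Y at *
    have h2 := cp_sq_le h0 h1
    generalize hD : (2 : ℝ) ^ J = D at *
    generalize hC : (cp p + 1) ^ 2 = C at *
    generalize hP : p * (1 - p) = P at *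
    have hC0 : 0 ≤ C := by rw [← hC]; positivity
    have hv00 : 0 ≤ v := by linarith
    have h3 : v * Y ≤ 4 * 12800 ^ 2 * 289 * I := by
      calc v * Y ≤ v * (2 * D * (12800 ^ 2 * C)) := mul_le_mul_of_nonneg_left j4 hv00
        _ = 4 * 12800 ^ 2 * (C * (D * (v / 2))) := by ring
        _ ≤ 4 * 12800 ^ 2 * (C * (P * I)) := by
            refine mul_le_mul_of_nonneg_left ?_ (by norm_num)
            exact mul_le_mul_of_nonneg_left main hC0
        _ = 4 * 12800 ^ 2 * ((C * P) * I) := by ring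
        _ ≤ 4 * 12800 ^ 2 * (289 * I) := by
            refine mul_le_mul_of_nonneg_left ?_ (by norm_num)
            exact mul_le_mul_of_nonneg_right h2 hS0
        _ = 4 * 12800 ^ 2 * 289 * I := by ring
    have h4 : ε / 2 * Y ≤ v * Y := mul_le_mul_of_nonneg_right hv0 hLa0.le
    rw [div_mul_eq_mul_div, div_le_iff₀ (by norm_num)]
    linarith
  · push Not at hpiv
    have ha2 : (r / (r - 1) : ℝ) ≤ 2 := by
      rw [div_le_iff₀ (by linarith)]
      linarith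
    have hLa : log (n : ℝ) ^ (r / (r - 1) : ℝ) ≤ log n ^ 2 := by
      have := rpow_le_rpow_of_exponent_le (by linarith : 1 ≤ log (n : ℝ)) ha2
      have e : log (n : ℝ) ^ (2 : ℝ) = log n ^ 2 := by
        rw [← rpow_natCast]
        norm_num
      rwa [e] at this
    have h7 : ε / 2 / (4 * 12800 ^ 2 * 289) * log (n : ℝ) ^ (r / (r - 1) : ℝ) ≤
        1 * log (n : ℝ) ^ (r / (r - 1) : ℝ) := by
      refine mul_le_mul_of_nonneg_right ?_ hLa0.le
      rw [div_le_iff₀ (by norm_num)]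
      linarith
    linarith

end P063
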