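import Vale.Agent.P063.MI

/-!
# P063 : module F, subadditivity of the entropy and splitting of the coordinates
-/

namespace P063

open Finset Real

variable {E : Type} [Fintype E] [DecidableEq E] {p : ℝ}

namespace EntAux

/-- sums over the subsets of a disjoint union -/
theorem sum_powerset_union {K K' : Finset E} (hd : Disjoint K K') (q : Finset E → ℝ) :
    ∑ T ∈ (K ∪ K').powerset, q T = ∑ T ∈ K.powerset, ∑ T' ∈ K'.powerset, q (T ∪ T') := by
  rw [← sum_product']
  symm
  refine sum_bij' (fun a _ => a.1 ∪ a.2) (fun T _ => (T ∩ K, T ∩ K')) ?_ ?_ ?_ ?_ ?_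
  · intro a ha
    rw [mem_product] at ha
    exact mem_powerset.mpr (union_subset_union (mem_powerset.mp ha.1) (mem_powerset.mp ha.2))
  · intro T _
    exact mem_product.mpr ⟨mem_powerset.mpr inter_subset_right,
      mem_powerset.mpr inter_subset_right⟩
  · intro a ha
    rw [mem_product] at ha
    have h1 := mem_powerset.mp ha.1
    have h2 := mem_powerset.mp ha.2
    refine Prod.ext (Finset.ext fun y => ?_) (Finset.ext fun y => ?_)
    · simp only [mem_inter, mem_union]
      constructor
      · rintro ⟨h | h, hy⟩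
        · exact h
        · exact absurd (h2 h) (disjoint_left.mp hd hy)
      · intro h
        exact ⟨Or.inl h, h1 h⟩
    · simp only [mem_inter, mem_union]
      constructor
      · rintro ⟨h | h, hy⟩
        · exact absurd hy (disjoint_left.mp hd (h1 h))
        · exact h
      · intro h
        exact ⟨Or.inr h, h2 h⟩
  · intro T hT
    have h1 := mem_powerset.mp hT
    ext y
    simp only [mem_inter, mem_union]
    constructor
    · tauto
    · intro h
      have := mem_union.mp (h1 h)
      tauto
  · intro a _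
    rfl

/-- Gibbs -/
theorem gibbs {q a b M : ℝ} (hq : 0 ≤ q) (ha : q ≤ a) (hb : q ≤ b) (hM : a ≤ M) :
    -(q * log q) + -(q * log M) ≤ -(q * log a) + -(q * log b) + (a * b / M - q) := by
  rcases hq.eq_or_lt with h | h
  · rw [← h]
    have h1 : 0 ≤ a * b / M := div_nonneg (mul_nonneg (by linarith) (by linarith)) (by linarith)
    simpa using h1
  · have a0 : 0 < a := by linarith
    have b0 : 0 < b := by linarith
    have M0 : 0 < M := by linarith
    have h1 := log_le_sub_one_of_pos (show 0 < a * b / (M * q) by positivity)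
    rw [log_div (by positivity) (by positivity), log_mul a0.ne' b0.ne',
      log_mul M0.ne' h.ne'] at h1
    have h2 := mul_le_mul_of_nonneg_left h1 h.le
    have h3 : q * (a * b / (M * q) - 1) = a * b / M - q := by
      field_simp
    rw [h3] at h2
    linarith

end EntAux

open EntAux

/-- subadditivity of the entropy -/
theorem submod {K K' : Finset E} (hd : Disjoint K K') (q : Finset E → ℝ) (hq : ∀ T, 0 ≤ q T) :
    ∑ T ∈ (K ∪ K').powerset, negMulLog (q T) + negMulLog (∑ T ∈ (K ∪ K').powerset, q T) ≤
      ∑ T ∈ K.powerset, negMulLog (∑ T' ∈ K'.powerset, q (T ∪ T')) +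
        ∑ T' ∈ K'.powerset, negMulLog (∑ T ∈ K.powerset, q (T ∪ T')) := by
  rw [sum_powerset_union hd, sum_powerset_union hd]
  set a : Finset E → ℝ := fun T => ∑ T' ∈ K'.powerset, q (T ∪ T') with ha
  set b : Finset E → ℝ := fun T' => ∑ T ∈ K.powerset, q (T ∪ T') with hb
  set M : ℝ := ∑ T ∈ K.powerset, ∑ T' ∈ K'.powerset, q (T ∪ T') with hM
  have hab : ∑ T' ∈ K'.powerset, b T' = M := by
    rw [hM, sum_comm]
  have a0 : ∀ T, 0 ≤ a T := fun T => sum_nonneg fun _ _ => hq _
  have key : ∑ T ∈ K.powerset, ∑ T' ∈ K'.powerset, (-(q (T ∪ T') * log (q (T ∪ T'))) +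
      -(q (T ∪ T') * log M)) ≤ ∑ T ∈ K.powerset, ∑ T' ∈ K'.powerset,
        (-(q (T ∪ T') * log (a T)) + -(q (T ∪ T') * log (b T')) +
          (a T * b T' / M - q (T ∪ T'))) := by
    refine sum_le_sum fun T hT => sum_le_sum fun T' hT' => gibbs (hq _) ?_ ?_ ?_
    · exact single_le_sum (f := fun T' => q (T ∪ T')) (fun _ _ => hq _) hT'
    · exact single_le_sum (f := fun T => q (T ∪ T')) (fun _ _ => hq _) hT
    · exact single_le_sum (f := a) (fun _ _ => a0 _) hT
  have e1 : ∑ T ∈ K.powerset, ∑ T' ∈ K'.powerset, (-(q (T ∪ T') * log (q (T ∪ T'))) +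
      -(q (T ∪ T') * log M)) = ∑ T ∈ K.powerset, ∑ T' ∈ K'.powerset, negMulLog (q (T ∪ T')) +
        negMulLog M := by
    have e2 : negMulLog M = ∑ T ∈ K.powerset, ∑ T' ∈ K'.powerset, -(q (T ∪ T') * log M) := by
      simp_rw [sum_neg_distrib, ← sum_mul]
      unfold negMulLog
      rw [← hM]
      ring
    rw [e2, ← sum_add_distrib]
    refine sum_congr rfl fun T _ => ?_
    rw [← sum_add_distrib]
    refine sum_congr rfl fun T' _ => ?_
    unfold negMulLog
    ring
  have e3 : ∑ T ∈ K.powerset, ∑ T' ∈ K'.powerset,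
        (-(q (T ∪ T') * log (a T)) + -(q (T ∪ T') * log (b T')) +
          (a T * b T' / M - q (T ∪ T'))) = ∑ T ∈ K.powerset, negMulLog (a T) +
        ∑ T' ∈ K'.powerset, negMulLog (b T') := by
    simp_rw [sum_add_distrib]
    have f1 : ∑ T ∈ K.powerset, ∑ T' ∈ K'.powerset, -(q (T ∪ T') * log (a T)) =
        ∑ T ∈ K.powerset, negMulLog (a T) := by
      refine sum_congr rfl fun T _ => ?_
      rw [sum_neg_distrib, ← sum_mul]
      unfold negMulLog
      rw [← neg_mul]
    have f2 : ∑ T ∈ K.powerset, ∑ T' ∈ K'.powerset, -(q (T ∪ T') * log (b T')) =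
        ∑ T' ∈ K'.powerset, negMulLog (b T') := by
      rw [sum_comm]
      refine sum_congr rfl fun T' _ => ?_
      rw [sum_neg_distrib, ← sum_mul]
      unfold negMulLog
      rw [← neg_mul]
    have f3 : ∑ T ∈ K.powerset, ∑ T' ∈ K'.powerset, (a T * b T' / M - q (T ∪ T')) = 0 := by
      simp_rw [sum_sub_distrib]
      rw [← hM]
      have g1 : ∑ T ∈ K.powerset, ∑ T' ∈ K'.powerset, a T * b T' / M =
          (∑ T ∈ K.powerset, a T) * (∑ T' ∈ K'.powerset, b T') / M := by
        rw [sum_mul_sum, sum_div]
        refine sum_congr rfl fun T _ => ?_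
        rw [sum_div]
      have g2 : ∑ T ∈ K.powerset, a T = M := rfl
      rw [g1, g2, hab]
      by_cases hM0 : M = 0
      · rw [hM0]
        simp
      · field_simp
        ring
    rw [f1, f2, f3, add_zero]
  rw [e1, e3] at key
  exact key

theorem halving (h0 : 0 < p) (h1 : p < 1) {c : Finset E → ℝ} {K K' : Finset E}
    (hd : Disjoint K K') :
    psi p c (K ∪ K') ≤ psi p c K + psi p c K' + cp p * infl c (K ∪ K') := by
  have hs : (K ∪ K') \ K = K' := by
    rw [union_sdiff_left, sdiff_eq_self_of_disjoint hd.symm]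
  have hs' : (K ∪ K') \ K' = K := by
    rw [union_sdiff_right, sdiff_eq_self_of_disjoint hd]
  have main : Phi p c (K ∪ K') (K ∪ K') + Phi p c (K ∪ K') ∅ ≤
      Phi p c (K ∪ K') K + Phi p c (K ∪ K') K' := by
    unfold Phi
    rw [← Ex_add, ← Ex_add]
    refine Ex_mono h0 h1 fun x => ?_
    have h2 := submod hd (fun T => G p c (K ∪ K') T x ^ 2) fun _ => sq_nonneg _
    have e1 : ∀ T, Q p c (K ∪ K') (K ∪ K') T x = G p c (K ∪ K') T x ^ 2 := fun T => by
      unfold Q
      rw [sdiff_self, bot_eq_empty, powerset_empty, sum_singleton, union_empty]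
    have e2 : ∑ T ∈ (∅ : Finset E).powerset, negMulLog (Q p c (K ∪ K') ∅ T x) =
        negMulLog (∑ T ∈ (K ∪ K').powerset, G p c (K ∪ K') T x ^ 2) := by
      rw [powerset_empty, sum_singleton]
      unfold Q
      rw [sdiff_empty]
      simp only [empty_union]
    have e3 : ∀ T, Q p c (K ∪ K') K T x = ∑ T' ∈ K'.powerset, G p c (K ∪ K') (T ∪ T') x ^ 2 :=
      fun T => by
        unfold Q
        rw [hs]
    have e4 : ∀ T', Q p c (K ∪ K') K' T' x = ∑ T ∈ K.powerset, G p c (K ∪ K') (T ∪ T') x ^ 2 :=
      fun T' => by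
        unfold Q
        rw [hs']
        simp_rw [union_comm T']
    rw [e2]
    simp_rw [e1, e3, e4]
    exact h2
  have m1 := MI h0 h1 (c := c) (J := K ∪ K') (K := K) subset_union_left
  have m2 := MI h0 h1 (c := c) (J := K ∪ K') (K := K') subset_union_right
  rw [hs] at m1
  rw [hs'] at m2
  have n1 := Phi_mono h0 h1 (c := c) (J := K ∪ K') (J' := K) (K := ∅) (empty_subset _)
    subset_union_left
  have n2 := Phi_mono h0 h1 (c := c) (J := K ∪ K') (J' := K') (K := ∅) (empty_subset _)
    subset_union_right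
  rw [infl_union hd, mul_add]
  unfold psi
  linarith

theorem levels (h0 : 0 < p) (h1 : p < 1) {c : Finset E → ℝ} (m : ℕ) (χ : E → ℕ) (J : Finset E)
    (hχ : ∀ e ∈ J, χ e < 2 ^ m) :
    psi p c J ≤ ∑ v ∈ range (2 ^ m), psi p c (J.filter fun e => χ e = v) +
      cp p * m * infl c J := by
  induction m generalizing χ J with
  | zero =>
    have e1 : J.filter (fun e => χ e = 0) = J := by
      rw [filter_eq_self]
      intro e he
      have := hχ e he
      omega
    simp [e1]
  | succ m ih =>
    set K : Finset E := J.filter fun e => χ e < 2 ^ m with hK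
    set K' : Finset E := J.filter fun e => ¬ χ e < 2 ^ m with hK'
    have hd : Disjoint K K' := disjoint_filter_filter_not _ _ _
    have hJ : K ∪ K' = J := filter_union_filter_not_eq _ _
    have h2 := halving h0 h1 (c := c) hd
    have h3 := ih χ K fun e he => (mem_filter.mp he).2
    have h4 := ih (fun e => χ e - 2 ^ m) K' fun e he => by
      have := mem_filter.mp he
      have h5 := hχ e this.1
      have h6 := this.2
      rw [pow_succ] at h5
      omega
    have e1 : ∀ v ∈ range (2 ^ m), psi p c (K.filter fun e => χ e = v) =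
        psi p c (J.filter fun e => χ e = v) := fun v hv => by
      have : K.filter (fun e => χ e = v) = J.filter fun e => χ e = v := by
        ext e
        simp only [hK, mem_filter, mem_range] at hv ⊢
        constructor
        · tauto
        · rintro ⟨a, b⟩
          exact ⟨⟨a, by omega⟩, b⟩
      rw [this]
    have e2 : ∀ v ∈ range (2 ^ m), psi p c (K'.filter fun e => χ e - 2 ^ m = v) =
        psi p c (J.filter fun e => χ e = 2 ^ m + v) := fun v hv => by
      have : K'.filter (fun e => χ e - 2 ^ m = v) = J.filter fun e => χ e = 2 ^ m + v := by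
        ext e
        simp only [hK', mem_filter, mem_range] at hv ⊢
        constructor
        · rintro ⟨⟨a, b⟩, h⟩
          exact ⟨a, by omega⟩
        · rintro ⟨a, b⟩
          exact ⟨⟨a, by omega⟩, by omega⟩
      rw [this]
    rw [sum_congr rfl e1] at h3
    rw [sum_congr rfl e2] at h4
    have e3 : ∑ v ∈ range (2 ^ (m + 1)), psi p c (J.filter fun e => χ e = v) =
        ∑ v ∈ range (2 ^ m), psi p c (J.filter fun e => χ e = v) +
          ∑ v ∈ range (2 ^ m), psi p c (J.filter fun e => χ e = 2 ^ m + v) := by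
      rw [pow_succ, mul_two, sum_range_add]
    have e4 : infl c J = infl c K + infl c K' := by
      rw [← hJ, infl_union hd]
    rw [hJ] at h2
    rw [e3]
    push_cast
    rw [e4] at h2 ⊢
    nlinarith

theorem top (h0 : 0 < p) (h1 : p < 1) {c : Finset E → ℝ} (J : Finset E) :
    ∑ T ∈ J.powerset, negMulLog (∑ S with S ∩ J = T, c S ^ 2) ≤
      psi p c J + 1 + cp p * infl c univ := by
  have hG : ∀ T x, G p c univ T x = c T := fun T x => by
    unfold G
    have : (univ.filter fun S : Finset E => S ∩ univ = T) = {T} := by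
      ext S
      simp
    rw [this, sum_singleton, sdiff_eq_empty_iff_subset.mpr (subset_univ _)]
    unfold phS
    rw [prod_empty, mul_one]
  have hQ : ∀ T ∈ J.powerset, ∀ x, Q p c univ J T x = ∑ S with S ∩ J = T, c S ^ 2 := by
    intro T hT x
    rw [mem_powerset] at hT
    unfold Q
    simp_rw [hG]
    symm
    refine sum_bij' (fun S _ => S \ J) (fun T' _ => T ∪ T') ?_ ?_ ?_ ?_ ?_
    · intro S _
      exact mem_powerset.mpr (sdiff_subset_sdiff (subset_univ _) le_rfl)
    · intro T' hT'
      rw [mem_powerset] at hT'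
      rw [mem_filter]
      refine ⟨mem_univ _, ?_⟩
      ext y
      simp only [mem_inter, mem_union]
      constructor
      · rintro ⟨h | h, hy⟩
        · exact h
        · exact absurd hy (mem_sdiff.mp (hT' h)).2
      · intro h
        exact ⟨Or.inl h, hT h⟩
    · intro S hS
      have h2 := (mem_filter.mp hS).2
      rw [← h2, union_comm, sdiff_union_inter]
    · intro T' hT'
      rw [mem_powerset] at hT'
      ext y
      simp only [mem_sdiff, mem_union]
      constructor
      · rintro ⟨h | h, hy⟩
        · exact absurd (hT h) hy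
        · exact h
      · intro h
        exact ⟨Or.inr h, (mem_sdiff.mp (hT' h)).2⟩
    · intro S hS
      have h2 := (mem_filter.mp hS).2
      have : T ∪ S \ J = S := by rw [← h2, union_comm, sdiff_union_inter]
      rw [this]
  have e1 : Phi p c univ J = ∑ T ∈ J.powerset, negMulLog (∑ S with S ∩ J = T, c S ^ 2) := by
    unfold Phi
    have : (fun x : E → Bool => ∑ T ∈ J.powerset, negMulLog (Q p c univ J T x)) =
        fun _ => (∑ T ∈ J.powerset, negMulLog (∑ S with S ∩ J = T, c S ^ 2)) * 1 := by
      funext x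
      rw [mul_one]
      exact sum_congr rfl fun T hT => by rw [hQ T hT x]
    rw [this, Ex_const_mul, Ex_one, mul_one]
  have h2 := MI h0 h1 (c := c) (J := univ) (K := J) (subset_univ _)
  have h3 : Phi p c J ∅ ≤ 1 := by
    have h4 : Phi p c J ∅ ≤ Ex p fun _ : E → Bool => 1 := by
      unfold Phi
      refine Ex_mono h0 h1 fun x => ?_
      rw [powerset_empty, sum_singleton]
      have h5 : 0 ≤ Q p c J ∅ ∅ x := sum_nonneg fun _ _ => sq_nonneg _
      unfold negMulLog
      rcases h5.eq_or_lt with h6 | h6
      · rw [← h6]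
        simp
      · have h7 := one_sub_inv_le_log_of_pos h6
        have h8 := mul_le_mul_of_nonneg_left h7 h5
        have h9 : Q p c J ∅ ∅ x * (1 - (Q p c J ∅ ∅ x)⁻¹) = Q p c J ∅ ∅ x - 1 := by
          field_simp
        rw [h9] at h8
        linarith
    rwa [Ex_one] at h4
  have h4 : cp p * infl c (univ \ J) ≤ cp p * infl c univ :=
    mul_le_mul_of_nonneg_left (infl_mono (subset_univ _)) (cp_pos h0 h1).le
  rw [← e1]
  unfold psi
  linarith

end P063
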