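import Vale.Agent.P063.Defs

/-!
# P063 : linearity and monotonicity of the expectation
-/

namespace P063

open Finset

variable {E : Type} [Fintype E] [DecidableEq E] {p : ℝ}

theorem wt_nonneg (h0 : 0 < p) (h1 : p < 1) (x : E → Bool) : 0 ≤ wt p x := by
  unfold wt
  refine prod_nonneg fun e _ => ?_
  split_ifs <;> linarith

theorem wt_pos (h0 : 0 < p) (h1 : p < 1) (x : E → Bool) : 0 < wt p x := by
  unfold wt
  refine prod_pos fun e _ => ?_
  split_ifs <;> linarith

theorem Ex_mono (h0 : 0 < p) (h1 : p < 1) {f g : (E → Bool) → ℝ} (h : ∀ x, f x ≤ g x) :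
    Ex p f ≤ Ex p g :=
  sum_le_sum fun x _ => mul_le_mul_of_nonneg_left (h x) (wt_nonneg h0 h1 x)

theorem Ex_nonneg (h0 : 0 < p) (h1 : p < 1) {f : (E → Bool) → ℝ} (h : ∀ x, 0 ≤ f x) :
    0 ≤ Ex p f :=
  sum_nonneg fun x _ => mul_nonneg (wt_nonneg h0 h1 x) (h x)

theorem Ex_add (f g : (E → Bool) → ℝ) : Ex p (fun x => f x + g x) = Ex p f + Ex p g := by
  unfold Ex
  rw [← sum_add_distrib]
  exact sum_congr rfl fun x _ => by ring

theorem Ex_sub (f g : (E → Bool) → ℝ) : Ex p (fun x => f x - g x) = Ex p f - Ex p g := by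
  unfold Ex
  rw [← sum_sub_distrib]
  exact sum_congr rfl fun x _ => by ring

theorem Ex_const_mul (a : ℝ) (f : (E → Bool) → ℝ) : Ex p (fun x => a * f x) = a * Ex p f := by
  unfold Ex
  rw [mul_sum]
  exact sum_congr rfl fun x _ => by ring

theorem Ex_sum {ι : Type*} (s : Finset ι) (f : ι → (E → Bool) → ℝ) :
    Ex p (fun x => ∑ i ∈ s, f i x) = ∑ i ∈ s, Ex p (f i) := by
  unfold Ex
  rw [sum_comm]
  exact sum_congr rfl fun x _ => by rw [mul_sum]

theorem Ex_congr {f g : (E → Bool) → ℝ} (h : ∀ x, f x = g x) : Ex p f = Ex p g := by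
  have : f = g := funext h
  rw [this]

theorem infl_nonneg (c : Finset E → ℝ) (J : Finset E) : 0 ≤ infl c J :=
  sum_nonneg fun S _ => by positivity

theorem infl_union {c : Finset E → ℝ} {J K : Finset E} (h : Disjoint J K) :
    infl c (J ∪ K) = infl c J + infl c K := by
  unfold infl
  rw [← sum_add_distrib]
  refine sum_congr rfl fun S _ => ?_
  rw [inter_union_distrib_left, card_union_of_disjoint]
  · push_cast
    ring
  · exact h.mono inter_subset_right inter_subset_right

theorem infl_mono {c : Finset E → ℝ} {J K : Finset E} (h : J ⊆ K) : infl c J ≤ infl c K := by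
  refine sum_le_sum fun S _ => mul_le_mul_of_nonneg_right ?_ (sq_nonneg _)
  exact_mod_cast card_le_card (inter_subset_inter_left h)

theorem infl_single (c : Finset E → ℝ) (e : E) : infl c {e} = ∑ S with e ∈ S, c S ^ 2 := by
  unfold infl
  rw [sum_filter]
  refine sum_congr rfl fun S _ => ?_
  by_cases h : e ∈ S
  · rw [inter_singleton_of_mem h, if_pos h]
    simp
  · rw [inter_singleton_of_notMem h, if_neg h]
    simp

theorem cp_pos (h0 : 0 < p) (h1 : p < 1) : 0 < cp p := by
  have hq : 0 < min p (1 - p) := lt_min h0 (by linarith)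
  have : 0 ≤ Real.log (2 + 2 / min p (1 - p)) := Real.log_nonneg (by
    have : 0 < 2 / min p (1 - p) := by positivity
    linarith)
  unfold cp
  linarith

end P063
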