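import Vale.Agent.P063.TwoPt
import Vale.Agent.P063.ExLin
import Vale.Agent.P063.Cube
import Vale.Agent.P063.Split

/-!
# P063 : module D, mutual information
-/

namespace P063

open Finset Real

variable {E : Type} [Fintype E] [DecidableEq E] {p : ℝ}

namespace MIaux

theorem Q_nonneg (c : Finset E → ℝ) (J K T : Finset E) (x : E → Bool) : 0 ≤ Q p c J K T x :=
  sum_nonneg fun _ _ => sq_nonneg _

theorem sdiff_eq {J K : Finset E} {e : E} (he : e ∈ J) (heK : e ∉ K) :
    J \ K = insert e (J.erase e \ K) := by
  ext a
  simp only [mem_sdiff, mem_insert, mem_erase]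
  by_cases h : a = e
  · subst h
    simp [he, heK]
  · simp [h]

theorem notMem_sdiff {J K : Finset E} {e : E} : e ∉ J.erase e \ K := by
  simp

/-- the law of the trace, when the coordinate `e` is measured in the Fourier basis -/
theorem Q_eq {c : Finset E → ℝ} {J K T : Finset E} {e : E} (he : e ∈ J) (heK : e ∉ K)
    (x : E → Bool) : Q p c J K T x = ∑ T' ∈ (J.erase e \ K).powerset,
      (G p c J (T ∪ T') x ^ 2 + G p c J (insert e (T ∪ T')) x ^ 2) := by
  unfold Q
  rw [sdiff_eq he heK, sum_powerset_insert notMem_sdiff, ← sum_add_distrib]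
  refine sum_congr rfl fun T' _ => ?_
  rw [union_insert]

/-- the law of the trace, when the coordinate `e` is known -/
theorem Q_upd {c : Finset E → ℝ} {J K T : Finset E} {e : E} (he : e ∈ J) (heK : e ∉ K)
    (hK : K ⊆ J) (hT : T ⊆ K) (x : E → Bool) (b : Bool) :
    Q p c (J.erase e) K T (Function.update x e b) = ∑ T' ∈ (J.erase e \ K).powerset,
      (G p c J (T ∪ T') x + G p c J (insert e (T ∪ T')) x * ph p b) ^ 2 := by
  unfold Q
  refine sum_congr rfl fun T' hT' => ?_
  have hsub : T ∪ T' ⊆ J.erase e := by
    refine union_subset (fun a ha => mem_erase.mpr ⟨?_, hK (hT ha)⟩) ?_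
    · rintro rfl
      exact heK (hT ha)
    · exact (mem_powerset.mp hT').trans sdiff_subset
  rw [G_split he hsub, G_update he, G_update he, Function.update_self]

theorem Phi_erase {c : Finset E → ℝ} {J K : Finset E} {e : E} :
    Phi p c (J.erase e) K = Ex p fun x => p * ∑ T ∈ K.powerset, negMulLog
      (Q p c (J.erase e) K T (Function.update x e true)) + (1 - p) * ∑ T ∈ K.powerset, negMulLog
      (Q p c (J.erase e) K T (Function.update x e false)) := by
  unfold Phi
  rw [Ex_avg e]

theorem step (h0 : 0 < p) (h1 : p < 1) {c : Finset E → ℝ} {J K : Finset E} (hK : K ⊆ J) {e : E}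
    (he : e ∈ J) (heK : e ∉ K) :
    Phi p c J K ≤ Phi p c (J.erase e) K + cp p * infl c {e} := by
  have e1 : ∑ T ∈ K.powerset, ∑ T' ∈ (J.erase e \ K).powerset,
      Ex p (fun x => G p c J (insert e (T ∪ T')) x ^ 2) = infl c {e} := by
    rw [infl_single]
    simp_rw [Ex_G_sq h0 h1]
    rw [← sum_product', ← sum_biUnion]
    · refine sum_congr ?_ fun _ _ => rfl
      ext S
      simp only [mem_biUnion, mem_product, mem_powerset, mem_filter, mem_univ, true_and,
        Prod.exists]
      constructor
      · rintro ⟨T, T', _, h⟩
        have : e ∈ S ∩ J := by rw [h]; exact mem_insert_self _ _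
        exact (mem_inter.mp this).1
      · intro heS
        refine ⟨S ∩ K, (S ∩ J).erase e \ K, ⟨inter_subset_right, ?_⟩, ?_⟩
        · intro a ha
          simp only [mem_sdiff, mem_erase, mem_inter] at ha ⊢
          tauto
        · ext a
          simp only [mem_insert, mem_union, mem_inter, mem_sdiff, mem_erase]
          by_cases hae : a = e
          · subst hae
            simp [heS, he]
          · by_cases haK : a ∈ K
            · have := hK haK
              tauto
            · tauto
    · intro a ha b hb hab
      rw [Function.onFun, disjoint_left]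
      intro S hS hS'
      apply hab
      rw [mem_coe, mem_product] at ha hb
      have ha1 := mem_powerset.mp ha.1
      have ha2 := mem_powerset.mp ha.2
      have hb1 := mem_powerset.mp hb.1
      have hb2 := mem_powerset.mp hb.2
      have h3 := (mem_filter.mp hS).2
      have h4 := (mem_filter.mp hS').2
      rw [h3] at h4
      have key : ∀ y, (y = e ∨ y ∈ a.1 ∨ y ∈ a.2) ↔ (y = e ∨ y ∈ b.1 ∨ y ∈ b.2) := fun y => by
        have := Finset.ext_iff.mp h4 y
        simpa only [mem_insert, mem_union] using this
      refine Prod.ext (Finset.ext fun y => ?_) (Finset.ext fun y => ?_)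
      · constructor
        · intro hy
          have hyK := ha1 hy
          have hye : y ≠ e := fun h => heK (h ▸ hyK)
          rcases (key y).mp (Or.inr (Or.inl hy)) with h | h | h
          · exact absurd h hye
          · exact h
          · exact absurd hyK (mem_sdiff.mp (hb2 h)).2
        · intro hy
          have hyK := hb1 hy
          have hye : y ≠ e := fun h => heK (h ▸ hyK)
          rcases (key y).mpr (Or.inr (Or.inl hy)) with h | h | h
          · exact absurd h hye
          · exact h
          · exact absurd hyK (mem_sdiff.mp (ha2 h)).2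
      · constructor
        · intro hy
          have h5 := mem_sdiff.mp (ha2 hy)
          have hye : y ≠ e := (mem_erase.mp h5.1).1
          rcases (key y).mp (Or.inr (Or.inr hy)) with h | h | h
          · exact absurd h hye
          · exact absurd (hb1 h) h5.2
          · exact h
        · intro hy
          have h5 := mem_sdiff.mp (hb2 hy)
          have hye : y ≠ e := (mem_erase.mp h5.1).1
          rcases (key y).mpr (Or.inr (Or.inr hy)) with h | h | h
          · exact absurd h hye
          · exact absurd (ha1 h) h5.2
          · exact h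
  rw [Phi_erase, ← e1, mul_sum]
  have e2 : ∑ T ∈ K.powerset, cp p * ∑ T' ∈ (J.erase e \ K).powerset,
      Ex p (fun x => G p c J (insert e (T ∪ T')) x ^ 2) =
      Ex p fun x => ∑ T ∈ K.powerset, cp p * ∑ T' ∈ (J.erase e \ K).powerset,
        G p c J (insert e (T ∪ T')) x ^ 2 := by
    rw [Ex_sum]
    refine sum_congr rfl fun T _ => ?_
    rw [Ex_const_mul, Ex_sum]
  rw [e2, ← Ex_add]
  refine Ex_mono h0 h1 fun x => ?_
  rw [mul_sum, mul_sum, ← sum_add_distrib, ← sum_add_distrib]
  refine sum_le_sum fun T hT => ?_
  rw [Q_upd he heK hK (mem_powerset.mp hT), Q_upd he heK hK (mem_powerset.mp hT), Q_eq he heK]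
  exact two_point_sum h0 h1 _ _ _

theorem step_mono (h0 : 0 < p) (h1 : p < 1) {c : Finset E → ℝ} {J K : Finset E} (hK : K ⊆ J)
    {e : E} (he : e ∈ J) (heK : e ∉ K) : Phi p c (J.erase e) K ≤ Phi p c J K := by
  rw [Phi_erase]
  refine Ex_mono h0 h1 fun x => ?_
  rw [mul_sum, mul_sum, ← sum_add_distrib]
  refine sum_le_sum fun T hT => ?_
  refine (two_point_conc h0 h1 (Q_nonneg _ _ _ _ _) (Q_nonneg _ _ _ _ _)).trans (le_of_eq ?_)
  rw [Q_avg h0 h1 he heK hK (mem_powerset.mp hT)]

end MIaux

open MIaux

/-- mutual information between the Fourier part and the classical part -/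
theorem MI (h0 : 0 < p) (h1 : p < 1) {c : Finset E → ℝ} {J K : Finset E} (hK : K ⊆ J) :
    Phi p c J K ≤ Phi p c K K + cp p * infl c (J \ K) := by
  have key : ∀ D : Finset E, Disjoint K D →
      Phi p c (K ∪ D) K ≤ Phi p c K K + cp p * infl c D := by
    intro D
    induction D using Finset.induction_on with
    | empty =>
      intro _
      rw [union_empty]
      have := mul_nonneg (cp_pos h0 h1).le (infl_nonneg c (∅ : Finset E))
      linarith
    | insert e D heD ih =>
      intro hd
      rw [disjoint_insert_right] at hd
      have h2 := ih hd.2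
      have he : e ∈ K ∪ insert e D := mem_union_right _ (mem_insert_self _ _)
      have h3 := step h0 h1 (c := c) (J := K ∪ insert e D) (K := K) subset_union_left he hd.1
      have h4 : (K ∪ insert e D).erase e = K ∪ D := by
        ext a
        simp only [mem_erase, mem_union, mem_insert]
        constructor
        · tauto
        · rintro (h | h)
          · exact ⟨fun h' => hd.1 (h' ▸ h), Or.inl h⟩
          · exact ⟨fun h' => heD (h' ▸ h), Or.inr (Or.inr h)⟩
      rw [h4] at h3
      have h5 : infl c (insert e D) = infl c {e} + infl c D := by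
        rw [insert_eq, infl_union (disjoint_singleton_left.mpr heD)]
      rw [h5, mul_add]
      linarith
  have h2 := key (J \ K) disjoint_sdiff
  rwa [union_sdiff_of_subset hK] at h2

theorem Phi_mono (h0 : 0 < p) (h1 : p < 1) {c : Finset E → ℝ} {J J' K : Finset E} (hK : K ⊆ J')
    (hJ : J' ⊆ J) : Phi p c J' K ≤ Phi p c J K := by
  have key : ∀ D : Finset E, Disjoint J' D → Phi p c J' K ≤ Phi p c (J' ∪ D) K := by
    intro D
    induction D using Finset.induction_on with
    | empty =>
      intro _
      rw [union_empty]
    | insert e D heD ih =>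
      intro hd
      rw [disjoint_insert_right] at hd
      have h2 := ih hd.2
      have he : e ∈ J' ∪ insert e D := mem_union_right _ (mem_insert_self _ _)
      have h3 := step_mono h0 h1 (c := c) (J := J' ∪ insert e D) (K := K)
        (hK.trans subset_union_left) he fun h => hd.1 (hK h)
      have h4 : (J' ∪ insert e D).erase e = J' ∪ D := by
        ext a
        simp only [mem_erase, mem_union, mem_insert]
        constructor
        · tauto
        · rintro (h | h)
          · exact ⟨fun h' => hd.1 (h' ▸ h), Or.inl h⟩
          · exact ⟨fun h' => heD (h' ▸ h), Or.inr (Or.inr h)⟩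
      rw [h4] at h3
      exact h2.trans h3
  have h2 := key (J \ J') disjoint_sdiff
  rwa [union_sdiff_of_subset hJ] at h2

end P063
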