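import Vale.Agent.P063.Defs

/-!
# P063 : the normalized coordinate
-/

namespace P063

open Real

variable {p : ℝ}

theorem ph_true_sq (h0 : 0 < p) (h1 : p < 1) : ph p true ^ 2 = (1 - p) / p := by
  have : 0 ≤ (1 - p) / p := div_nonneg (by linarith) h0.le
  simp only [ph, if_true]
  exact Real.sq_sqrt this

theorem ph_false_sq (h0 : 0 < p) (h1 : p < 1) : ph p false ^ 2 = p / (1 - p) := by
  have : 0 ≤ p / (1 - p) := div_nonneg h0.le (by linarith)
  simp only [ph, Bool.false_eq_true, if_false, neg_sq]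
  exact Real.sq_sqrt this

theorem ph_mul (h0 : 0 < p) (h1 : p < 1) : ph p true * ph p false = -1 := by
  have h2 : 0 < 1 - p := by linarith
  simp only [ph, if_true, Bool.false_eq_true, if_false]
  rw [mul_neg, ← Real.sqrt_mul (div_nonneg h2.le h0.le)]
  have : (1 - p) / p * (p / (1 - p)) = 1 := by
    field_simp
  rw [this, Real.sqrt_one]

/-- mean zero -/
theorem ph_mean (h0 : 0 < p) (h1 : p < 1) : p * ph p true + (1 - p) * ph p false = 0 := by
  have h2 : 0 < 1 - p := by linarith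
  have hs : √p ≠ 0 := (Real.sqrt_pos.mpr h0).ne'
  have ht : √(1 - p) ≠ 0 := (Real.sqrt_pos.mpr h2).ne'
  simp only [ph, if_true, Bool.false_eq_true, if_false]
  rw [Real.sqrt_div h2.le, Real.sqrt_div h0.le]
  have e1 : p = √p * √p := (Real.mul_self_sqrt h0.le).symm
  have e2 : 1 - p = √(1 - p) * √(1 - p) := (Real.mul_self_sqrt h2.le).symm
  have e3 : p * (√(1 - p) / √p) = √p * √(1 - p) := by
    field_simp
    nlinarith [e1]
  have e4 : (1 - p) * (√p / √(1 - p)) = √p * √(1 - p) := by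
    field_simp
    nlinarith [e2]
  rw [mul_neg, e3, e4]
  ring

/-- variance one -/
theorem ph_var (h0 : 0 < p) (h1 : p < 1) : p * ph p true ^ 2 + (1 - p) * ph p false ^ 2 = 1 := by
  have h2 : (1 - p) ≠ 0 := by linarith
  rw [ph_true_sq h0 h1, ph_false_sq h0 h1]
  field_simp
  ring

/-- the square of `a + b * ph` has mean `a ^ 2 + b ^ 2` -/
theorem ph_sq_mean (h0 : 0 < p) (h1 : p < 1) (a b : ℝ) :
    p * (a + b * ph p true) ^ 2 + (1 - p) * (a + b * ph p false) ^ 2 = a ^ 2 + b ^ 2 := by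
  linear_combination (2 * a * b) * ph_mean h0 h1 + b ^ 2 * ph_var h0 h1

theorem ph_diff (h0 : 0 < p) (h1 : p < 1) :
    (ph p true - ph p false) * √(p * (1 - p)) = 1 := by
  have h2 : 0 < 1 - p := by linarith
  have hs : √p ≠ 0 := (Real.sqrt_pos.mpr h0).ne'
  have ht : √(1 - p) ≠ 0 := (Real.sqrt_pos.mpr h2).ne'
  simp only [ph, if_true, Bool.false_eq_true, if_false]
  rw [Real.sqrt_div h2.le, Real.sqrt_div h0.le, Real.sqrt_mul h0.le]
  have e1 : √p * √p = p := Real.mul_self_sqrt h0.le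
  have e2 : √(1 - p) * √(1 - p) = 1 - p := Real.mul_self_sqrt h2.le
  field_simp
  nlinarith [e1, e2]

end P063
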