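import Vale.Agent.P063.Defs

/-!
# P063 : module T, the Margulis-Russo formula
-/

namespace P063

open Finset Real

namespace RussoAux

variable {E : Type} [Fintype E] [DecidableEq E]

/-- flipping one coordinate -/
def flip (e : E) (x : E → Bool) : E → Bool := Function.update x e (!x e)

omit [Fintype E] in
lemma flip_flip (e : E) (x : E → Bool) : flip e (flip e x) = x := by
  funext j
  unfold flip
  by_cases h : j = e
  · subst h
    simp
  · simp [h]

/-- as an equivalence -/
def flipE (e : E) : (E → Bool) ≃ (E → Bool) where
  toFun := flip e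
  invFun := flip e
  left_inv := flip_flip e
  right_inv := flip_flip e

lemma sum_flip (e : E) (F : (E → Bool) → ℝ) : ∑ x, F (flip e x) = ∑ x, F x :=
  Equiv.sum_comp (flipE e) F

/-- the weight without the coordinate `e` -/
def wo (p : ℝ) (e : E) (x : E → Bool) : ℝ := ∏ j ∈ univ.erase e, if x j then p else 1 - p

lemma wo_flip (p : ℝ) (e : E) (x : E → Bool) : wo p e (flip e x) = wo p e x := by
  unfold wo
  apply Finset.prod_congr rfl
  intro j hj
  have : j ≠ e := (Finset.mem_erase.1 hj).1
  unfold flip
  rw [Function.update_of_ne this]

lemma wt_eq (p : ℝ) (e : E) (x : E → Bool) :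
    wt p x = (if x e then p else 1 - p) * wo p e x := by
  unfold wt wo
  rw [Finset.mul_prod_erase univ (fun j => if x j then p else 1 - p) (Finset.mem_univ e)]

/-- the sign -/
def sg (b : Bool) : ℝ := if b then 1 else -1

/-- the discrete derivative -/
def dd (f : (E → Bool) → ℝ) (e : E) (x : E → Bool) : ℝ :=
  f (Function.update x e true) - f (Function.update x e false)

omit [Fintype E] in
lemma update_flip (e : E) (x : E → Bool) (b : Bool) :
    Function.update (flip e x) e b = Function.update x e b := by
  unfold flip
  rw [Function.update_idem]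

omit [Fintype E] in
lemma dd_flip (f : (E → Bool) → ℝ) (e : E) (x : E → Bool) : dd f e (flip e x) = dd f e x := by
  unfold dd
  rw [update_flip, update_flip]

omit [Fintype E] in
lemma flip_apply (e : E) (x : E → Bool) : flip e x e = !x e := by
  unfold flip
  rw [Function.update_self]

omit [Fintype E] in
lemma sg_dd (f : (E → Bool) → ℝ) (e : E) (x : E → Bool) :
    sg (x e) * f x + sg (flip e x e) * f (flip e x) = dd f e x := by
  rw [flip_apply]
  unfold dd flip sg
  cases h : x e
  · have h1 : Function.update x e false = x := by
      rw [← h]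
      exact Function.update_eq_self e x
    rw [h1]
    simp
    ring
  · have h1 : Function.update x e true = x := by
      rw [← h]
      exact Function.update_eq_self e x
    rw [h1]
    simp
    ring

lemma one_coord (p : ℝ) (f : (E → Bool) → ℝ) (e : E) :
    ∑ x, wo p e x * sg (x e) * f x = ∑ x, wt p x * dd f e x := by
  have h1 : ∑ x, wo p e x * sg (x e) * f x + ∑ x, wo p e x * sg (x e) * f x =
      ∑ x, wo p e x * dd f e x := by
    conv_lhs =>
      enter [2]
      rw [← sum_flip e]
    rw [← Finset.sum_add_distrib]
    apply Finset.sum_congr rfl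
    intro x _
    rw [wo_flip, ← sg_dd]
    ring
  have h2 : ∑ x, wt p x * dd f e x + ∑ x, wt p x * dd f e x =
      ∑ x, wo p e x * dd f e x := by
    conv_lhs =>
      enter [2]
      rw [← sum_flip e]
    rw [← Finset.sum_add_distrib]
    apply Finset.sum_congr rfl
    intro x _
    rw [wt_eq p e x, wt_eq p e (flip e x), wo_flip, dd_flip, flip_apply]
    cases x e <;> simp <;> ring
  linarith

end RussoAux

open RussoAux

theorem russo {E : Type} [Fintype E] [DecidableEq E] {f : (E → Bool) → ℝ}
    (hf : ∀ x y : E → Bool, x ≤ y → f x ≤ f y) (p : ℝ) :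
    HasDerivAt (fun p => Ex p f) (∑ e, piv p f e) p := by
  have h1 : ∀ x : E → Bool, HasDerivAt (fun p : ℝ => wt p x)
      (∑ e, wo p e x * sg (x e)) p := by
    intro x
    have h2 : ∀ e ∈ (univ : Finset E), HasDerivAt (fun p : ℝ => if x e then p else 1 - p)
        (sg (x e)) p := by
      intro e _
      cases x e
      · simpa [sg] using (hasDerivAt_id' p).const_sub 1
      · simpa [sg] using hasDerivAt_id' p
    have h3 := HasDerivAt.fun_finsetProd h2
    simpa [wt, wo, smul_eq_mul] using h3
  have h2 : HasDerivAt (fun p => Ex p f) (∑ x, (∑ e, wo p e x * sg (x e)) * f x) p := by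
    unfold Ex
    exact HasDerivAt.fun_sum fun x _ => (h1 x).mul_const (f x)
  have e1 : ∑ x, (∑ e, wo p e x * sg (x e)) * f x = ∑ e, piv p f e := by
    simp_rw [Finset.sum_mul]
    rw [Finset.sum_comm]
    apply Finset.sum_congr rfl
    intro e _
    rw [one_coord]
    unfold piv Ex
    apply Finset.sum_congr rfl
    intro x _
    congr 1
    show dd f e x = |f (Function.update x e true) - f (Function.update x e false)|
    rw [abs_of_nonneg]
    · rfl
    · rw [sub_nonneg]
      apply hf
      intro j
      by_cases hj : j = e
      · subst hj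
        rw [Function.update_self, Function.update_self]
        exact Bool.false_le _
      · rw [Function.update_of_ne hj, Function.update_of_ne hj]
  rw [← e1]
  exact h2

end P063
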