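import Vale.Agent.P063.Defs

/-!
# P063 : module L, the symmetry of the spectral law
-/

namespace P063

open Finset Real

namespace SymAux

variable {n r : ℕ}

lemma mem_act {τ : Equiv.Perm (Fin n)} {e : Edge n r} {a : Fin n} :
    a ∈ (act τ e).1 ↔ ∃ b ∈ e.1, τ b = a := by
  show a ∈ e.1.map τ.toEmbedding ↔ _
  rw [Finset.mem_map]
  rfl

lemma mem_VS {S : Finset (Edge n r)} {a : Fin n} : a ∈ VS S ↔ ∃ e ∈ S, a ∈ e.1 := by
  simp [VS]

lemma VS_mono {S T : Finset (Edge n r)} (h : T ⊆ S) : VS T ⊆ VS S := by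
  intro a ha
  obtain ⟨e, he, hae⟩ := mem_VS.1 ha
  exact mem_VS.2 ⟨e, h he, hae⟩

/-- vertices of the image -/
lemma VS_map (τ : Equiv.Perm (Fin n)) (T : Finset (Edge n r)) :
    VS (T.map (act τ).toEmbedding) = (VS T).map τ.toEmbedding := by
  ext a
  rw [mem_VS, Finset.mem_map]
  constructor
  · rintro ⟨e, he, hae⟩
    rw [Finset.mem_map] at he
    obtain ⟨e', he', rfl⟩ := he
    obtain ⟨b, hb, hba⟩ := mem_act.1 hae
    exact ⟨b, mem_VS.2 ⟨e', he', hb⟩, hba⟩
  · rintro ⟨b, hb, hba⟩
    obtain ⟨e, he, hbe⟩ := mem_VS.1 hb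
    exact ⟨act τ e, Finset.mem_map_of_mem _ he, mem_act.2 ⟨b, hbe, hba⟩⟩

/-- a permutation sends a set to any set of the same size -/
lemma exists_perm {V W : Finset (Fin n)} (h : V.card = W.card) :
    ∃ τ : Equiv.Perm (Fin n), V.map τ.toEmbedding = W := by
  classical
  let e : {x // x ∈ V} ≃ {x // x ∈ W} := Finset.equivOfCardEq h
  refine ⟨e.extendSubtype, ?_⟩
  apply Finset.eq_of_subset_of_card_le
  · intro a ha
    rw [Finset.mem_map] at ha
    obtain ⟨b, hb, rfl⟩ := ha
    exact e.extendSubtype_mem b hb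
  · rw [card_map]
    exact h.ge

lemma desc_le {v n : ℕ} (h : v ≤ n) (k : ℕ) :
    v.descFactorial k * n ^ k ≤ v ^ k * n.descFactorial k := by
  induction k with
  | zero => simp
  | succ k ih =>
    rw [Nat.descFactorial_succ, Nat.descFactorial_succ, pow_succ, pow_succ]
    have h1 : (v - k) * n ≤ v * (n - k) := by
      rcases le_total v k with hk | hk
      · rw [Nat.sub_eq_zero_of_le hk]
        simp
      · obtain ⟨a, rfl⟩ := Nat.exists_eq_add_of_le hk
        obtain ⟨b, rfl⟩ := Nat.exists_eq_add_of_le h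
        have e1 : k + a - k = a := by omega
        have e2 : k + a + b - k = a + b := by omega
        rw [e1, e2]
        nlinarith
    calc (v - k) * v.descFactorial k * (n ^ k * n) =
        ((v - k) * n) * (v.descFactorial k * n ^ k) := by ring
      _ ≤ (v * (n - k)) * (v ^ k * n.descFactorial k) := Nat.mul_le_mul h1 ih
      _ = v ^ k * v * ((n - k) * n.descFactorial k) := by ring

lemma choose_le {v n : ℕ} (h : v ≤ n) (k : ℕ) :
    (v.choose k : ℝ) * n ^ k ≤ v ^ k * n.choose k := by
  have h1 := desc_le h k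
  rw [Nat.descFactorial_eq_factorial_mul_choose, Nat.descFactorial_eq_factorial_mul_choose] at h1
  have h2 : k.factorial * (v.choose k * n ^ k) ≤ k.factorial * (v ^ k * n.choose k) := by
    calc k.factorial * (v.choose k * n ^ k) = k.factorial * v.choose k * n ^ k := by ring
      _ ≤ v ^ k * (k.factorial * n.choose k) := h1
      _ = _ := by ring
  have h3 := Nat.le_of_mul_le_mul_left h2 (Nat.factorial_pos k)
  exact_mod_cast h3

/-- the map of edges preserves inclusion sums -/
lemma sum_map (w : Finset (Edge n r) → ℝ)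
    (hinv : ∀ (τ : Equiv.Perm (Fin n)) (S : Finset (Edge n r)),
      w (S.map (act τ).toEmbedding) = w S) (τ : Equiv.Perm (Fin n)) (T : Finset (Edge n r)) :
    ∑ S with T ⊆ S, w S = ∑ S with T.map (act τ).toEmbedding ⊆ S, w S := by
  have key : ∑ S : Finset (Edge n r), (if T.map (act τ).toEmbedding ⊆ S then w S else 0) =
      ∑ S : Finset (Edge n r), (if T ⊆ S then w S else 0) := by
    rw [← Equiv.sum_comp (act (r := r) τ).finsetCongr]
    apply Finset.sum_congr rfl
    intro S _
    rw [Equiv.finsetCongr_apply, hinv]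
    have : (T.map (act τ).toEmbedding ⊆ S.map (act τ).toEmbedding) ↔ T ⊆ S :=
      Finset.map_subset_map
    by_cases h : T ⊆ S
    · rw [if_pos h, if_pos (this.2 h)]
    · rw [if_neg h, if_neg (fun h' => h (this.1 h'))]
  rw [Finset.sum_filter, Finset.sum_filter, key]

end SymAux

open SymAux

theorem sym_bound {n r : ℕ} (w : Finset (Edge n r) → ℝ) (hw : ∀ S, 0 ≤ w S)
    (hinv : ∀ (τ : Equiv.Perm (Fin n)) (S : Finset (Edge n r)),
      w (S.map (act τ).toEmbedding) = w S) (T : Finset (Edge n r)) :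
    ∑ S with T ⊆ S, w S ≤ ∑ S, w S * (((VS T).card * (VS S).card : ℝ) / n) ^ (VS T).card := by
  classical
  set k := (VS T).card with hk
  have hkn : k ≤ n := by
    have := Finset.card_le_univ (VS T)
    simpa using this
  rcases Nat.eq_zero_or_pos k with hk0 | hk0
  · rw [hk0]
    simp only [pow_zero, mul_one]
    exact Finset.sum_le_sum_of_subset_of_nonneg (Finset.filter_subset _ _) fun S _ _ => hw S
  -- the sum over all the sets `W` of size `k`
  have h1 : ∀ W ∈ powersetCard k (univ : Finset (Fin n)),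
      ∑ S with T ⊆ S, w S ≤ ∑ S with W ⊆ VS S, w S := by
    intro W hW
    rw [Finset.mem_powersetCard] at hW
    obtain ⟨τ, hτ⟩ := exists_perm (V := VS T) (W := W) (by rw [hW.2])
    rw [sum_map w hinv τ T]
    apply Finset.sum_le_sum_of_subset_of_nonneg
    · intro S hS
      rw [Finset.mem_filter] at hS ⊢
      refine ⟨hS.1, ?_⟩
      rw [← hτ, ← VS_map]
      exact VS_mono hS.2
    · exact fun S _ _ => hw S
  have h2 : (n.choose k : ℝ) * ∑ S with T ⊆ S, w S ≤
      ∑ S, w S * ((VS S).card.choose k : ℝ) := by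
    have e1 : ∑ W ∈ powersetCard k (univ : Finset (Fin n)), ∑ S with T ⊆ S, w S =
        (n.choose k : ℝ) * ∑ S with T ⊆ S, w S := by
      rw [Finset.sum_const, Finset.card_powersetCard, Finset.card_univ, Fintype.card_fin,
        nsmul_eq_mul]
    rw [← e1]
    refine (Finset.sum_le_sum h1).trans (le_of_eq ?_)
    simp_rw [Finset.sum_filter]
    rw [Finset.sum_comm]
    apply Finset.sum_congr rfl
    intro S _
    rw [← Finset.sum_filter, Finset.sum_const, nsmul_eq_mul, mul_comm]
    congr 2
    rw [← Finset.card_powersetCard k (VS S)]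
    congr 1
    ext W
    simp only [Finset.mem_filter, Finset.mem_powersetCard, Finset.subset_univ, true_and]
    exact ⟨fun h => ⟨h.2, h.1⟩, fun h => ⟨h.2, h.1⟩⟩
  have hn : 0 < n := lt_of_lt_of_le hk0 hkn
  have hn' : (0 : ℝ) < (n : ℝ) ^ k := by positivity
  have hc : (0 : ℝ) < n.choose k := by
    exact_mod_cast Nat.choose_pos hkn
  have h3 : ∀ S : Finset (Edge n r), w S * ((VS S).card.choose k : ℝ) ≤
      (n.choose k : ℝ) * (w S * (((k : ℝ) * (VS S).card : ℝ) / n) ^ k) := by
    intro S
    have hv : (VS S).card ≤ n := by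
      have := Finset.card_le_univ (VS S)
      simpa using this
    have h4 := choose_le hv k
    have h5 : ((VS S).card.choose k : ℝ) ≤ (n.choose k : ℝ) * ((VS S).card / n : ℝ) ^ k := by
      rw [div_pow, mul_div_assoc', le_div_iff₀ hn']
      linarith
    have h6 : ((VS S).card / n : ℝ) ^ k ≤ ((k : ℝ) * (VS S).card / n) ^ k := by
      apply pow_le_pow_left₀ (by positivity)
      apply div_le_div_of_nonneg_right _ (by positivity)
      have h7 : (1 : ℝ) ≤ k := by exact_mod_cast hk0
      have h8 : (0 : ℝ) ≤ (VS S).card := by positivity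
      nlinarith
    calc w S * ((VS S).card.choose k : ℝ) ≤
        w S * ((n.choose k : ℝ) * ((k : ℝ) * (VS S).card / n) ^ k) := by
          apply mul_le_mul_of_nonneg_left _ (hw S)
          exact h5.trans (mul_le_mul_of_nonneg_left h6 hc.le)
      _ = _ := by ring
  have h9 : (n.choose k : ℝ) * ∑ S with T ⊆ S, w S ≤
      (n.choose k : ℝ) * ∑ S, w S * (((k : ℝ) * (VS S).card : ℝ) / n) ^ k := by
    rw [Finset.mul_sum (s := (univ : Finset (Finset (Edge n r))))]
    exact h2.trans (Finset.sum_le_sum fun S _ => h3 S)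
  exact le_of_mul_le_mul_left h9 hc

theorem co_sym {n r : ℕ} {p : ℝ} {f : (Edge n r → Bool) → ℝ}
    (hf : ∀ (τ : Equiv.Perm (Fin n)) (x : Edge n r → Bool), f (x ∘ act τ) = f x)
    (τ : Equiv.Perm (Fin n)) (S : Finset (Edge n r)) :
    co p f (S.map (act τ).toEmbedding) = co p f S := by
  unfold co Ex
  rw [← Equiv.sum_comp ((act (r := r) τ).symm.arrowCongr (Equiv.refl Bool))
    (fun x => wt p x * (f x * phS p S x))]
  apply Finset.sum_congr rfl
  intro x _
  have e0 : ((act (r := r) τ).symm.arrowCongr (Equiv.refl Bool)) x = x ∘ act τ := by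
    ext e
    simp
  rw [e0, hf]
  congr 1
  · unfold wt
    rw [← Equiv.prod_comp (act (r := r) τ)]
    rfl
  · show f x * phS p (S.map (act τ).toEmbedding) x = f x * phS p S (x ∘ act τ)
    congr 1
    unfold phS
    rw [Finset.prod_map]
    rfl

end P063
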