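import Vale.Agent.P063.Ph

/-!
# P063 : module A, the two-point logarithmic Sobolev inequality
-/

namespace P063

open Finset Real

variable {p : ℝ}

namespace TwoPt

/-- the entropy of the function with values `u`, `v` -/
noncomputable def D (p u v : ℝ) : ℝ :=
  negMulLog (p * u + (1 - p) * v) - p * negMulLog u - (1 - p) * negMulLog v

theorem D_eq (p u v : ℝ) : D p u v = p * (u * log u - u * log (p * u + (1 - p) * v)) +
    (1 - p) * (v * log v - v * log (p * u + (1 - p) * v)) := by
  unfold D negMulLog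
  ring

/-- the log-sum inequality -/
theorem log_sum {x x' y y' : ℝ} (hx : 0 ≤ x) (hx' : 0 ≤ x') (hy : 0 ≤ y) (hy' : 0 ≤ y')
    (h : y = 0 → x = 0) (h' : y' = 0 → x' = 0) :
    (x + x') * log (x + x') - (x + x') * log (y + y') ≤
      (x * log x - x * log y) + (x' * log x' - x' * log y') := by
  rcases hx.eq_or_lt with rfl | hx0
  · rcases hx'.eq_or_lt with rfl | hx0'
    · simp
    · have hy0' : 0 < y' := lt_of_le_of_ne hy' fun h0 => hx0'.ne' (h' h0.symm)
      have h1 : log y' ≤ log (y + y') := log_le_log hy0' (by linarith)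
      simp only [zero_add, zero_mul, sub_self]
      nlinarith
  · have hy0 : 0 < y := lt_of_le_of_ne hy fun h0 => hx0.ne' (h h0.symm)
    rcases hx'.eq_or_lt with rfl | hx0'
    · have h1 : log y ≤ log (y + y') := log_le_log hy0 (by linarith)
      simp only [add_zero, zero_mul, sub_self]
      nlinarith
    · have hy0' : 0 < y' := lt_of_le_of_ne hy' fun h0 => hx0'.ne' (h' h0.symm)
      have key : ∀ {a b A B : ℝ}, 0 < a → 0 < b → 0 < A → 0 < B →
          a - b * A / B ≤ a * (log a + log B - log b - log A) := by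
        intro a b A B ha hb hA hB
        have h1 := one_sub_inv_le_log_of_pos (show 0 < a * B / (b * A) by positivity)
        have h2 : log (a * B / (b * A)) = log a + log B - log b - log A := by
          rw [log_div (by positivity) (by positivity), log_mul ha.ne' hB.ne',
            log_mul hb.ne' hA.ne']
          ring
        rw [h2] at h1
        have h3 := mul_le_mul_of_nonneg_left h1 ha.le
        have h4 : a * (1 - (a * B / (b * A))⁻¹) = a - b * A / B := by
          field_simp
        rw [h4] at h3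
        exact h3
      have k1 := key hx0 hy0 (show 0 < x + x' by positivity) (show 0 < y + y' by positivity)
      have k2 := key hx0' hy0' (show 0 < x + x' by positivity) (show 0 < y + y' by positivity)
      have k3 : y * (x + x') / (y + y') + y' * (x + x') / (y + y') = x + x' := by
        have : y + y' ≠ 0 := by positivity
        field_simp
      nlinarith

theorem D_add (h0 : 0 < p) (h1 : p < 1) {u v u' v' : ℝ} (hu : 0 ≤ u) (hv : 0 ≤ v)
    (hu' : 0 ≤ u') (hv' : 0 ≤ v') : D p (u + u') (v + v') ≤ D p u v + D p u' v' := by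
  have h2 : 0 < 1 - p := by linarith
  have m0 : 0 ≤ p * u + (1 - p) * v := by positivity
  have m0' : 0 ≤ p * u' + (1 - p) * v' := by positivity
  have a1 : p * u + (1 - p) * v = 0 → u = 0 := fun h => by
    have h3 : 0 ≤ p * u := by positivity
    have h4 : 0 ≤ (1 - p) * v := by positivity
    have h5 : p * u = 0 := by linarith
    rcases mul_eq_zero.mp h5 with h6 | h6
    · linarith
    · exact h6
  have a2 : p * u + (1 - p) * v = 0 → v = 0 := fun h => by
    have h3 : 0 ≤ p * u := by positivity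
    have h4 : 0 ≤ (1 - p) * v := by positivity
    have h5 : (1 - p) * v = 0 := by linarith
    rcases mul_eq_zero.mp h5 with h6 | h6
    · linarith
    · exact h6
  have a1' : p * u' + (1 - p) * v' = 0 → u' = 0 := fun h => by
    have h3 : 0 ≤ p * u' := by positivity
    have h4 : 0 ≤ (1 - p) * v' := by positivity
    have h5 : p * u' = 0 := by linarith
    rcases mul_eq_zero.mp h5 with h6 | h6
    · linarith
    · exact h6
  have a2' : p * u' + (1 - p) * v' = 0 → v' = 0 := fun h => by
    have h3 : 0 ≤ p * u' := by positivity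
    have h4 : 0 ≤ (1 - p) * v' := by positivity
    have h5 : (1 - p) * v' = 0 := by linarith
    rcases mul_eq_zero.mp h5 with h6 | h6
    · linarith
    · exact h6
  rw [D_eq, D_eq, D_eq]
  have k1 := log_sum hu hu' m0 m0' a1 a1'
  have k2 := log_sum hv hv' m0 m0' a2 a2'
  have e : p * (u + u') + (1 - p) * (v + v') = p * u + (1 - p) * v + (p * u' + (1 - p) * v') := by
    ring
  rw [e]
  have k3 := mul_le_mul_of_nonneg_left k1 h0.le
  have k4 := mul_le_mul_of_nonneg_left k2 h2.le
  linarith

/-- the variational bound of the entropy -/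
theorem D_le (h0 : 0 < p) (h1 : p < 1) {u v t : ℝ} (hu : 0 ≤ u) (hv : 0 ≤ v) (ht : 0 < t) :
    D p u v ≤ p * (u * log u - u * log t - u + t) + (1 - p) * (v * log v - v * log t - v + t) := by
  have h2 : 0 < 1 - p := by linarith
  rw [D_eq]
  set m := p * u + (1 - p) * v with hm
  have m0 : 0 ≤ m := by positivity
  have key : m * log t - m * log m ≤ t - m := by
    rcases m0.eq_or_lt with h | h
    · rw [← h]
      simp
      exact ht.le
    · have h3 := log_le_sub_one_of_pos (div_pos ht h)
      rw [log_div ht.ne' h.ne'] at h3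
      have h4 := mul_le_mul_of_nonneg_left h3 h.le
      have h5 : m * (t / m - 1) = t - m := by
        field_simp
      rw [h5] at h4
      linarith
  have e : p * (u * log u - u * log m) + (1 - p) * (v * log v - v * log m) =
      p * (u * log u) + (1 - p) * (v * log v) - m * log m := by
    rw [hm]
    ring
  have e' : p * (u * log u - u * log t - u + t) + (1 - p) * (v * log v - v * log t - v + t) =
      p * (u * log u) + (1 - p) * (v * log v) - m * log t - m + t := by
    rw [hm]
    ring
  rw [e, e']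
  linarith

theorem log_one_add_sq_le (s : ℝ) : log (1 + s ^ 2) ≤ |s| := by
  have h1 : 1 + s ^ 2 ≤ exp |s| := by
    have h2 := Real.quadratic_le_exp_of_nonneg (abs_nonneg s)
    have h3 : |s| ^ 2 = s ^ 2 := sq_abs s
    by_cases hs : |s| ≤ 2
    · nlinarith [abs_nonneg s]
    · push Not at hs
      have h4 : 1 + |s| + |s| ^ 2 / 2 + |s| ^ 3 / 6 ≤ exp |s| := by
        have := Real.sum_le_exp_of_nonneg (abs_nonneg s) 4
        simp [Finset.sum_range_succ, Nat.factorial] at this
        linarith
      nlinarith [mul_pos (show (0:ℝ) < |s| by linarith) (show (0:ℝ) < |s| by linarith)]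
  calc log (1 + s ^ 2) ≤ log (exp |s|) := log_le_log (by positivity) h1
    _ = |s| := log_exp _

theorem theta_le (s : ℝ) :
    (1 + s) ^ 2 * log ((1 + s) ^ 2) - (1 + s) ^ 2 + 1 ≤ 8 * s ^ 2 + s ^ 2 * log (1 + s ^ 2) := by
  have hl : 0 ≤ log (1 + s ^ 2) := log_nonneg (by nlinarith [sq_nonneg s])
  have hl2 := log_one_add_sq_le s
  by_cases hs : |s| ≤ 1 / 2
  · have h1 : (1 + s) ^ 2 * log ((1 + s) ^ 2) ≤ (1 + s) ^ 2 * ((1 + s) ^ 2 - 1) := by
      refine mul_le_mul_of_nonneg_left ?_ (sq_nonneg _)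
      by_cases h0 : (1 + s) ^ 2 = 0
      · rw [h0, log_zero]
        have := abs_le.mp hs
        nlinarith [pow_eq_zero_iff (two_ne_zero) |>.mp h0]
      · exact log_le_sub_one_of_pos (lt_of_le_of_ne (sq_nonneg _) (Ne.symm h0))
    have h2 := abs_le.mp hs
    nlinarith [mul_nonneg (sq_nonneg s) hl, sq_nonneg s, mul_nonneg (sq_nonneg s)
      (show (0:ℝ) ≤ 1/2 - s by linarith [h2.2])]
  · push Not at hs
    have hs2 : 1 / 4 ≤ s ^ 2 := by
      rw [← sq_abs]
      nlinarith
    have hls : (1 + s) ^ 2 * log ((1 + s) ^ 2) ≤ (1 + s) ^ 2 * (log 2 + log (1 + s ^ 2)) := by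
      refine mul_le_mul_of_nonneg_left ?_ (sq_nonneg _)
      rw [← log_mul (by norm_num) (by positivity)]
      by_cases h0 : (1 + s) ^ 2 = 0
      · rw [h0, log_zero]
        exact log_nonneg (by nlinarith)
      · exact log_le_log (lt_of_le_of_ne (sq_nonneg _) (Ne.symm h0)) (by nlinarith [sq_nonneg (1 - s)])
    have hlog2 : log 2 ≤ 1 := by
      have := log_two_lt_d9
      linarith
    have h3 : (1 + s) ^ 2 * log 2 ≤ (1 + s) ^ 2 := by
      nlinarith [sq_nonneg (1 + s)]
    have h4 : (1 + 2 * s) * log (1 + s ^ 2) ≤ 4 * s ^ 2 := by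
      have h5 : (1 + 2 * s) * log (1 + s ^ 2) ≤ (1 + 2 * |s|) * log (1 + s ^ 2) := by
        refine mul_le_mul_of_nonneg_right ?_ hl
        linarith [le_abs_self s]
      have h6 : (1 + 2 * |s|) * log (1 + s ^ 2) ≤ (1 + 2 * |s|) * |s| :=
        mul_le_mul_of_nonneg_left hl2 (by positivity)
      have h7 : |s| ^ 2 = s ^ 2 := sq_abs s
      nlinarith
    nlinarith

/-- one square -/
theorem single (h0 : 0 < p) (h1 : p < 1) (a b : ℝ) :
    D p ((a + b * ph p true) ^ 2) ((a + b * ph p false) ^ 2) ≤ cp p * b ^ 2 := by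
  have h2 : 0 < 1 - p := by linarith
  set q := min p (1 - p) with hq
  have q0 : 0 < q := lt_min h0 h2
  have q1 : 1 ≤ 1 / q := by
    rw [le_div_iff₀ q0]
    have : q ≤ p := min_le_left _ _
    linarith
  have ht : ph p true ^ 2 ≤ 1 / q := by
    rw [ph_true_sq h0 h1, div_le_div_iff₀ h0 q0]
    have : q ≤ p := min_le_left _ _
    nlinarith
  have hf : ph p false ^ 2 ≤ 1 / q := by
    rw [ph_false_sq h0 h1, div_le_div_iff₀ h2 q0]
    have : q ≤ 1 - p := min_le_right _ _
    nlinarith
  have hc : cp p = 2 * log (2 + 2 / q) + 8 := rfl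
  have hlog : 0 ≤ log (2 + 2 / q) := log_nonneg (by
    have : 0 < 2 / q := by positivity
    linarith)
  by_cases hb : b = 0
  · subst hb
    simp only [zero_mul, add_zero]
    unfold D
    have : p * a ^ 2 + (1 - p) * a ^ 2 = a ^ 2 := by ring
    rw [this]
    nlinarith
  have hb2 : 0 < b ^ 2 := by positivity
  by_cases hab : b ^ 2 ≤ a ^ 2
  · have ha2 : 0 < a ^ 2 := by linarith
    have ha : a ≠ 0 := fun h => by rw [h] at ha2; simp at ha2
    refine (D_le h0 h1 (sq_nonneg _) (sq_nonneg _) ha2).trans ?_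
    have key : ∀ {z : ℝ}, z ^ 2 ≤ 1 / q → (a + b * z) ^ 2 * log ((a + b * z) ^ 2) -
        (a + b * z) ^ 2 * log (a ^ 2) - (a + b * z) ^ 2 + a ^ 2 ≤
          (b * z) ^ 2 * (8 + log (2 + 2 / q)) := by
      intro z hz
      have t1 := theta_le (b * z / a)
      have e1 : (1 + b * z / a) ^ 2 = (a + b * z) ^ 2 / a ^ 2 := by
        field_simp
      have e2 : a ^ 2 * ((1 + b * z / a) ^ 2 * log ((1 + b * z / a) ^ 2) -
          (1 + b * z / a) ^ 2 + 1) = (a + b * z) ^ 2 * log ((a + b * z) ^ 2) -
        (a + b * z) ^ 2 * log (a ^ 2) - (a + b * z) ^ 2 + a ^ 2 := by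
        rw [e1]
        by_cases h3 : (a + b * z) ^ 2 = 0
        · rw [h3]
          simp
        · rw [log_div h3 ha2.ne']
          field_simp
      have e3 : a ^ 2 * (8 * (b * z / a) ^ 2 + (b * z / a) ^ 2 * log (1 + (b * z / a) ^ 2)) =
          (b * z) ^ 2 * (8 + log (1 + (b * z / a) ^ 2)) := by
        field_simp
      have t2 := mul_le_mul_of_nonneg_left t1 ha2.le
      rw [e2, e3] at t2
      refine t2.trans (mul_le_mul_of_nonneg_left ?_ (sq_nonneg _))
      have t3 : log (1 + (b * z / a) ^ 2) ≤ log (2 + 2 / q) := by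
        refine log_le_log (by positivity) ?_
        have t4 : (b * z / a) ^ 2 ≤ 1 / q := by
          rw [div_pow, mul_pow, div_le_iff₀ ha2]
          have t5 : b ^ 2 * z ^ 2 ≤ a ^ 2 * (1 / q) :=
            mul_le_mul hab hz (sq_nonneg _) ha2.le
          linarith
        have t5 : 2 / q = 2 * (1 / q) := by ring
        rw [t5]
        linarith
      linarith
    have k1 := mul_le_mul_of_nonneg_left (key ht) h0.le
    have k2 := mul_le_mul_of_nonneg_left (key hf) h2.le
    have e4 : p * ((b * ph p true) ^ 2 * (8 + log (2 + 2 / q))) +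
        (1 - p) * ((b * ph p false) ^ 2 * (8 + log (2 + 2 / q))) =
          b ^ 2 * (8 + log (2 + 2 / q)) := by
      linear_combination b ^ 2 * (8 + log (2 + 2 / q)) * ph_var h0 h1
    rw [hc]
    nlinarith
  · push Not at hab
    refine (D_le h0 h1 (sq_nonneg _) (sq_nonneg _) hb2).trans ?_
    have key : ∀ {z : ℝ}, z ^ 2 ≤ 1 / q → (a + b * z) ^ 2 * log ((a + b * z) ^ 2) -
        (a + b * z) ^ 2 * log (b ^ 2) - (a + b * z) ^ 2 + b ^ 2 ≤
          (a + b * z) ^ 2 * log (2 + 2 / q) - (a + b * z) ^ 2 + b ^ 2 := by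
      intro z hz
      by_cases h3 : (a + b * z) ^ 2 = 0
      · rw [h3]
        simp
      · have h4 : (a + b * z) ^ 2 ≤ (2 + 2 / q) * b ^ 2 := by
          have t5 : b ^ 2 * z ^ 2 ≤ b ^ 2 * (1 / q) := mul_le_mul_of_nonneg_left hz hb2.le
          have t6 : (2 + 2 / q) * b ^ 2 = 2 * b ^ 2 + 2 * (b ^ 2 * (1 / q)) := by ring
          rw [t6]
          nlinarith [sq_nonneg (a - b * z)]
        have h5 : 0 < (a + b * z) ^ 2 := lt_of_le_of_ne (sq_nonneg _) (Ne.symm h3)
        have h6 := log_le_log h5 h4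
        rw [log_mul (by positivity) hb2.ne'] at h6
        nlinarith
    have k1 := mul_le_mul_of_nonneg_left (key ht) h0.le
    have k2 := mul_le_mul_of_nonneg_left (key hf) h2.le
    have e4 := ph_sq_mean h0 h1 a b
    have e5 : p * ((a + b * ph p true) ^ 2 * log (2 + 2 / q) - (a + b * ph p true) ^ 2 + b ^ 2) +
        (1 - p) * ((a + b * ph p false) ^ 2 * log (2 + 2 / q) - (a + b * ph p false) ^ 2 +
          b ^ 2) = (a ^ 2 + b ^ 2) * log (2 + 2 / q) - (a ^ 2 + b ^ 2) + b ^ 2 := by
      linear_combination (log (2 + 2 / q) - 1) * e4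
    rw [hc]
    nlinarith

end TwoPt

open TwoPt in
theorem two_point_sum (h0 : 0 < p) (h1 : p < 1) {ι : Type} (s : Finset ι) (a b : ι → ℝ) :
    negMulLog (∑ i ∈ s, (a i ^ 2 + b i ^ 2)) ≤
      p * negMulLog (∑ i ∈ s, (a i + b i * ph p true) ^ 2) +
        (1 - p) * negMulLog (∑ i ∈ s, (a i + b i * ph p false) ^ 2) +
      cp p * ∑ i ∈ s, b i ^ 2 := by
  classical
  have key : D p (∑ i ∈ s, (a i + b i * ph p true) ^ 2) (∑ i ∈ s, (a i + b i * ph p false) ^ 2) ≤
      cp p * ∑ i ∈ s, b i ^ 2 := by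
    induction s using Finset.induction_on with
    | empty => simp [D]
    | insert i s hi ih =>
      rw [sum_insert hi, sum_insert hi, sum_insert hi, mul_add]
      refine (D_add h0 h1 (sq_nonneg _) (sq_nonneg _) (sum_nonneg fun j _ => sq_nonneg _)
        (sum_nonneg fun j _ => sq_nonneg _)).trans ?_
      exact add_le_add (single h0 h1 _ _) ih
  have e : p * (∑ i ∈ s, (a i + b i * ph p true) ^ 2) +
      (1 - p) * (∑ i ∈ s, (a i + b i * ph p false) ^ 2) = ∑ i ∈ s, (a i ^ 2 + b i ^ 2) := by
    rw [mul_sum, mul_sum, ← sum_add_distrib]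
    exact sum_congr rfl fun i _ => ph_sq_mean h0 h1 _ _
  unfold D at key
  rw [e] at key
  linarith

theorem two_point_conc (h0 : 0 < p) (h1 : p < 1) {u v : ℝ} (hu : 0 ≤ u) (hv : 0 ≤ v) :
    p * negMulLog u + (1 - p) * negMulLog v ≤ negMulLog (p * u + (1 - p) * v) := by
  have := concaveOn_negMulLog.2 hu hv h0.le (by linarith : (0:ℝ) ≤ 1 - p) (by ring)
  simpa using this

end P063
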