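import Vale.Agent.P063.Deriv
import Vale.Agent.P063.Russo

/-!
# P063 : the width of the threshold window
-/

namespace P063

open Finset Real

theorem eq_true_of_le : ∀ b : Bool, true ≤ b → b = true := by decide

/-- a large derivative in the window makes it narrow -/
theorem window {μ D : ℝ → ℝ} (hd : ∀ p, HasDerivAt μ (D p) p)
    (hmono : MonotoneOn μ (Set.Icc 0 1)) (h01 : ∀ p ∈ Set.Icc (0 : ℝ) 1, 0 ≤ μ p ∧ μ p ≤ 1)
    (hμ1 : μ 1 = 1) {ε δ K : ℝ} (hε : 0 < ε) (hε' : ε < 1 / 2) (hδ : 0 < δ) (hK : 0 < K)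
    (h : ∀ p, δ ≤ p → p ≤ 1 - δ → ε ≤ μ p → μ p ≤ 1 - ε → K ≤ D p) :
    sInf {p : ℝ | 0 ≤ p ∧ p ≤ 1 ∧ 1 - ε ≤ μ p} - sInf {p : ℝ | 0 ≤ p ∧ p ≤ 1 ∧ ε ≤ μ p} ≤
      1 / K + 2 * δ := by
  have ne1 : (1 : ℝ) ∈ {p : ℝ | 0 ≤ p ∧ p ≤ 1 ∧ 1 - ε ≤ μ p} :=
    ⟨zero_le_one, le_rfl, by rw [hμ1]; linarith⟩
  have ne2 : (1 : ℝ) ∈ {p : ℝ | 0 ≤ p ∧ p ≤ 1 ∧ ε ≤ μ p} :=
    ⟨zero_le_one, le_rfl, by rw [hμ1]; linarith⟩
  have bd1 : BddBelow {p : ℝ | 0 ≤ p ∧ p ≤ 1 ∧ 1 - ε ≤ μ p} := ⟨0, fun p hp => hp.1⟩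
  set a := sInf {p : ℝ | 0 ≤ p ∧ p ≤ 1 ∧ ε ≤ μ p} with ha
  set b := sInf {p : ℝ | 0 ≤ p ∧ p ≤ 1 ∧ 1 - ε ≤ μ p} with hb
  have ha0 : 0 ≤ a := le_csInf ⟨1, ne2⟩ fun p hp => hp.1
  have hb1 : b ≤ 1 := csInf_le bd1 ne1
  by_contra hcon
  push Not at hcon
  have hK' : 0 < 1 / K := by positivity
  have hst : a + δ < b - δ := by linarith
  have hwin : ∀ u, a + δ ≤ u → u ≤ b - δ → ε ≤ μ u ∧ μ u ≤ 1 - ε := by
    intro u hu hu'
    have hu0 : 0 ≤ u := by linarith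
    have hu1 : u ≤ 1 := by linarith
    constructor
    · obtain ⟨q, hq, hqu⟩ := exists_lt_of_csInf_lt ⟨1, ne2⟩ (show a < u by linarith)
      exact hq.2.2.trans (hmono ⟨hq.1, hq.2.1⟩ ⟨hu0, hu1⟩ hqu.le)
    · have := notMem_of_lt_csInf (show u < b by linarith) bd1
      by_contra h2
      push Not at h2
      exact this ⟨hu0, hu1, h2.le⟩
  obtain ⟨c, hc, hc2⟩ := exists_hasDerivAt_eq_slope μ D hst
    (fun u _ => (hd u).continuousAt.continuousWithinAt) fun u _ => hd u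
  have h3 := hwin c hc.1.le hc.2.le
  have h4 := h c (by linarith [hc.1]) (by linarith [hc.2]) h3.1 h3.2
  rw [hc2, le_div_iff₀ (by linarith)] at h4
  have h5 := h01 (b - δ) ⟨by linarith, by linarith⟩
  have h6 := h01 (a + δ) ⟨by linarith, by linarith⟩
  have h7 : K * (1 / K) < K * (b - δ - (a + δ)) := by
    refine mul_lt_mul_of_pos_left ?_ hK
    linarith
  have h8 : K * (1 / K) = 1 := by field_simp
  linarith

section

variable {E : Type} [Fintype E] [DecidableEq E]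

theorem wt_nonneg' {p : ℝ} (h0 : 0 ≤ p) (h1 : p ≤ 1) (x : E → Bool) : 0 ≤ wt p x := by
  unfold wt
  refine prod_nonneg fun e _ => ?_
  split_ifs <;> linarith

theorem piv_nonneg {p : ℝ} (h0 : 0 ≤ p) (h1 : p ≤ 1) (f : (E → Bool) → ℝ) (e : E) :
    0 ≤ piv p f e :=
  sum_nonneg fun x _ => mul_nonneg (wt_nonneg' h0 h1 x) (abs_nonneg _)

theorem Ex_mem {f : (E → Bool) → ℝ} (hf : ∀ x, f x = 0 ∨ f x = 1) {p : ℝ} (h0 : 0 ≤ p)
    (h1 : p ≤ 1) : 0 ≤ Ex p f ∧ Ex p f ≤ 1 := by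
  constructor
  · refine sum_nonneg fun x _ => mul_nonneg (wt_nonneg' h0 h1 x) ?_
    rcases hf x with h | h <;> rw [h] <;> norm_num
  · have e1 : Ex p (fun _ : E → Bool => 1) = 1 := Ex_one
    rw [← e1]
    refine sum_le_sum fun x _ => mul_le_mul_of_nonneg_left ?_ (wt_nonneg' h0 h1 x)
    rcases hf x with h | h <;> rw [h] <;> norm_num

theorem Ex_at_one {f : (E → Bool) → ℝ} : Ex 1 f = f fun _ => true := by
  unfold Ex
  rw [sum_eq_single fun _ => true]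
  · unfold wt
    simp
  · intro x _ hx
    have : ∃ e, x e = false := by
      by_contra h
      push Not at h
      exact hx (funext fun e => by simpa using h e)
    obtain ⟨e, he⟩ := this
    have h0 : wt (1 : ℝ) x = 0 := by
      unfold wt
      refine prod_eq_zero (mem_univ e) ?_
      rw [he]
      simp
    rw [h0, zero_mul]
  · intro h
    exact absurd (mem_univ _) h

theorem Ex_monotone {f : (E → Bool) → ℝ} (hf : ∀ x y : E → Bool, x ≤ y → f x ≤ f y) :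
    MonotoneOn (fun p => Ex p f) (Set.Icc 0 1) := by
  refine monotoneOn_of_deriv_nonneg (convex_Icc 0 1)
    (fun p _ => (russo hf p).continuousAt.continuousWithinAt)
    (fun p _ => (russo hf p).differentiableAt.differentiableWithinAt) fun p hp => ?_
  rw [interior_Icc] at hp
  rw [(russo hf p).deriv]
  exact sum_nonneg fun e _ => piv_nonneg hp.1.le hp.2.le f e

end

/-- the width of the window, for all the functions -/
theorem width_bound (r : ℕ) (hr : 2 ≤ r) {ε : ℝ} (hε : 0 < ε) (hε' : ε < 1 / 2) :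
    ∃ C : ℝ, ∀ n : ℕ, r ≤ n → ∀ f : (Edge n r → Bool) → ℝ, (∀ x, f x = 0 ∨ f x = 1) →
      (∀ (τ : Equiv.Perm (Fin n)) (x : Edge n r → Bool), f (x ∘ act τ) = f x) →
      (∀ x y : Edge n r → Bool, x ≤ y → f x ≤ f y) → f (fun _ => true) = 1 →
      sInf {p : ℝ | 0 ≤ p ∧ p ≤ 1 ∧ 1 - ε ≤ Ex p f} - sInf {p : ℝ | 0 ≤ p ∧ p ≤ 1 ∧ ε ≤ Ex p f} ≤
        C * log n ^ (-(r : ℝ) / (r - 1)) := by
  obtain ⟨κ, hκ, n₀, hn₀⟩ := deriv_lower r hr hε hε'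
  have hr2 : (2 : ℝ) ≤ r := by exact_mod_cast hr
  have ha1 : 1 ≤ (r / (r - 1) : ℝ) := by
    rw [le_div_iff₀ (by linarith)]
    linarith
  have ha2 : (r / (r - 1) : ℝ) ≤ 2 := by
    rw [div_le_iff₀ (by linarith)]
    linarith
  have hneg : (-(r : ℝ) / (r - 1)) = -(r / (r - 1) : ℝ) := by ring
  rw [hneg]
  generalize (r / (r - 1) : ℝ) = a at *
  refine ⟨1 / κ + 2 + log (max n₀ 2 : ℕ) ^ a, fun n hn f hf hs hm h1 => ?_⟩
  have hn2 : 2 ≤ n := hr.trans hn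
  have hL0 : 0 < log (n : ℝ) := log_pos (by exact_mod_cast (by omega : 1 < n))
  have hN0 : 0 ≤ log ((max n₀ 2 : ℕ) : ℝ) ^ a := by
    refine rpow_nonneg (log_nonneg ?_) _
    have : 1 ≤ max n₀ 2 := by omega
    exact_mod_cast this
  have hLa : 0 < log (n : ℝ) ^ a := rpow_pos_of_pos hL0 _
  rw [rpow_neg hL0.le]
  have hmul : ∀ y : ℝ, y * (log (n : ℝ) ^ a)⁻¹ = y / log (n : ℝ) ^ a := fun y => by
    rw [div_eq_mul_inv]
  rw [hmul, le_div_iff₀ hLa]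
  by_cases hnn : n₀ ≤ n
  · obtain ⟨hL, hd⟩ := hn₀ n hnn
    have hd' := hd f hf hs
    have hw := window (μ := fun p => Ex p f) (D := fun p => ∑ e, piv p f e) (ε := ε)
      (δ := 1 / log n ^ 2) (K := κ * log n ^ a) (fun p => russo hm p) (Ex_monotone hm)
      (fun p hp => Ex_mem hf hp.1 hp.2) (Ex_at_one.trans h1) hε hε'
      (by positivity) (by positivity) hd'
    have h2 : log (n : ℝ) ^ a ≤ log n ^ 2 := by
      have := rpow_le_rpow_of_exponent_le (by linarith : 1 ≤ log (n : ℝ)) ha2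
      have e : log (n : ℝ) ^ (2 : ℝ) = log n ^ 2 := by
        rw [← rpow_natCast]
        norm_num
      rwa [e] at this
    have h3 : (1 / (κ * log (n : ℝ) ^ a) + 2 * (1 / log n ^ 2)) * log (n : ℝ) ^ a ≤
        1 / κ + 2 := by
      have e1 : (1 / (κ * log (n : ℝ) ^ a) + 2 * (1 / log n ^ 2)) * log (n : ℝ) ^ a =
          1 / κ + 2 * (log (n : ℝ) ^ a / log n ^ 2) := by
        field_simp
      have e2 : log (n : ℝ) ^ a / log n ^ 2 ≤ 1 := by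
        rw [div_le_one (by positivity)]
        exact h2
      rw [e1]
      linarith
    have h4 := mul_le_mul_of_nonneg_right hw hLa.le
    linarith
  · push Not at hnn
    have h2 : log (n : ℝ) ^ a ≤ log ((max n₀ 2 : ℕ) : ℝ) ^ a := by
      refine rpow_le_rpow hL0.le (log_le_log (by positivity) ?_) (by linarith)
      exact_mod_cast (by omega : n ≤ max n₀ 2)
    have ne1 : (1 : ℝ) ∈ {p : ℝ | 0 ≤ p ∧ p ≤ 1 ∧ 1 - ε ≤ Ex p f} :=
      ⟨zero_le_one, le_rfl, by rw [Ex_at_one, h1]; linarith⟩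
    have ne2 : (1 : ℝ) ∈ {p : ℝ | 0 ≤ p ∧ p ≤ 1 ∧ ε ≤ Ex p f} :=
      ⟨zero_le_one, le_rfl, by rw [Ex_at_one, h1]; linarith⟩
    have h3 : sInf {p : ℝ | 0 ≤ p ∧ p ≤ 1 ∧ 1 - ε ≤ Ex p f} ≤ 1 :=
      csInf_le ⟨0, fun p hp => hp.1⟩ ne1
    have h4 : 0 ≤ sInf {p : ℝ | 0 ≤ p ∧ p ≤ 1 ∧ ε ≤ Ex p f} :=
      le_csInf ⟨1, ne2⟩ fun p hp => hp.1
    have h5 : (sInf {p : ℝ | 0 ≤ p ∧ p ≤ 1 ∧ 1 - ε ≤ Ex p f} -
        sInf {p : ℝ | 0 ≤ p ∧ p ≤ 1 ∧ ε ≤ Ex p f}) * log (n : ℝ) ^ a ≤ 1 * log (n : ℝ) ^ a :=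
      mul_le_mul_of_nonneg_right (by linarith) hLa.le
    have h6 : 0 < 1 / κ := by positivity
    linarith

end P063
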